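import Vale.Agent.P256.Bdl.B1

/-! Ultrafilter calculus for slack kernels: sums of squares along filters, compactness
(local SOS at every pair of ultrafilters implies SOS), the syzygy lemma, bounded kernels. -/

set_option linter.all false

namespace Vale.Agent.P256.H326

open Filter Topology Vale.Agent.P256

variable {L X : Type*}

/-- `h` is a sum of squares on a product of elements of the filters -/
def SosF (F : Filter L) (G : Filter X) (h : L → X → ℝ) : Prop :=
  ∃ A ∈ F, ∃ B ∈ G, SosOn A B h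

variable {F : Filter L} {G : Filter X}

/-- equality on a product of elements of the filters -/
def EqF (F : Filter L) (G : Filter X) (h h' : L → X → ℝ) : Prop :=
  ∃ A ∈ F, ∃ B ∈ G, ∀ l ∈ A, ∀ x ∈ B, h l x = h' l x

theorem EqF.refl (h : L → X → ℝ) : EqF F G h h :=
  ⟨Set.univ, univ_mem, Set.univ, univ_mem, fun _ _ _ _ => rfl⟩

theorem EqF.symm {h h' : L → X → ℝ} (H : EqF F G h h') : EqF F G h' h := by
  obtain ⟨A, hA, B, hB, e⟩ := H
  exact ⟨A, hA, B, hB, fun l hl x hx => (e l hl x hx).symm⟩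

theorem EqF.trans {h h' h'' : L → X → ℝ} (H : EqF F G h h') (H' : EqF F G h' h'') :
    EqF F G h h'' := by
  obtain ⟨A, hA, B, hB, e⟩ := H
  obtain ⟨A', hA', B', hB', e'⟩ := H'
  exact ⟨A ∩ A', inter_mem hA hA', B ∩ B', inter_mem hB hB', fun l hl x hx =>
    (e l hl.1 x hx.1).trans (e' l hl.2 x hx.2)⟩

theorem EqF.of_eventually {h h' : L → X → ℝ} (PL : L → Prop) (PX : X → Prop)
    (hL : ∀ᶠ l in F, PL l) (hX : ∀ᶠ x in G, PX x) (e : ∀ l x, PL l → PX x → h l x = h' l x) :
    EqF F G h h' :=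
  ⟨_, hL, _, hX, fun l hl x hx => e l x hl hx⟩

theorem SosF.congr {h h' : L → X → ℝ} (H : SosF F G h) (e : EqF F G h' h) : SosF F G h' := by
  obtain ⟨A, hA, B, hB, s⟩ := H
  obtain ⟨A', hA', B', hB', e⟩ := e
  exact ⟨A ∩ A', inter_mem hA hA', B ∩ B', inter_mem hB hB',
    (s.mono Set.inter_subset_left Set.inter_subset_left).congr
      fun l hl x hx => e l hl.2 x hx.2⟩

theorem SosF.congr' {h h' : L → X → ℝ} (H : SosF F G h) (e : ∀ l x, h' l x = h l x) :
    SosF F G h' :=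
  H.congr ⟨Set.univ, univ_mem, Set.univ, univ_mem, fun l _ x _ => e l x⟩

theorem SosOn.sosF {A : Set L} {B : Set X} {h : L → X → ℝ} (H : SosOn A B h) (hA : A ∈ F)
    (hB : B ∈ G) : SosF F G h := ⟨A, hA, B, hB, H⟩

theorem Sos.sosF {h : L → X → ℝ} (H : Sos h) : SosF F G h :=
  ⟨Set.univ, univ_mem, Set.univ, univ_mem, H.sosOn _ _⟩

theorem SosF.mono {F' : Filter L} {G' : Filter X} {h : L → X → ℝ} (H : SosF F G h)
    (hF : F' ≤ F) (hG : G' ≤ G) : SosF F' G' h := by
  obtain ⟨A, hA, B, hB, s⟩ := H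
  exact ⟨A, hF hA, B, hG hB, s⟩

theorem SosF.add {h h' : L → X → ℝ} (H : SosF F G h) (H' : SosF F G h') :
    SosF F G (fun l x => h l x + h' l x) := by
  obtain ⟨A, hA, B, hB, s⟩ := H
  obtain ⟨A', hA', B', hB', s'⟩ := H'
  exact ⟨A ∩ A', inter_mem hA hA', B ∩ B', inter_mem hB hB',
    (s.mono Set.inter_subset_left Set.inter_subset_left).add
      (s'.mono Set.inter_subset_right Set.inter_subset_right)⟩

theorem SosF.mul {h h' : L → X → ℝ} (H : SosF F G h) (H' : SosF F G h') :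
    SosF F G (fun l x => h l x * h' l x) := by
  obtain ⟨A, hA, B, hB, s⟩ := H
  obtain ⟨A', hA', B', hB', s'⟩ := H'
  exact ⟨A ∩ A', inter_mem hA hA', B ∩ B', inter_mem hB hB',
    (s.mono Set.inter_subset_left Set.inter_subset_left).mul
      (s'.mono Set.inter_subset_right Set.inter_subset_right)⟩

theorem SosF.zero : SosF F G (fun (_ : L) (_ : X) => (0 : ℝ)) := Sos.sosF Sos.zero

theorem SosF.const {c : ℝ} (hc : 0 ≤ c) : SosF F G (fun (_ : L) (_ : X) => c) :=
  Sos.sosF (Sos.const hc)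

theorem SosF.smul {h : L → X → ℝ} {c : ℝ} (hc : 0 ≤ c) (H : SosF F G h) :
    SosF F G (fun l x => c * h l x) := (SosF.const hc).mul H

theorem SosF.sum {ι : Type*} (s : Finset ι) {h : ι → L → X → ℝ}
    (H : ∀ i ∈ s, SosF F G (h i)) : SosF F G (fun l x => ∑ i ∈ s, h i l x) := by
  classical
  induction s using Finset.induction_on with
  | empty => simpa using (SosF.zero (F := F) (G := G))
  | insert i s hi ih =>
    have h1 := H i (Finset.mem_insert_self i s)
    have h2 := ih (fun j hj => H j (Finset.mem_insert_of_mem hj))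
    refine (h1.add h2).congr' (fun l x => ?_)
    rw [Finset.sum_insert hi]

theorem SosF.left {a : L → ℝ} (ha : ∀ᶠ l in F, 0 ≤ a l) :
    SosF F G (fun l (_ : X) => a l) :=
  ⟨{l | 0 ≤ a l}, ha, Set.univ, univ_mem, SosOn.left fun _ hl => hl⟩

theorem SosF.right {f : X → ℝ} (hf : ∀ᶠ x in G, 0 ≤ f x) :
    SosF F G (fun (_ : L) x => f x) :=
  ⟨Set.univ, univ_mem, {x | 0 ≤ f x}, hf, SosOn.right fun _ hx => hx⟩

theorem SosF.sq {h : L → X → ℝ} (H : FR h) : SosF F G (fun l x => h l x ^ 2) :=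
  Sos.sosF H.sq

theorem GermFR.sosF {h : L → X → ℝ} {c : ℝ} (H : GermFR F G h c) (hc : 0 < c) :
    SosF F G h := by
  obtain ⟨S, hS, T, hT, s⟩ := H.pos hc
  exact ⟨S, hS, T, hT, s⟩

/-- an ideal of sets which contains an element of each ultrafilter `≤ E` through `R` contains
`A ∩ R` for some `A ∈ E` -/
theorem ideal_ultra {Z : Type*} (E : Filter Z) (R : Set Z) (I : Set Z → Prop) (h0 : I ∅)
    (h1 : ∀ A B : Set Z, I A → I B → I (A ∪ B)) (h2 : ∀ A B : Set Z, A ⊆ B → I B → I A)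
    (h3 : ∀ U : Ultrafilter Z, (U : Filter Z) ≤ E → R ∈ U → ∃ A ∈ U, I A) :
    ∃ A ∈ E, I (A ∩ R) := by
  by_contra hR
  push Not at hR
  let F0 : Filter Z :=
    { sets := {A | ∃ D ∈ E, I ((D ∩ R) \ A)}
      univ_sets := ⟨Set.univ, univ_mem, by simpa using h0⟩
      sets_of_superset := fun {A B} ⟨D, hD, hA⟩ hAB =>
        ⟨D, hD, h2 _ _ (Set.sdiff_subset_sdiff_right hAB) hA⟩
      inter_sets := fun {A B} ⟨D, hD, hA⟩ ⟨D', hD', hB⟩ => by
        refine ⟨D ∩ D', inter_mem hD hD', h2 _ _ ?_ (h1 _ _ hA hB)⟩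
        rintro z ⟨⟨⟨z1, z2⟩, z3⟩, z4⟩
        by_cases hzA : z ∈ A
        · right
          exact ⟨⟨z2, z3⟩, fun hzB => z4 ⟨hzA, hzB⟩⟩
        · left
          exact ⟨⟨z1, z3⟩, hzA⟩ }
  have hmem : ∀ A, A ∈ F0 ↔ ∃ D ∈ E, I ((D ∩ R) \ A) := fun A => Iff.rfl
  have hne : F0.NeBot := by
    rw [neBot_iff]
    intro hb
    have : (∅ : Set Z) ∈ F0 := by rw [hb]; exact mem_bot
    rw [hmem] at this
    obtain ⟨D, hD, hI⟩ := this
    rw [Set.sdiff_empty] at hI
    exact hR D hD hI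
  have hle : ((Ultrafilter.of F0 : Ultrafilter Z) : Filter Z) ≤ F0 := Ultrafilter.of_le F0
  have hFE : F0 ≤ E := by
    intro D hD
    rw [hmem]
    refine ⟨D, hD, ?_⟩
    have : (D ∩ R) \ D = ∅ := by
      ext z; constructor
      · rintro ⟨⟨h1, _⟩, h2⟩; exact h2 h1
      · intro h; exact absurd h (Set.notMem_empty z)
    rw [this]; exact h0
  have hRm : R ∈ Ultrafilter.of F0 := hle (by
    show R ∈ F0
    rw [hmem]
    refine ⟨Set.univ, univ_mem, ?_⟩
    have : ((Set.univ : Set Z) ∩ R) \ R = ∅ := by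
      ext z; constructor
      · rintro ⟨⟨_, h1⟩, h2⟩; exact h2 h1
      · intro h; exact absurd h (Set.notMem_empty z)
    rw [this]; exact h0)
  obtain ⟨A, hA, hIA⟩ := h3 _ (hle.trans hFE) hRm
  have hAc : Aᶜ ∈ F0 := by
    rw [hmem]
    refine ⟨Set.univ, univ_mem, h2 _ A ?_ hIA⟩
    intro z hz
    by_contra hzA
    exact hz.2 hzA
  have h5 : Aᶜ ∈ Ultrafilter.of F0 := hle hAc
  have h6 := (Ultrafilter.of F0).inter_mem hA h5
  rw [Set.inter_compl_self] at h6
  exact (Ultrafilter.of F0).empty_notMem h6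

/-- **Compactness**: let `S`, `T` be sets and `E`, `E'` filters.  A kernel which is a sum of
squares at each pair of ultrafilters below `E`, `E'` through `S`, `T` is a sum of squares on
`(A ∩ S) × (B ∩ T)` for some `A ∈ E`, `B ∈ E'`. -/
theorem sosOn_of_ultra_filter {E : Filter L} {E' : Filter X}
    {S : Set L} {T : Set X} {h : L → X → ℝ}
    (H : ∀ (U : Ultrafilter L) (V : Ultrafilter X), (U : Filter L) ≤ E → S ∈ U →
      (V : Filter X) ≤ E' → T ∈ V → SosF (U : Filter L) (V : Filter X) h) :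
    ∃ A ∈ E, ∃ B ∈ E', SosOn (A ∩ S) (B ∩ T) h := by
  have step : ∀ V : Ultrafilter X, (V : Filter X) ≤ E' → T ∈ V →
      ∃ B ∈ V, ∃ A ∈ E, SosOn (A ∩ S) B h := by
    intro V hVb hV
    obtain ⟨A, hA, B, hB, s⟩ := ideal_ultra E S (fun A => ∃ B ∈ V, SosOn A B h)
      ⟨Set.univ, univ_mem, SosOn.empty_left⟩
      (fun A A' hA hA' => by
        obtain ⟨B, hB, s⟩ := hA
        obtain ⟨B', hB', s'⟩ := hA'
        have t1 : SosOn A (B ∩ B') h := s.mono subset_rfl Set.inter_subset_left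
        have t2 : SosOn A' (B ∩ B') h := s'.mono subset_rfl Set.inter_subset_right
        exact ⟨B ∩ B', inter_mem hB hB', t1.union_left t2⟩)
      (fun A A' hAA' hA' => by
        obtain ⟨B, hB, s⟩ := hA'
        exact ⟨B, hB, s.mono hAA' subset_rfl⟩)
      (fun U hUa hU => by
        obtain ⟨A, hA, B, hB, s⟩ := H U V hUa hU hVb hV
        exact ⟨A, hA, B, hB, s⟩)
    exact ⟨B, hB, A, hA, s⟩
  obtain ⟨B, hB, A, hA, s⟩ := ideal_ultra E' T (fun B => ∃ A ∈ E, SosOn (A ∩ S) B h)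
    ⟨Set.univ, univ_mem, SosOn.empty_right⟩
    (fun B B' hB hB' => by
      obtain ⟨A, hA, s⟩ := hB
      obtain ⟨A', hA', s'⟩ := hB'
      have t1 : SosOn (A ∩ A' ∩ S) B h :=
        s.mono (Set.inter_subset_inter_left _ Set.inter_subset_left) subset_rfl
      have t2 : SosOn (A ∩ A' ∩ S) B' h :=
        s'.mono (Set.inter_subset_inter_left _ Set.inter_subset_right) subset_rfl
      exact ⟨A ∩ A', inter_mem hA hA', t1.union_right t2⟩)
    (fun B B' hBB' hB' => by
      obtain ⟨A, hA, s⟩ := hB'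
      exact ⟨A, hA, s.mono subset_rfl hBB'⟩)
    (fun V hVb hV => by
      obtain ⟨B, hB, A, hA, s⟩ := step V hVb hV
      exact ⟨B, hB, A, hA, s⟩)
  exact ⟨A, hA, B, hB, s⟩

/-- **Compactness**: a kernel which is a sum of squares at each pair of ultrafilters is a sum of
squares. -/
theorem sosOn_of_ultra {S : Set L} {T : Set X} {h : L → X → ℝ}
    (H : ∀ (U : Ultrafilter L) (V : Ultrafilter X), S ∈ U → T ∈ V →
      SosF (U : Filter L) (V : Filter X) h) : SosOn S T h := by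
  obtain ⟨A, hA, B, hB, s⟩ := sosOn_of_ultra_filter (E := ⊤) (E' := ⊤) (S := S) (T := T) (h := h)
    (fun U V _ hU _ hV => H U V hU hV)
  rw [mem_top] at hA hB
  rw [hA, hB, Set.univ_inter, Set.univ_inter] at s
  exact s

/-! ### The syzygy lemma -/

/-- **Syzygy lemma (OU)**: `s = Σ M_ij f_i f_j` where the limit form is positive definite on the
common kernel of the limits of finitely many syzygies `Σ_j R_kj f_j = 0`. -/
theorem sosF_of_syzygy {ι κ : Type*} [Fintype ι] [Fintype κ] {f : ι → L → X → ℝ}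
    (hf : ∀ i, FR (f i)) {M : ι → ι → L → X → ℝ} {C : ι → ι → ℝ}
    (hM : ∀ i j, GermFR F G (M i j) (C i j)) {R : κ → ι → L → X → ℝ} {ρ : κ → ι → ℝ}
    (hR : ∀ k j, GermFR F G (R k j) (ρ k j))
    (hs : ∀ k, EqF F G (fun l x => ∑ j, R k j l x * f j l x) (fun _ _ => 0))
    (hpos : ∀ w : ι → ℝ, w ≠ 0 → (∀ k, ∑ j, ρ k j * w j = 0) →
      0 < ∑ i, ∑ j, C i j * w i * w j) :
    SosF F G (fun l x => ∑ i, ∑ j, M i j l x * f i l x * f j l x) := by
  classical
  obtain ⟨N, hN, hfin⟩ := finsler (ι := ι)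
    (q := fun w => ∑ i, ∑ j, C i j * w i * w j)
    (B := fun w => ∑ k, (∑ j, ρ k j * w j) ^ 2) (by fun_prop) (by fun_prop)
    (fun t w => by
      simp only [Pi.smul_apply, smul_eq_mul, Finset.mul_sum]
      refine Finset.sum_congr rfl fun i _ => Finset.sum_congr rfl fun j _ => ?_
      ring)
    (fun t w => by
      simp only [Pi.smul_apply, smul_eq_mul, Finset.mul_sum]
      refine Finset.sum_congr rfl fun k _ => ?_
      have : ∑ j, ρ k j * (t * w j) = t * ∑ j, ρ k j * w j := by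
        rw [Finset.mul_sum]
        exact Finset.sum_congr rfl fun j _ => by ring
      rw [this]; ring)
    (fun w => Finset.sum_nonneg fun k _ => sq_nonneg _)
    (fun w hw hB => by
      refine hpos w hw fun k => ?_
      have := (Finset.sum_eq_zero_iff_of_nonneg (fun k _ => sq_nonneg (∑ j, ρ k j * w j))).1 hB k
        (Finset.mem_univ k)
      exact pow_eq_zero_iff (two_ne_zero) |>.1 this)
  have h1 : SosF F G (fun l x => ∑ i, ∑ j,
      (M i j l x + N * ∑ k, R k i l x * R k j l x) * f i l x * f j l x) := by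
    obtain ⟨A, hA, B, hB, s⟩ := robust (F := F) (G := G)
      (C := fun i j => C i j + N * ∑ k, ρ k i * ρ k j)
      (M := fun i j l x => M i j l x + N * ∑ k, R k i l x * R k j l x)
      (fun w hw => by
        have h0 := hfin w hw
        have e : ∑ i, ∑ j, (C i j + N * ∑ k, ρ k i * ρ k j) * w i * w j =
            ∑ i, ∑ j, C i j * w i * w j + N * ∑ k, (∑ j, ρ k j * w j) ^ 2 := by
          have e1 : ∀ k, (∑ j, ρ k j * w j) ^ 2 =
              ∑ i, ∑ j, (ρ k i * ρ k j) * w i * w j := by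
            intro k
            rw [sq, Finset.sum_mul_sum]
            exact Finset.sum_congr rfl fun i _ => Finset.sum_congr rfl fun j _ => by ring
          simp only [e1]
          rw [Finset.sum_comm (s := Finset.univ) (t := Finset.univ)
            (f := fun k i => ∑ j, (ρ k i * ρ k j) * w i * w j), Finset.mul_sum,
            ← Finset.sum_add_distrib]
          refine Finset.sum_congr rfl fun i _ => ?_
          rw [Finset.sum_comm, Finset.mul_sum, ← Finset.sum_add_distrib]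
          refine Finset.sum_congr rfl fun j _ => ?_
          have : ∑ k, ρ k i * ρ k j * w i * w j = (∑ k, ρ k i * ρ k j) * w i * w j := by
            rw [Finset.sum_mul, Finset.sum_mul]
          rw [this]; ring
        rw [e]; exact h0)
      (fun i j => (hM i j).add ((GermFR.sum _ fun k _ => (hR k i).mul (hR k j)).smul N)) hf
    exact ⟨A, hA, B, hB, s⟩
  refine h1.congr ?_
  have h2 : ∃ A ∈ F, ∃ B ∈ G, ∀ k, ∀ l ∈ A, ∀ x ∈ B, ∑ j, R k j l x * f j l x = 0 := by
    choose A hA B hB e using hs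
    refine ⟨⋂ k, A k, iInter_mem.2 hA, ⋂ k, B k, iInter_mem.2 hB, fun k l hl x hx => ?_⟩
    exact e k l (Set.mem_iInter.1 hl k) x (Set.mem_iInter.1 hx k)
  obtain ⟨A, hA, B, hB, e⟩ := h2
  refine ⟨A, hA, B, hB, fun l hl x hx => ?_⟩
  show ∑ i, ∑ j, M i j l x * f i l x * f j l x =
    ∑ i, ∑ j, (M i j l x + N * ∑ k, R k i l x * R k j l x) * f i l x * f j l x
  have e1 : ∑ i, ∑ j, (M i j l x + N * ∑ k, R k i l x * R k j l x) * f i l x * f j l x =
      ∑ i, ∑ j, M i j l x * f i l x * f j l x + N * ∑ k, (∑ j, R k j l x * f j l x) ^ 2 := by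
    have e1 : ∀ k, (∑ j, R k j l x * f j l x) ^ 2 =
        ∑ i, ∑ j, (R k i l x * R k j l x) * f i l x * f j l x := by
      intro k
      rw [sq, Finset.sum_mul_sum]
      exact Finset.sum_congr rfl fun i _ => Finset.sum_congr rfl fun j _ => by ring
    simp only [e1]
    rw [Finset.sum_comm (s := Finset.univ) (t := Finset.univ)
      (f := fun k i => ∑ j, (R k i l x * R k j l x) * f i l x * f j l x), Finset.mul_sum,
      ← Finset.sum_add_distrib]
    refine Finset.sum_congr rfl fun i _ => ?_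
    rw [Finset.sum_comm, Finset.mul_sum, ← Finset.sum_add_distrib]
    refine Finset.sum_congr rfl fun j _ => ?_
    have : ∑ k, R k i l x * R k j l x * f i l x * f j l x =
        (∑ k, R k i l x * R k j l x) * f i l x * f j l x := by
      rw [Finset.sum_mul, Finset.sum_mul]
    rw [this]; ring
  rw [e1]
  have e2 : ∑ k, (∑ j, R k j l x * f j l x) ^ 2 = 0 :=
    Finset.sum_eq_zero fun k _ => by rw [e k l hl x hx]; ring
  rw [e2]; ring

/-! ### Bounded functions and bounded kernels along ultrafilters -/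

/-- a function which is bounded along an ultrafilter converges along it -/
theorem exists_tendsto {Z : Type*} (U : Ultrafilter Z) {a : Z → ℝ} {c : ℝ}
    (h : ∀ᶠ z in (U : Filter Z), |a z| ≤ c) : ∃ a0, |a0| ≤ c ∧ Tendsto a U (𝓝 a0) := by
  have h1 : IsCompact (Set.Icc (-c) c) := isCompact_Icc
  have h2 : ((U.map a : Ultrafilter ℝ) : Filter ℝ) ≤ 𝓟 (Set.Icc (-c) c) := by
    rw [le_principal_iff]
    show a ⁻¹' (Set.Icc (-c) c) ∈ U
    filter_upwards [h] with z hz
    exact abs_le.1 hz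
  obtain ⟨a0, ha0, h3⟩ := h1.ultrafilter_le_nhds (U.map a) h2
  exact ⟨a0, abs_le.2 ha0, h3⟩

/-- comparison along an ultrafilter -/
theorem ultra_le_total {Z : Type*} (U : Ultrafilter Z) (a b : Z → ℝ) :
    (∀ᶠ z in (U : Filter Z), a z ≤ b z) ∨ (∀ᶠ z in (U : Filter Z), b z ≤ a z) := by
  rcases U.mem_or_compl_mem {z | a z ≤ b z} with h | h
  · exact Or.inl h
  · refine Or.inr ?_
    filter_upwards [h] with z hz
    have hz' : ¬ a z ≤ b z := hz
    exact (not_le.1 hz').le

/-- a dependence between the right factors shortens a representation -/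
theorem reduce_rep {B : Set X} {n : ℕ} (a : Fin n → L → ℝ) (f : Fin n → X → ℝ) {v : Fin n → ℝ}
    (hv : v ≠ 0) (hz : ∀ x ∈ B, ∑ k, v k * f k x = 0) :
    ∃ m, n = m + 1 ∧ ∃ (a' : Fin m → L → ℝ) (f' : Fin m → X → ℝ),
      ∀ l, ∀ x ∈ B, ∑ k, a k l * f k x = ∑ k, a' k l * f' k x := by
  classical
  obtain ⟨i, hi⟩ := Function.ne_iff.1 hv
  have hi' : v i ≠ 0 := hi
  obtain ⟨m, hm⟩ : ∃ m, n = m + 1 := ⟨n - 1, by
    have : 0 < n := i.pos
    omega⟩
  refine ⟨m, hm, ?_⟩
  have hfi : ∀ x ∈ B, f i x = ∑ k ∈ Finset.univ.erase i, (-(v k / v i)) * f k x := by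
    intro x hx
    have h1 := hz x hx
    rw [← Finset.add_sum_erase _ _ (Finset.mem_univ i)] at h1
    have h2 : f i x = -(∑ k ∈ Finset.univ.erase i, v k * f k x) / v i := by
      field_simp
      linarith only [h1]
    rw [h2, neg_div, Finset.sum_div, ← Finset.sum_neg_distrib]
    refine Finset.sum_congr rfl fun k _ => by ring
  have hnew : ∀ l, ∀ x ∈ B, ∑ k, a k l * f k x =
      ∑ k ∈ Finset.univ.erase i, (a k l - a i l * (v k / v i)) * f k x := by
    intro l x hx
    rw [← Finset.add_sum_erase _ _ (Finset.mem_univ i), hfi x hx, Finset.mul_sum,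
      ← Finset.sum_add_distrib]
    refine Finset.sum_congr rfl fun k _ => by ring
  have hcard : (Finset.univ.erase i).card = m := by
    rw [Finset.card_erase_of_mem (Finset.mem_univ i), Finset.card_univ, Fintype.card_fin, hm]
    rfl
  let φ := (Finset.univ.erase i).equivFinOfCardEq hcard
  refine ⟨fun k l => a (φ.symm k).1 l - a i l * (v (φ.symm k).1 / v i),
    fun k x => f (φ.symm k).1 x, fun l x hx => ?_⟩
  rw [hnew l x hx, ← Finset.sum_coe_sort]
  exact (Equiv.sum_comp φ.symm (fun k : (Finset.univ.erase i) =>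
    (a k.1 l - a i l * (v k.1 / v i)) * f k.1 x)).symm

/-- independent functions are separated by finitely many points -/
theorem separate {Z : Type*} (D : Set Z) {n : ℕ} (g : Fin n → Z → ℝ)
    (hg : ∀ (v : Fin n → ℝ), v ≠ 0 → (∀ x ∈ D, ∑ k, v k * g k x = 0) → False) (k : Fin n) :
    ∃ (m : ℕ) (w : Fin m → ℝ) (z : Fin m → Z), (∀ j, z j ∈ D) ∧
      ∀ j, ∑ i, w i * g j (z i) = if j = k then 1 else 0 := by
  classical
  set W : Submodule ℝ (Fin n → ℝ) := Submodule.span ℝ ((fun z j => g j z) '' D) with hW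
  have hWtop : W = ⊤ := by
    by_contra hne
    obtain ⟨φ, hφ0, hφ⟩ := Submodule.exists_le_ker_of_lt_top W (lt_top_iff_ne_top.2 hne)
    have hv : ∀ v : Fin n → ℝ, φ v = ∑ j, φ (Pi.single j (1 : ℝ)) * v j := by
      intro v
      have hv : v = ∑ j, v j • (Pi.single j (1 : ℝ) : Fin n → ℝ) := by
        ext i
        simp [Finset.sum_apply, Pi.single_apply]
      conv_lhs => rw [hv]
      rw [map_sum]
      simp only [map_smul, smul_eq_mul]
      exact Finset.sum_congr rfl fun j _ => by ring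
    refine hg (fun j => φ (Pi.single j 1)) ?_ ?_
    · intro h0
      apply hφ0
      refine LinearMap.ext fun v => ?_
      rw [hv, LinearMap.zero_apply]
      refine Finset.sum_eq_zero fun j _ => ?_
      have : φ (Pi.single j (1 : ℝ)) = 0 := congrFun h0 j
      rw [this, zero_mul]
    · intro x hx
      have h1 : (fun j => g j x) ∈ W := Submodule.subset_span ⟨x, hx, rfl⟩
      have h2 : φ (fun j => g j x) = 0 := hφ h1
      rw [hv] at h2
      exact h2
  have hk : (Pi.single k (1 : ℝ) : Fin n → ℝ) ∈ W := by rw [hWtop]; trivial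
  obtain ⟨m, w, y, hy⟩ := Submodule.mem_span_set'.1 hk
  have h1 : ∀ i, ∃ z ∈ D, (fun j => g j z) = (y i : Fin n → ℝ) := fun i => (y i).2
  choose z hz hzy using h1
  refine ⟨m, w, z, hz, fun j => ?_⟩
  have h2 := congrFun hy j
  rw [Finset.sum_apply] at h2
  rw [Pi.single_apply] at h2
  rw [← h2]
  refine Finset.sum_congr rfl fun i _ => ?_
  rw [Pi.smul_apply, smul_eq_mul, ← hzy i]

/-- A kernel of finite rank bounded on `A × B` has a representation with bounded factors. -/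
theorem bounded_factors {A : Set L} {B : Set X} {h : L → X → ℝ} (H : FR h) {c : ℝ}
    (hb : ∀ l ∈ A, ∀ x ∈ B, |h l x| ≤ c) :
    ∃ (n : ℕ) (a : Fin n → L → ℝ) (f : Fin n → X → ℝ) (c' : ℝ),
      (∀ l ∈ A, ∀ x ∈ B, h l x = ∑ k, a k l * f k x) ∧
      (∀ k, ∀ l ∈ A, |a k l| ≤ c') ∧ (∀ k, ∀ x ∈ B, |f k x| ≤ c') := by
  classical
  -- a representation of minimal length on `A × B`
  have hex : ∃ n : ℕ, ∃ (a : Fin n → L → ℝ) (f : Fin n → X → ℝ),
      ∀ l ∈ A, ∀ x ∈ B, h l x = ∑ k, a k l * f k x := by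
    obtain ⟨n, a, f, e⟩ := H
    exact ⟨n, a, f, fun l _ x _ => e l x⟩
  obtain ⟨n, ⟨a, f, e⟩, hmin⟩ : ∃ n : ℕ, (∃ (a : Fin n → L → ℝ) (f : Fin n → X → ℝ),
      ∀ l ∈ A, ∀ x ∈ B, h l x = ∑ k, a k l * f k x) ∧ ∀ m : ℕ,
      (∃ (a : Fin m → L → ℝ) (f : Fin m → X → ℝ),
      ∀ l ∈ A, ∀ x ∈ B, h l x = ∑ k, a k l * f k x) → n ≤ m :=
    ⟨Nat.find hex, Nat.find_spec hex, fun m hm => Nat.find_min' hex hm⟩
  have red : ∀ (v : Fin n → ℝ), v ≠ 0 → (∀ x ∈ B, ∑ k, v k * f k x = 0) → False := by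
    intro v hv hz
    obtain ⟨m, hm, a', f', e'⟩ := reduce_rep a f hv hz
    have := hmin m ⟨a', f', fun l hl x hx => (e l hl x hx).trans (e' l x hx)⟩
    omega
  have red' : ∀ (v : Fin n → ℝ), v ≠ 0 → (∀ l ∈ A, ∑ k, v k * a k l = 0) → False := by
    intro v hv hz
    obtain ⟨m, hm, f', a', e'⟩ := reduce_rep f a hv hz
    have := hmin m ⟨a', f', fun l hl x hx => (e l hl x hx).trans (by
      have := e' x l hl
      rw [Finset.sum_congr rfl (fun k _ => mul_comm (a k l) (f k x)), this]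
      exact Finset.sum_congr rfl fun k _ => mul_comm _ _)⟩
    omega
  have ba : ∀ k : Fin n, ∃ c1 : ℝ, ∀ l ∈ A, |a k l| ≤ c1 := by
    intro k
    obtain ⟨m, w, z, hz, hw⟩ := separate B f red k
    refine ⟨∑ i, |w i| * c, fun l hl => ?_⟩
    have h1 : a k l = ∑ i, w i * h l (z i) := by
      have h2 : ∑ i, w i * h l (z i) = ∑ j, a j l * ∑ i, w i * f j (z i) := by
        simp only [Finset.mul_sum]
        rw [Finset.sum_comm]
        refine Finset.sum_congr rfl fun i _ => ?_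
        rw [e l hl (z i) (hz i), Finset.mul_sum]
        exact Finset.sum_congr rfl fun j _ => by ring
      rw [h2]
      simp only [hw]
      simp
    rw [h1]
    refine (Finset.abs_sum_le_sum_abs _ _).trans (Finset.sum_le_sum fun i _ => ?_)
    rw [abs_mul]
    exact mul_le_mul_of_nonneg_left (hb l hl _ (hz i)) (abs_nonneg _)
  have bf : ∀ k : Fin n, ∃ c1 : ℝ, ∀ x ∈ B, |f k x| ≤ c1 := by
    intro k
    obtain ⟨m, w, z, hz, hw⟩ := separate A a red' k
    refine ⟨∑ i, |w i| * c, fun x hx => ?_⟩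
    have h1 : f k x = ∑ i, w i * h (z i) x := by
      have h2 : ∑ i, w i * h (z i) x = ∑ j, f j x * ∑ i, w i * a j (z i) := by
        simp only [Finset.mul_sum]
        rw [Finset.sum_comm]
        refine Finset.sum_congr rfl fun i _ => ?_
        rw [e (z i) (hz i) x hx, Finset.mul_sum]
        exact Finset.sum_congr rfl fun j _ => by ring
      rw [h2]
      simp only [hw]
      simp
    rw [h1]
    refine (Finset.abs_sum_le_sum_abs _ _).trans (Finset.sum_le_sum fun i _ => ?_)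
    rw [abs_mul]
    exact mul_le_mul_of_nonneg_left (hb _ (hz i) x hx) (abs_nonneg _)
  choose c1 hc1 using ba
  choose c2 hc2 using bf
  refine ⟨n, a, f, (∑ k, |c1 k|) + ∑ k, |c2 k|, e, fun k l hl => ?_, fun k x hx => ?_⟩
  · have h1 : |c1 k| ≤ ∑ k, |c1 k| :=
      Finset.single_le_sum (f := fun k => |c1 k|) (fun _ _ => abs_nonneg _) (Finset.mem_univ k)
    have h2 : 0 ≤ ∑ k, |c2 k| := Finset.sum_nonneg fun _ _ => abs_nonneg _
    linarith only [hc1 k l hl, le_abs_self (c1 k), h1, h2]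
  · have h1 : |c2 k| ≤ ∑ k, |c2 k| :=
      Finset.single_le_sum (f := fun k => |c2 k|) (fun _ _ => abs_nonneg _) (Finset.mem_univ k)
    have h2 : 0 ≤ ∑ k, |c1 k| := Finset.sum_nonneg fun _ _ => abs_nonneg _
    linarith only [hc2 k x hx, le_abs_self (c2 k), h1, h2]

/-- A bounded kernel of finite rank agrees near a pair of ultrafilters with a kernel that has
convergent coefficients; its limit is the iterated limit. -/
theorem bounded_germ {U : Ultrafilter L} {V : Ultrafilter X} {h : L → X → ℝ} (H : FR h) {c : ℝ}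
    {A : Set L} {B : Set X} (hA : A ∈ U) (hB : B ∈ V) (hb : ∀ l ∈ A, ∀ x ∈ B, |h l x| ≤ c) :
    ∃ (h' : L → X → ℝ) (c0 : ℝ), GermFR (U : Filter L) (V : Filter X) h' c0 ∧
      (∀ l ∈ A, ∀ x ∈ B, h l x = h' l x) ∧
      (∀ r : ℝ, (∀ l ∈ A, ∀ x ∈ B, r ≤ h l x) → r ≤ c0) ∧
      (∀ r : ℝ, (∀ l ∈ A, ∀ x ∈ B, h l x ≤ r) → c0 ≤ r) := by
  obtain ⟨n, a, f, c', e, ha, hf⟩ := bounded_factors H hb
  have h1 : ∀ k, ∃ a0, |a0| ≤ c' ∧ Tendsto (a k) U (𝓝 a0) := fun k =>
    exists_tendsto U (by filter_upwards [hA] with l hl; exact ha k l hl)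
  have h2 : ∀ k, ∃ f0, |f0| ≤ c' ∧ Tendsto (f k) V (𝓝 f0) := fun k =>
    exists_tendsto V (by filter_upwards [hB] with x hx; exact hf k x hx)
  choose a0 ha0 ta using h1
  choose f0 hf0 tf using h2
  refine ⟨fun l x => ∑ k, a k l * f k x, ∑ k, a0 k * f0 k, GermFR.of_fintype a f a0 f0 ta tf, e,
    fun r hr => ?_, fun r hr => ?_⟩
  · have t1 : ∀ l ∈ A, r ≤ ∑ k, a k l * f0 k := by
      intro l hl
      have : Tendsto (fun x => ∑ k, a k l * f k x) V (𝓝 (∑ k, a k l * f0 k)) :=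
        tendsto_finset_sum _ fun k _ => (tf k).const_mul _
      refine ge_of_tendsto this ?_
      filter_upwards [hB] with x hx
      rw [← e l hl x hx]
      exact hr l hl x hx
    have : Tendsto (fun l => ∑ k, a k l * f0 k) U (𝓝 (∑ k, a0 k * f0 k)) :=
      tendsto_finset_sum _ fun k _ => (ta k).mul_const _
    refine ge_of_tendsto this ?_
    filter_upwards [hA] with l hl
    exact t1 l hl
  · have t1 : ∀ l ∈ A, ∑ k, a k l * f0 k ≤ r := by
      intro l hl
      have : Tendsto (fun x => ∑ k, a k l * f k x) V (𝓝 (∑ k, a k l * f0 k)) :=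
        tendsto_finset_sum _ fun k _ => (tf k).const_mul _
      refine le_of_tendsto this ?_
      filter_upwards [hB] with x hx
      rw [← e l hl x hx]
      exact hr l hl x hx
    have : Tendsto (fun l => ∑ k, a k l * f0 k) U (𝓝 (∑ k, a0 k * f0 k)) :=
      tendsto_finset_sum _ fun k _ => (ta k).mul_const _
    refine le_of_tendsto this ?_
    filter_upwards [hA] with l hl
    exact t1 l hl

/-- **Positivity lemma (P)**: a finite-rank kernel between `c a(l) b(x)` and `C a(l) b(x)`,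
`c > 0`, is a sum of squares. -/
theorem positivity_lemma {A : Set L} {B : Set X} {h : L → X → ℝ} (H : FR h) {a : L → ℝ}
    {b : X → ℝ} {c C : ℝ} (hc : 0 < c) (ha : ∀ l ∈ A, 0 < a l) (hb : ∀ x ∈ B, 0 < b x)
    (h1 : ∀ l ∈ A, ∀ x ∈ B, c * (a l * b x) ≤ h l x)
    (h2 : ∀ l ∈ A, ∀ x ∈ B, h l x ≤ C * (a l * b x)) : SosOn A B h := by
  refine sosOn_of_ultra fun U V hU hV => ?_
  have hpos : ∀ l ∈ A, ∀ x ∈ B, 0 < a l * b x := fun l hl x hx => mul_pos (ha l hl) (hb x hx)
  have H1 : FR (fun l x => ((a l)⁻¹ * (b x)⁻¹) * h l x) :=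
    (FR.mulfun (fun l => (a l)⁻¹) (fun x => (b x)⁻¹)).mul H
  have e0 : ∀ l x, ((a l)⁻¹ * (b x)⁻¹) * h l x = h l x / (a l * b x) := by
    intro l x
    rw [div_eq_mul_inv, mul_inv]; ring
  have b1 : ∀ l ∈ A, ∀ x ∈ B, c ≤ ((a l)⁻¹ * (b x)⁻¹) * h l x := by
    intro l hl x hx
    rw [e0, le_div_iff₀ (hpos l hl x hx)]
    exact h1 l hl x hx
  have b2 : ∀ l ∈ A, ∀ x ∈ B, ((a l)⁻¹ * (b x)⁻¹) * h l x ≤ C := by
    intro l hl x hx
    rw [e0, div_le_iff₀ (hpos l hl x hx)]
    exact h2 l hl x hx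
  obtain ⟨h', c0, hg, he, hlow, -⟩ := bounded_germ (U := U) (V := V) H1 (c := C) hU hV
    (fun l hl x hx => by
      rw [abs_le]
      constructor
      · have := b1 l hl x hx
        have := b2 l hl x hx
        linarith
      · exact b2 l hl x hx)
  have hs : SosF (U : Filter L) (V : Filter X) h' := GermFR.sosF hg (hc.trans_le (hlow c b1))
  have hs1 : SosF (U : Filter L) (V : Filter X) (fun l x => |a l| * |b x| * h' l x) :=
    ((SosF.left (Eventually.of_forall fun l => abs_nonneg (a l))).mul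
      (SosF.right (Eventually.of_forall fun x => abs_nonneg (b x)))).mul hs
  refine hs1.congr ⟨A, hU, B, hV, fun l hl x hx => ?_⟩
  show h l x = |a l| * |b x| * h' l x
  rw [← he l hl x hx, abs_of_pos (ha l hl), abs_of_pos (hb x hx)]
  have := (ha l hl).ne'
  have := (hb x hx).ne'
  field_simp

end Vale.Agent.P256.H326
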