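import Vale.Agent.P256.H326.Conic

/-! **The conic theorem**: the slack kernel is a sum of squares near every ordinary singular
boundary point, without any condition on edges, faces or other points. -/

set_option linter.all false

namespace Vale.Agent.P256.H326

open Filter Topology Vale.Agent.P256

variable {n : ℕ} {p : MvPolynomial (Fin n) ℝ} {e : Fin n → ℝ} {u0 z : Fin n → ℝ} {m : ℕ}

theorem sum_NN (p : MvPolynomial (Fin n) ℝ) (z : Fin n → ℝ) (m : ℕ) (f : ℕ → ℝ)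
    (hf : ∀ k, part p z (m + k) = 0 → f k = 0) :
    ∑ k ∈ Finset.range (NN p z), f k = ∑ k ∈ Finset.range (pdeg p z), f k := by
  symm
  apply Finset.sum_subset
  · intro k hk
    rw [Finset.mem_range] at *
    unfold NN; omega
  · intro k _ hk
    rw [Finset.mem_range, not_lt] at hk
    exact hf k (part_eq_zero_of_ge p z (by omega))

theorem eval_blow_HJ (hm : ∀ k < m, part p z k = 0) (r : ℝ) (w : Fin n → ℝ) :
    MvPolynomial.eval (z + r • w) p = r ^ m * MvPolynomial.eval w (HJ p z m 0 r) := by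
  rw [eval_expand_m hm, eval_HJ, sum_NN p z m _ (fun k hk => by rw [hk, map_zero, mul_zero])]
  congr 1
  unfold blR
  refine Finset.sum_congr rfl fun k _ => ?_
  simp only [Nat.choose_zero_right, Nat.cast_one, one_mul, Nat.sub_zero]
  rfl

theorem dd_blow_HJ (hm1 : 1 ≤ m) (hm : ∀ k < m, part p z k = 0) (r : ℝ) (w v : Fin n → ℝ) :
    dd p (z + r • w) v = r ^ (m - 1) * dd (HJ p z m 0 r) w v := by
  rw [dd_expand_m hm1 hm, dd_HJ, sum_NN p z m _ (fun k hk => by
    rw [hk, ← eval_dirD, dirD_zero, map_zero, mul_zero])]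
  congr 1
  unfold blD
  refine Finset.sum_congr rfl fun k _ => ?_
  simp only [Nat.choose_zero_right, Nat.cast_one, one_mul, Nat.sub_zero]

theorem euler_HJ (p : MvPolynomial (Fin n) ℝ) (z : Fin n → ℝ) (m : ℕ) (r : ℝ) (w : Fin n → ℝ) :
    dd (HJ p z m 0 r) w w = m * MvPolynomial.eval w (HJ p z m 0 r) +
      r * MvPolynomial.eval w (HJ p z m 1 r) := by
  rw [dd_HJ, eval_HJ, eval_HJ, Finset.mul_sum, Finset.mul_sum, ← Finset.sum_add_distrib]
  refine Finset.sum_congr rfl fun i _ => ?_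
  rw [dd_euler (part_homog p z (m + i))]
  simp only [Nat.choose_zero_right, Nat.cast_one, one_mul, Nat.sub_zero, Nat.choose_one_right]
  have h1 : r * ((i : ℝ) * r ^ (i - 1)) = i * r ^ i := by
    cases i with
    | zero => simp
    | succ k => rw [Nat.add_sub_cancel, pow_succ]; ring
  push_cast
  linear_combination (-(MvPolynomial.eval w (part p z (m + i)))) * h1

/-- the kernel and its polar form -/
theorem dd_eq_polK {d : ℕ} (hd : p.IsHomogeneous d) (hm1 : 1 ≤ m) (hm : ∀ k < m, part p z k = 0)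
    {y x : ℝ × (Fin n → ℝ)} (hy : MvPolynomial.eval y.2 (HJ p z m 0 y.1) = 0)
    (hs : 0 < dd (HJ p z m 0 y.1) y.2 e) :
    dd p (z + y.1 • y.2) (z + x.1 • x.2) = y.1 ^ (m - 1) * polK p e z m y x := by
  have h0 : MvPolynomial.eval (z + y.1 • y.2) p = 0 := by rw [eval_blow_HJ hm, hy, mul_zero]
  have h1 := dd_euler hd (z + y.1 • y.2)
  rw [h0, mul_zero, dd_add, dd_smul] at h1
  rw [dd_add, dd_smul]
  have h2 : dd p (z + y.1 • y.2) z = - (y.1 * dd p (z + y.1 • y.2) y.2) := by linarith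
  rw [h2, dd_blow_HJ hm1 hm, dd_blow_HJ hm1 hm]
  have h3 := euler_HJ p z m y.1 y.2
  rw [hy, mul_zero, zero_add] at h3
  have h4 : ∑ i, kap (HJ p z m 0 y.1) e y.2 (Pi.single i 1) * (x.2 i - y.2 i) =
      (dd (HJ p z m 0 y.1) y.2 x.2 - dd (HJ p z m 0 y.1) y.2 y.2) /
        dd (HJ p z m 0 y.1) y.2 e := by
    have := kap_lin (HJ p z m 0 y.1) e y.2 (x.2 - y.2)
    rw [kap, dd_sub] at this
    rw [this]
    exact Finset.sum_congr rfl fun i _ => by rw [Pi.sub_apply]
  unfold polK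
  rw [h4, h3]
  field_simp
  ring

theorem SosF.compMap {L X L' X' : Type*} {F : Filter L} {G : Filter X} {φ : L → L'} {ψ : X → X'}
    {h : L' → X' → ℝ} (H : SosF (F.map φ) (G.map ψ) h) :
    SosF F G (fun l x => h (φ l) (ψ x)) := by
  obtain ⟨A, hA, B, hB, s⟩ := H
  refine ⟨φ ⁻¹' A, hA, ψ ⁻¹' B, hB, ?_⟩
  exact (s.comp φ ψ).mono (fun l hl => hl) (fun x hx => hx)

/-- off-diagonal case in polar coordinates -/
theorem conic_off {v0 : Fin n → ℝ} {F G : Filter (ℝ × (Fin n → ℝ))}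
    (hF : F ≤ 𝓝 ((0 : ℝ), u0)) (hG : G ≤ 𝓝 ((0 : ℝ), v0))
    (hs : 0 < dd (part p z m) u0 e) (h0 : 0 < dd (part p z m) u0 v0)
    (hg : ∀ᶠ y in F, 0 ≤ - MvPolynomial.eval y.2 (HJ p z m 1 y.1))
    (hF0 : ∀ᶠ y in F, MvPolynomial.eval y.2 (HJ p z m 0 y.1) = 0)
    (hGp : ∀ᶠ x in G, 0 ≤ x.1) :
    SosF F G (polK p e z m) := by
  have hD : ∀ᶠ y in F, 0 < dd (HJ p z m 0 y.1) y.2 e := (t_D hF).eventually (lt_mem_nhds hs)
  have h1 : GermFR F G (fun y x => ∑ i, dd (HJ p z m 0 y.1) y.2 (Pi.single i 1) * x.2 i)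
      (dd (part p z m) u0 v0) := by
    refine (GermFR.sum Finset.univ (c := fun i => dd (HJ p z m 0 0) u0 (Pi.single i 1) * v0 i)
      fun i _ => (GermFR.left (t_ddHJ hF 0 _)).mul (GermFR.right (t_snd hG i))).congr
      (fun y x => rfl) ?_
    rw [HJ_zero]
    have := dd_lin (part p z m) u0 v0 LinearMap.id
    simp only [LinearMap.id_apply] at this
    rw [this]
    exact Finset.sum_congr rfl fun i _ => mul_comm _ _
  have h2 : SosF F G (fun y x => x.1 * (∑ i, dd (HJ p z m 0 y.1) y.2 (Pi.single i 1) * x.2 i) +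
      (- MvPolynomial.eval y.2 (HJ p z m 1 y.1)) * y.1 ^ 2) :=
    ((SosF.right hGp).mul (GermFR.sosF h1 h0)).add (SosF.left (by
      filter_upwards [hg] with y hy
      positivity))
  refine h2.congr (EqF.of_eventually (fun y => MvPolynomial.eval y.2 (HJ p z m 0 y.1) = 0 ∧
    0 < dd (HJ p z m 0 y.1) y.2 e) (fun _ => True) (hF0.and hD)
    (Eventually.of_forall fun _ => trivial) fun y x hy _ => ?_)
  obtain ⟨hy0, hys⟩ := hy
  have h3 := euler_HJ p z m y.1 y.2
  rw [hy0, mul_zero, zero_add] at h3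
  have h4 : ∑ i, kap (HJ p z m 0 y.1) e y.2 (Pi.single i 1) * (x.2 i - y.2 i) =
      (dd (HJ p z m 0 y.1) y.2 x.2 - dd (HJ p z m 0 y.1) y.2 y.2) /
        dd (HJ p z m 0 y.1) y.2 e := by
    have := kap_lin (HJ p z m 0 y.1) e y.2 (x.2 - y.2)
    rw [kap, dd_sub] at this
    rw [this]
    exact Finset.sum_congr rfl fun i _ => by rw [Pi.sub_apply]
  have h5 : ∑ i, dd (HJ p z m 0 y.1) y.2 (Pi.single i 1) * x.2 i =
      dd (HJ p z m 0 y.1) y.2 x.2 := by
    have := dd_lin (HJ p z m 0 y.1) y.2 x.2 LinearMap.id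
    simp only [LinearMap.id_apply] at this
    rw [this]
    exact Finset.sum_congr rfl fun i _ => mul_comm _ _
  unfold polK
  rw [h4, h3, h5]
  field_simp
  ring

/-! ### the polar chart -/

/-- coefficient of `x` along `z` -/
def ca (z x : Fin n → ℝ) : ℝ := ∑ i, x i * z i

/-- distance to the axis -/
noncomputable def rh (z x : Fin n → ℝ) : ℝ := Real.sqrt (∑ i, (x i - ca z x * z i) ^ 2)

/-- the chart -/
noncomputable def chart (z x : Fin n → ℝ) : ℝ × (Fin n → ℝ) :=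
  (rh z x / ca z x, fun i => (rh z x)⁻¹ * (x i - ca z x * z i))

theorem chart_facts (hz1 : ∑ i, z i ^ 2 = 1) {x : Fin n → ℝ} (hx1 : ∑ i, x i ^ 2 = 1)
    (hca : 0 < ca z x) (hne : x ≠ z) :
    0 < (chart z x).1 ∧ ∑ i, (chart z x).2 i ^ 2 = 1 ∧ ∑ i, z i * (chart z x).2 i = 0 ∧
    x = ca z x • (z + (chart z x).1 • (chart z x).2) := by
  have h1 : ∑ i, z i * (x i - ca z x * z i) = 0 := by
    have e1 : ∑ i, z i * (x i - ca z x * z i) = ca z x - ca z x * ∑ i, z i ^ 2 := by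
      rw [Finset.mul_sum]
      unfold ca
      rw [← Finset.sum_sub_distrib]
      exact Finset.sum_congr rfl fun i _ => by ring
    rw [e1, hz1, mul_one, sub_self]
  have hS : 0 ≤ ∑ i, (x i - ca z x * z i) ^ 2 := Finset.sum_nonneg fun i _ => sq_nonneg _
  have h2 : 0 < rh z x := by
    unfold rh
    apply Real.sqrt_pos.2
    refine lt_of_le_of_ne hS fun h => ?_
    have h3 : ∀ i, x i = ca z x * z i := by
      intro i
      have := (Finset.sum_eq_zero_iff_of_nonneg (fun i _ => sq_nonneg (x i - ca z x * z i))).1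
        h.symm i (Finset.mem_univ i)
      have h4 : x i - ca z x * z i = 0 := by simpa using this
      linarith
    have h5 : ca z x ^ 2 = 1 := by
      have : ∑ i, x i ^ 2 = ca z x ^ 2 * ∑ i, z i ^ 2 := by
        rw [Finset.mul_sum]
        refine Finset.sum_congr rfl fun i _ => ?_
        have := h3 i
        calc x i ^ 2 = (ca z x * z i) ^ 2 := by rw [← this]
          _ = _ := by ring
      rw [hx1, hz1, mul_one] at this
      exact this.symm
    have h6 : ca z x = 1 := by nlinarith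
    apply hne
    funext i
    have := h3 i
    rw [h6, one_mul] at this
    exact this
  have h3 : rh z x ^ 2 = ∑ i, (x i - ca z x * z i) ^ 2 := Real.sq_sqrt hS
  refine ⟨div_pos h2 hca, ?_, ?_, ?_⟩
  · show ∑ i, ((rh z x)⁻¹ * (x i - ca z x * z i)) ^ 2 = 1
    have : ∀ i, ((rh z x)⁻¹ * (x i - ca z x * z i)) ^ 2 =
        (rh z x ^ 2)⁻¹ * (x i - ca z x * z i) ^ 2 := fun i => by ring
    simp_rw [this]
    rw [← Finset.mul_sum, ← h3, inv_mul_cancel₀ (by positivity)]
  · show ∑ i, z i * ((rh z x)⁻¹ * (x i - ca z x * z i)) = 0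
    have : ∀ i, z i * ((rh z x)⁻¹ * (x i - ca z x * z i)) =
        (rh z x)⁻¹ * (z i * (x i - ca z x * z i)) := fun i => by ring
    simp_rw [this]
    rw [← Finset.mul_sum, h1, mul_zero]
  · funext i
    show x i = ca z x * (z i + rh z x / ca z x * ((rh z x)⁻¹ * (x i - ca z x * z i)))
    field_simp
    ring

theorem continuous_ca (z : Fin n → ℝ) : Continuous (ca z) := by
  unfold ca; fun_prop

theorem continuous_rh (z : Fin n → ℝ) : Continuous (rh z) := by
  unfold rh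
  apply Real.continuous_sqrt.comp
  refine continuous_finsetSum _ fun i _ => ?_
  exact ((continuous_apply i).sub ((continuous_ca z).mul continuous_const)).pow 2

theorem ca_self (hz1 : ∑ i, z i ^ 2 = 1) : ca z z = 1 := by
  unfold ca
  rw [← hz1]
  exact Finset.sum_congr rfl fun i _ => by ring

theorem rh_self (hz1 : ∑ i, z i ^ 2 = 1) : rh z z = 0 := by
  unfold rh
  rw [ca_self hz1]
  simp

/-- convergence of the chart along an ultrafilter -/
theorem chart_lim (hp : IsHyperbolic p e) (hz : z ∈ bdT p e)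
    (hm : ∀ k < m, part p z k = 0) (he : 0 < MvPolynomial.eval e (part p z m))
    (U : Ultrafilter (Fin n → ℝ)) (hU : (U : Filter (Fin n → ℝ)) ≤ 𝓝 z)
    (hUT : ∀ᶠ y in (U : Filter (Fin n → ℝ)), y ∈ bdT p e ∧ y ≠ z) :
    (∀ᶠ y in (U : Filter (Fin n → ℝ)), y ∈ bdT p e ∧ 0 < ca z y ∧ 0 < (chart z y).1 ∧
      ∑ i, (chart z y).2 i ^ 2 = 1 ∧ ∑ i, z i * (chart z y).2 i = 0 ∧
      y = ca z y • (z + (chart z y).1 • (chart z y).2) ∧
      MvPolynomial.eval (chart z y).2 (HJ p z m 0 (chart z y).1) = 0) ∧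
    ∃ u0 ∈ dirS p e z m, Tendsto (chart z) U (𝓝 ((0 : ℝ), u0)) := by
  have hz1 := hz.2.2
  obtain ⟨d, hd⟩ := hp.1
  have hca : Tendsto (ca z) U (𝓝 1) := by
    have := ((continuous_ca z).tendsto z).mono_left hU
    rwa [ca_self hz1] at this
  have hrh : Tendsto (rh z) U (𝓝 0) := by
    have := ((continuous_rh z).tendsto z).mono_left hU
    rwa [rh_self hz1] at this
  have hev : ∀ᶠ y in (U : Filter (Fin n → ℝ)), y ∈ bdT p e ∧ 0 < ca z y ∧ 0 < (chart z y).1 ∧
      ∑ i, (chart z y).2 i ^ 2 = 1 ∧ ∑ i, z i * (chart z y).2 i = 0 ∧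
      y = ca z y • (z + (chart z y).1 • (chart z y).2) ∧
      MvPolynomial.eval (chart z y).2 (HJ p z m 0 (chart z y).1) = 0 := by
    filter_upwards [hUT, hca.eventually (lt_mem_nhds one_pos)] with y h1 h2
    obtain ⟨a1, a2, a3, a4⟩ := chart_facts hz1 h1.1.2.2 h2 h1.2
    refine ⟨h1.1, h2, a1, a2, a3, a4, ?_⟩
    have h3 := h1.1.2.1
    rw [a4, eval_smul' hd, eval_blow_HJ hm] at h3
    have h4 := (mul_eq_zero.1 h3).resolve_left (pow_ne_zero _ h2.ne')
    exact (mul_eq_zero.1 h4).resolve_left (pow_ne_zero _ a1.ne')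
  refine ⟨hev, ?_⟩
  have hb : ∀ i, ∀ᶠ y in (U : Filter (Fin n → ℝ)), |(chart z y).2 i| ≤ 1 := by
    intro i
    filter_upwards [hev] with y hy
    rw [← sq_le_one_iff_abs_le_one, ← hy.2.2.2.1]
    exact Finset.single_le_sum (f := fun i => (chart z y).2 i ^ 2) (fun j _ => sq_nonneg _)
      (Finset.mem_univ i)
  choose u0 _ hu0 using fun i => exists_tendsto U (hb i)
  have ht2 : Tendsto (fun y => (chart z y).2) U (𝓝 u0) := tendsto_pi_nhds.2 hu0
  have ht1 : Tendsto (fun y => (chart z y).1) U (𝓝 0) := by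
    have := hrh.div hca one_ne_zero
    rw [zero_div] at this
    exact this
  have ht : Tendsto (chart z) U (𝓝 ((0 : ℝ), u0)) := ht1.prodMk_nhds ht2
  refine ⟨u0, ?_, ht⟩
  have hq := part_hyp hp hm he
  have hlin : ∀ᶠ y in (U : Filter (Fin n → ℝ)), (chart z y).2 ∈ hypCone (part p z m) e := by
    filter_upwards [hev] with y hy
    have h1 := K_sub_part hp hz.1 hm he hy.1.1
    rw [hy.2.2.2.2.2.1] at h1
    have h2 := K_smul hq h1 (inv_pos.2 hy.2.1).le
    rw [smul_smul, inv_mul_cancel₀ hy.2.1.ne', one_smul] at h2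
    have h3 := K_part_add hp hm h2 (-1)
    have h4 : z + (chart z y).1 • (chart z y).2 + (-1 : ℝ) • z =
        (chart z y).1 • (chart z y).2 := by
      rw [neg_smul, one_smul]; abel
    rw [h4] at h3
    have h5 := K_smul hq h3 (inv_pos.2 hy.2.2.1).le
    rwa [smul_smul, inv_mul_cancel₀ hy.2.2.1.ne', one_smul] at h5
  refine ⟨(isClosed_K hq).mem_of_tendsto ht2 hlin, ?_, ?_, ?_⟩
  · have h1 := ((continuous_eval_HJ p z m 0).tendsto ((0 : ℝ), u0)).comp ht
    simp only [] at h1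
    rw [eval_HJ0] at h1
    refine tendsto_nhds_unique h1 ((tendsto_const_nhds (x := (0 : ℝ))).congr' ?_)
    filter_upwards [hev] with y hy
    exact hy.2.2.2.2.2.2.symm
  · have h1 : Tendsto (fun y => ∑ i, (chart z y).2 i ^ 2) U (𝓝 (∑ i, u0 i ^ 2)) :=
      tendsto_finset_sum _ fun i _ => (hu0 i).pow 2
    refine tendsto_nhds_unique h1 ((tendsto_const_nhds (x := (1 : ℝ))).congr' ?_)
    filter_upwards [hev] with y hy
    exact hy.2.2.2.1.symm
  · have h1 : Tendsto (fun y => ∑ i, z i * (chart z y).2 i) U (𝓝 (∑ i, z i * u0 i)) :=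
      tendsto_finset_sum _ fun i _ => (hu0 i).const_mul _
    refine tendsto_nhds_unique h1 ((tendsto_const_nhds (x := (0 : ℝ))).congr' ?_)
    filter_upwards [hev] with y hy
    exact hy.2.2.2.2.1.symm

/-- from the polar kernel to the slack kernel -/
theorem sosF_of_polK (hp : IsHyperbolic p e) (hm1 : 1 ≤ m) (hm : ∀ k < m, part p z k = 0)
    {F G : Filter (Fin n → ℝ)}
    (hF : ∀ᶠ y in F, y ∈ bdT p e ∧ 0 < ca z y ∧ 0 < (chart z y).1 ∧
      ∑ i, (chart z y).2 i ^ 2 = 1 ∧ ∑ i, z i * (chart z y).2 i = 0 ∧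
      y = ca z y • (z + (chart z y).1 • (chart z y).2) ∧
      MvPolynomial.eval (chart z y).2 (HJ p z m 0 (chart z y).1) = 0)
    (hG : ∀ᶠ y in G, y ∈ bdT p e ∧ 0 < ca z y ∧ 0 < (chart z y).1 ∧
      ∑ i, (chart z y).2 i ^ 2 = 1 ∧ ∑ i, z i * (chart z y).2 i = 0 ∧
      y = ca z y • (z + (chart z y).1 • (chart z y).2) ∧
      MvPolynomial.eval (chart z y).2 (HJ p z m 0 (chart z y).1) = 0)
    (hD : ∀ᶠ y in F, 0 < dd (HJ p z m 0 (chart z y).1) (chart z y).2 e)
    (H : SosF (F.map (chart z)) (G.map (chart z)) (polK p e z m)) :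
    SosF F G (fun y x => dd p y x) := by
  obtain ⟨d, hd⟩ := hp.1
  have h1 := (((SosF.left (G := G) (a := fun y => ca z y ^ (d - 1) * (chart z y).1 ^ (m - 1)) (by
    filter_upwards [hF] with y hy
    have := hy.2.1
    have := hy.2.2.1
    positivity)).mul (SosF.right (F := F) (f := fun x => ca z x) (by
    filter_upwards [hG] with x hx using hx.2.1.le))).mul (SosF.compMap H))
  refine h1.congr (EqF.of_eventually (fun y => (y ∈ bdT p e ∧ 0 < ca z y ∧ 0 < (chart z y).1 ∧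
      ∑ i, (chart z y).2 i ^ 2 = 1 ∧ ∑ i, z i * (chart z y).2 i = 0 ∧
      y = ca z y • (z + (chart z y).1 • (chart z y).2) ∧
      MvPolynomial.eval (chart z y).2 (HJ p z m 0 (chart z y).1) = 0) ∧
      0 < dd (HJ p z m 0 (chart z y).1) (chart z y).2 e)
    (fun y => y ∈ bdT p e ∧ 0 < ca z y ∧ 0 < (chart z y).1 ∧
      ∑ i, (chart z y).2 i ^ 2 = 1 ∧ ∑ i, z i * (chart z y).2 i = 0 ∧
      y = ca z y • (z + (chart z y).1 • (chart z y).2) ∧
      MvPolynomial.eval (chart z y).2 (HJ p z m 0 (chart z y).1) = 0) (hF.and hD) hG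
      fun y x hy hx => ?_)
  obtain ⟨hy, hyD⟩ := hy
  have h2 := dd_eq_polK (p := p) (e := e) (z := z) (x := chart z x) hd hm1 hm hy.2.2.2.2.2.2 hyD
  have h3 : dd p y x = ca z y ^ (d - 1) * (ca z x *
      dd p (z + (chart z y).1 • (chart z y).2) (z + (chart z x).1 • (chart z x).2)) := by
    conv_lhs => rw [hy.2.2.2.2.2.1, hx.2.2.2.2.2.1]
    rw [dd_smul_left hd, dd_smul]
  rw [h3, h2]
  ring

/-- **The conic theorem.** At an ordinary singular boundary point `z` (the localization of `p` is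
smooth off `ℝz`) the slack kernel is a sum of squares of finite rank kernels along any pair of
ultrafilters of boundary points converging to `z`. -/
theorem conic_sosF (hp : IsHyperbolic p e) (hz : z ∈ bdT p e) (hS : SingAt p e z m)
    (U V : Ultrafilter (Fin n → ℝ)) (hU : (U : Filter (Fin n → ℝ)) ≤ 𝓝 z)
    (hV : (V : Filter (Fin n → ℝ)) ≤ 𝓝 z)
    (hUT : ∀ᶠ y in (U : Filter (Fin n → ℝ)), y ∈ bdT p e ∧ y ≠ z)
    (hVT : ∀ᶠ x in (V : Filter (Fin n → ℝ)), x ∈ bdT p e ∧ x ≠ z) :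
    SosF (U : Filter (Fin n → ℝ)) (V : Filter (Fin n → ℝ)) (fun y x => dd p y x) := by
  have hm2 := hS.two_le
  obtain ⟨m', rfl⟩ : ∃ m', m = m' + 1 := ⟨m - 1, by omega⟩
  obtain ⟨hUe, u0, hu0, hUt⟩ := chart_lim hp hz hS.hm hS.he U hU hUT
  obtain ⟨hVe, v0, hv0, hVt⟩ := chart_lim hp hz hS.hm hS.he V hV hVT
  have huz := dirS_not_span hz.2.2 hu0
  have hs : 0 < dd (part p z (m' + 1)) u0 e := hS.sm u0 hu0.1 hu0.2.1 huz
  have hD : ∀ᶠ y in (U : Filter (Fin n → ℝ)),
      0 < dd (HJ p z (m' + 1) 0 (chart z y).1) (chart z y).2 e :=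
    hUt.eventually ((t_D (p := p) (z := z) (m := m' + 1) (e := e) (u0 := u0)
      (F := 𝓝 ((0 : ℝ), u0)) le_rfl).eventually (lt_mem_nhds hs))
  refine sosF_of_polK hp (by omega) hS.hm hUe hVe hD ?_
  have e1 : Filter.map (chart z) (U : Filter (Fin n → ℝ)) =
    ((U.map (chart z) : Ultrafilter (ℝ × (Fin n → ℝ))) : Filter (ℝ × (Fin n → ℝ))) := rfl
  rw [e1]
  have a0 : ∀ᶠ y in ((U.map (chart z) : Ultrafilter (ℝ × (Fin n → ℝ))) :
      Filter (ℝ × (Fin n → ℝ))), MvPolynomial.eval y.2 (HJ p z (m' + 1) 0 y.1) = 0 := by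
    show ∀ᶠ y in Filter.map (chart z) (U : Filter (Fin n → ℝ)), _
    rw [Filter.eventually_map]
    filter_upwards [hUe] with y hy using hy.2.2.2.2.2.2
  have a1 : ∀ᶠ y in ((U.map (chart z) : Ultrafilter (ℝ × (Fin n → ℝ))) :
      Filter (ℝ × (Fin n → ℝ))), ∑ i, y.2 i ^ 2 = 1 := by
    show ∀ᶠ y in Filter.map (chart z) (U : Filter (Fin n → ℝ)), _
    rw [Filter.eventually_map]
    filter_upwards [hUe] with y hy using hy.2.2.2.1
  have a2 : ∀ᶠ y in ((U.map (chart z) : Ultrafilter (ℝ × (Fin n → ℝ))) :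
      Filter (ℝ × (Fin n → ℝ))), ∑ i, z i * y.2 i = 0 := by
    show ∀ᶠ y in Filter.map (chart z) (U : Filter (Fin n → ℝ)), _
    rw [Filter.eventually_map]
    filter_upwards [hUe] with y hy using hy.2.2.2.2.1
  have b0 : ∀ᶠ y in Filter.map (chart z) (V : Filter (Fin n → ℝ)),
      MvPolynomial.eval y.2 (HJ p z (m' + 1) 0 y.1) = 0 := by
    rw [Filter.eventually_map]
    filter_upwards [hVe] with y hy using hy.2.2.2.2.2.2
  have b1 : ∀ᶠ y in Filter.map (chart z) (V : Filter (Fin n → ℝ)), ∑ i, y.2 i ^ 2 = 1 := by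
    rw [Filter.eventually_map]
    filter_upwards [hVe] with y hy using hy.2.2.2.1
  have b2 : ∀ᶠ y in Filter.map (chart z) (V : Filter (Fin n → ℝ)), ∑ i, z i * y.2 i = 0 := by
    rw [Filter.eventually_map]
    filter_upwards [hVe] with y hy using hy.2.2.2.2.1
  have b3 : ∀ᶠ y in Filter.map (chart z) (V : Filter (Fin n → ℝ)), 0 ≤ y.1 := by
    rw [Filter.eventually_map]
    filter_upwards [hVe] with y hy using hy.2.2.1.le
  by_cases hne : v0 = u0
  · subst hne
    exact conic_core hp hz.1 hS.hm hv0.2.1 hs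
      (fun ω hω h1 h2 h3 => singAt_neg hp hz hS hu0 ω hω h1 h3 h2) (U.map (chart z)) hUt hVt
      a0 a1 a2 b3 b0 b1 b2
  · obtain ⟨c, c0, hc0, hc⟩ := quot_g hp hz.1 hS.hm hu0.2.1 hs (U.map (chart z)) hUt a0
    exact conic_off hUt hVt hs (singAt_off hp hz hS hu0 hv0 hne) (hc.mono fun y hy => hy.1) a0 b3

end Vale.Agent.P256.H326
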