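import Vale.Agent.P256.H326.Spec

/-! The semidefinite lift of a spectral extension. -/

namespace Vale.Agent.P256.H326

open MvPolynomial Matrix

variable {n a k : ℕ}

/-- first coordinates -/
def xL (n k : ℕ) : (Fin (n + k) → ℝ) →ₗ[ℝ] (Fin n → ℝ) := LinearMap.funLeft ℝ ℝ (Fin.castAdd k)

/-- last coordinates -/
def yL (n k : ℕ) : (Fin (n + k) → ℝ) →ₗ[ℝ] (Fin k → ℝ) := LinearMap.funLeft ℝ ℝ (Fin.natAdd n)

@[simp] theorem xL_append (x : Fin n → ℝ) (y : Fin k → ℝ) : xL n k (Fin.append x y) = x := by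
  funext i
  simp [xL, LinearMap.funLeft_apply]

@[simp] theorem yL_append (x : Fin n → ℝ) (y : Fin k → ℝ) : yL n k (Fin.append x y) = y := by
  funext i
  simp [yL, LinearMap.funLeft_apply]

/-- concatenation of two linear maps -/
def appL {N : ℕ} (F : (Fin N → ℝ) →ₗ[ℝ] (Fin a → ℝ)) (G : (Fin N → ℝ) →ₗ[ℝ] (Fin k → ℝ)) :
    (Fin N → ℝ) →ₗ[ℝ] (Fin (a + k) → ℝ) where
  toFun w := Fin.append (F w) (G w)
  map_add' w w' := by rw [map_add, map_add, append_add]
  map_smul' s w := by rw [map_smul, map_smul, append_smul]; rfl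

/-- symmetrization -/
def symM (k : ℕ) : (Fin k × Fin k → ℝ) →ₗ[ℝ] Matrix (Fin k) (Fin k) ℝ where
  toFun W := Matrix.of fun i j => W (i, j) + W (j, i)
  map_add' W W' := by
    ext i j
    simp only [of_apply, Pi.add_apply, Matrix.add_apply]
    ring
  map_smul' s W := by
    ext i j
    simp only [of_apply, Pi.smul_apply, Matrix.smul_apply, smul_eq_mul, RingHom.id_apply]
    ring

theorem symM_symm (W : Fin k × Fin k → ℝ) : (symM k W).IsSymm := by
  ext i j
  simp [symM, Matrix.transpose_apply, add_comm]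

theorem exists_symM {Z : Matrix (Fin k) (Fin k) ℝ} (hZ : Z.IsSymm) : ∃ W, symM k W = Z := by
  refine ⟨fun ij => Z ij.1 ij.2 / 2, ?_⟩
  ext i j
  have h : Z j i = Z i j := hZ.apply i j
  simp only [symM, LinearMap.coe_mk, AddHom.coe_mk, of_apply, h]
  ring

/-- the part of the linear matrix inequality which is linear in `(x, y)` -/
noncomputable def spM₁ (X : (Fin n → ℝ) →ₗ[ℝ] Matrix (Fin k) (Fin k) ℝ) (j : Fin k) :
    (Fin (n + k) → ℝ) →ₗ[ℝ] Matrix (Fin k ⊕ Fin k) (Fin k ⊕ Fin k) ℝ where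
  toFun w := fromBlocks 0 0 0
    ((psum (yL n k w) j / (j + 1 : ℝ)) • (1 : Matrix (Fin k) (Fin k) ℝ) - X (xL n k w))
  map_add' w w' := by
    rw [fromBlocks_add, map_add, map_add, map_add, psum_add, add_div, add_smul]
    congr 1
    · simp
    · simp
    · simp
    · abel
  map_smul' s w := by
    rw [RingHom.id_apply, fromBlocks_smul, map_smul, map_smul, map_smul, psum_smul, mul_div_assoc,
      smul_sub, smul_smul]
    congr 1
    · simp
    · simp
    · simp

/-- the part of the linear matrix inequality which is linear in the lifting variables -/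
noncomputable def spM₂ (j : Fin k) :
    (Fin k × Fin k → ℝ) →ₗ[ℝ] Matrix (Fin k ⊕ Fin k) (Fin k ⊕ Fin k) ℝ where
  toFun W := fromBlocks (symM k W) 0 0
    (symM k W - ((symM k W).trace / (j + 1 : ℝ)) • (1 : Matrix (Fin k) (Fin k) ℝ))
  map_add' w w' := by
    rw [fromBlocks_add, map_add, Matrix.trace_add, add_div, add_smul]
    congr 1
    · simp
    · simp
    · abel
  map_smul' s w := by
    rw [RingHom.id_apply, fromBlocks_smul, map_smul, Matrix.trace_smul, smul_eq_mul, mul_div_assoc,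
      smul_sub, smul_smul]
    congr 1
    · simp
    · simp

theorem smul_one_symm (s : ℝ) : (s • (1 : Matrix (Fin k) (Fin k) ℝ)).IsSymm :=
  (Matrix.isSymm_one).smul s

theorem GShad.exists_proj {N m : ℕ} {S : Set (Fin (N + m) → ℝ)} (h : GShad S) :
    GShad {x : Fin N → ℝ | ∃ y : Fin m → ℝ, Fin.append x y ∈ S} := by
  have h1 := h.exists_lmi (N := N) (ι' := Empty) (κ' := Fin m) 0 0 (fun _ => Matrix.isSymm_zero)
    (fun _ => Matrix.isSymm_zero) (appL LinearMap.id 0) (appL 0 LinearMap.id)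
  have h2 : {x : Fin N → ℝ | ∃ y : Fin m → ℝ, Fin.append x y ∈ S} = {x | ∃ z : Fin m → ℝ,
      ((0 : (Fin N → ℝ) →ₗ[ℝ] Matrix Empty Empty ℝ) x +
        (0 : (Fin m → ℝ) →ₗ[ℝ] Matrix Empty Empty ℝ) z).PosSemidef ∧
      appL LinearMap.id 0 x + appL 0 LinearMap.id z ∈ S} := by
    ext x
    simp only [Set.mem_ofPred_eq]
    refine exists_congr fun z => ?_
    have h3 : appL (LinearMap.id : (Fin N → ℝ) →ₗ[ℝ] (Fin N → ℝ))
        (0 : (Fin N → ℝ) →ₗ[ℝ] (Fin m → ℝ)) x +
        appL (0 : (Fin m → ℝ) →ₗ[ℝ] (Fin N → ℝ)) LinearMap.id z = Fin.append x z := by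
      show Fin.append x (0 : Fin m → ℝ) + Fin.append (0 : Fin N → ℝ) z = _
      rw [← append_add, add_zero, zero_add]
    rw [h3]
    constructor
    · intro h4
      refine ⟨?_, h4⟩
      rw [LinearMap.zero_apply, LinearMap.zero_apply, add_zero]
      exact Matrix.PosSemidef.zero
    · exact fun h4 => h4.2
  rw [h2]
  exact h1

/-- the set of the `(x, y)` such that the sum of the `j + 1` largest eigenvalues of `X x` is at
most `y₀ + ⋯ + y_j` -/
def topS (X : (Fin n → ℝ) →ₗ[ℝ] Matrix (Fin k) (Fin k) ℝ) (j : Fin k) :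
    Set (Fin (n + k) → ℝ) :=
  {w | ∃ Z : Matrix (Fin k) (Fin k) ℝ, Z.PosSemidef ∧
      (Z + ((psum (yL n k w) j - Z.trace) / (j + 1 : ℝ)) • (1 : Matrix (Fin k) (Fin k) ℝ) -
        X (xL n k w)).PosSemidef}

theorem gshad_topS {X : (Fin n → ℝ) →ₗ[ℝ] Matrix (Fin k) (Fin k) ℝ} (hX : ∀ x, (X x).IsSymm)
    (j : Fin k) : GShad (topS X j) := by
  have h1 := (GShad.univ (n := 0)).exists_lmi (N := n + k) (spM₁ X j) (spM₂ j)
    (fun w => symm_blocks Matrix.isSymm_zero ((smul_one_symm _).sub (hX _)))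
    (fun W => symm_blocks (symM_symm W) ((symM_symm W).sub (smul_one_symm _))) 0 0
  have h2 : topS X j = {w | ∃ z : Fin k × Fin k → ℝ, (spM₁ X j w + spM₂ j z).PosSemidef ∧
      (0 : (Fin (n + k) → ℝ) →ₗ[ℝ] (Fin 0 → ℝ)) w +
        (0 : (Fin k × Fin k → ℝ) →ₗ[ℝ] (Fin 0 → ℝ)) z ∈ (Set.univ : Set (Fin 0 → ℝ))} := by
    ext w
    simp only [topS, Set.mem_ofPred_eq, Set.mem_univ, and_true]
    have key : ∀ W, (spM₁ X j w + spM₂ j W).PosSemidef ↔ (symM k W).PosSemidef ∧
        (symM k W + ((psum (yL n k w) j - (symM k W).trace) / (j + 1 : ℝ)) •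
          (1 : Matrix (Fin k) (Fin k) ℝ) - X (xL n k w)).PosSemidef := by
      intro W
      have h3 : spM₁ X j w + spM₂ j W = fromBlocks (symM k W) 0 0
          (symM k W + ((psum (yL n k w) j - (symM k W).trace) / (j + 1 : ℝ)) •
          (1 : Matrix (Fin k) (Fin k) ℝ) - X (xL n k w)) := by
        show fromBlocks 0 0 0 _ + fromBlocks _ 0 0 _ = _
        rw [fromBlocks_add]
        congr 1
        · simp
        · simp
        · simp
        · rw [sub_div, sub_smul]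
          abel
      rw [h3, psd_fromBlocks]
    constructor
    · rintro ⟨Z, hZ, hZ2⟩
      have h3 : Z.IsSymm := by
        have := hZ.1
        rwa [Matrix.IsHermitian, Matrix.conjTranspose_eq_transpose_of_trivial] at this
      obtain ⟨W, rfl⟩ := exists_symM h3
      exact ⟨W, (key W).2 ⟨hZ, hZ2⟩⟩
    · rintro ⟨W, hW⟩
      exact ⟨_, (key W).1 hW⟩
  rw [h2]
  exact h1

variable {p : MvPolynomial (Fin n) ℝ} {q : MvPolynomial (Fin (a + k)) ℝ} {e : Fin n → ℝ}
  {A : (Fin n → ℝ) →ₗ[ℝ] (Fin a → ℝ)} {X : (Fin n → ℝ) →ₗ[ℝ] Matrix (Fin k) (Fin k) ℝ} {c : ℝ}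

/-- **Spectral extension.** -/
theorem spec_ext (hq : IsHyperbolic q (Fin.append (A e) fun _ => c))
    (hS : GShad (hypCone q (Fin.append (A e) fun _ => c))) (hs : SymmLast q)
    (hsym : ∀ x, (X x).IsSymm) (hXe : X e = c • (1 : Matrix (Fin k) (Fin k) ℝ))
    (hp : ∀ x y, (X x).charpoly = ∏ i, (Polynomial.X - Polynomial.C (y i)) →
      eval x p = eval (Fin.append (A x) y) q) : IsHyperbolic p e ∧ GShad (hypCone p e) := by
  refine ⟨spec_hyp hq hsym hXe hp, ?_⟩
  -- the linear form `tr X x - ∑ y`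
  let ℓ : (Fin (n + k) → ℝ) →ₗ[ℝ] ℝ := (Matrix.traceLinearMap (Fin k) ℝ ℝ) ∘ₗ X ∘ₗ xL n k -
    (∑ i, LinearMap.proj i) ∘ₗ yL n k
  have hℓ : ∀ w, ℓ w = (X (xL n k w)).trace - ∑ i, yL n k w i := by
    intro w
    simp [ℓ]
  have h1 : GShad ((appL (A ∘ₗ xL n k) (yL n k)) ⁻¹' (hypCone q (Fin.append (A e) fun _ => c)) ∩
      ({w | ∀ j ∈ (Finset.univ : Finset (Fin k)), w ∈ topS X j} ∩ {w | 0 ≤ ℓ w})) :=
    (hS.preimage _).inter ((GShad.iInter _ fun j _ => gshad_topS hsym j).inter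
      (GShad.halfspace ℓ))
  have h2 := GShad.exists_proj h1
  have h3 : hypCone p e = {x : Fin n → ℝ | ∃ y : Fin k → ℝ, Fin.append x y ∈
      ((appL (A ∘ₗ xL n k) (yL n k)) ⁻¹' (hypCone q (Fin.append (A e) fun _ => c)) ∩
      ({w | ∀ j ∈ (Finset.univ : Finset (Fin k)), w ∈ topS X j} ∩ {w | 0 ≤ ℓ w}))} := by
    ext x
    obtain ⟨U, l, hU, hU', hl, hX⟩ := exists_sorted_diag (hsym x)
    have htr : (X x).trace = ∑ i, l i := by
      rw [hX, Matrix.trace_mul_comm, ← Matrix.mul_assoc, hU, Matrix.one_mul,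
        Matrix.trace_diagonal]
    have happ : ∀ y : Fin k → ℝ, appL (A ∘ₗ xL n k) (yL n k) (Fin.append x y) =
        Fin.append (A x) y := by
      intro y
      show Fin.append (A (xL n k (Fin.append x y))) (yL n k (Fin.append x y)) = _
      rw [xL_append, yL_append]
    rw [mem_spec hXe hp hU hU' hX]
    simp only [Set.mem_ofPred_eq, Set.mem_inter_iff, Set.mem_preimage, happ, hℓ, xL_append,
      yL_append, Finset.mem_univ, forall_true_left, htr, topS,
      psum_le_iff hU hU' hl hX]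
    constructor
    · intro hx
      exact ⟨l, hx, fun j => le_rfl, by rw [sub_self]⟩
    · rintro ⟨y, hy, hj, hsum⟩
      exact major_mem hq hs hl hj (by linarith) hy
  rw [h3]
  exact h2

end Vale.Agent.P256.H326
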