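import Vale.Agent.P256.H326.Norm
import Vale.Agent.P256.H326.SpecLift
import Vale.Agent.P256.St.Class

/-! All members of the class `Built₄` are hyperbolic and have shadow cones, once all cones of
hyperbolic polynomials in at most four variables are shadows. -/

namespace Vale.Agent.P256.H326

open MvPolynomial

theorem Built₄.main (H4 : ∀ (n : ℕ) (p : MvPolynomial (Fin n) ℝ) (e : Fin n → ℝ), n ≤ 4 →
      IsHyperbolic p e → IsSpectrahedralShadow (hypCone p e))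
    {n : ℕ} {p : MvPolynomial (Fin n) ℝ} {e : Fin n → ℝ} (h : Built₄ p e) :
    IsHyperbolic p e ∧ GShad (hypCone p e) := by
  induction h with
  | four hn h => exact ⟨h, GShad.of_shadow (H4 _ _ _ hn h)⟩
  | built h => exact h.main
  | comp A h _ ih =>
    refine ⟨hyp_pre A h ih.1, ?_⟩
    rw [hypCone_pre A h]
    exact ih.2.preimage A
  | mul _ _ ih1 ih2 =>
    refine ⟨hyp_mul ih1.1 ih2.1, ?_⟩
    rw [hypCone_mul]
    exact ih1.2.inter ih2.2
  | cone hp hK _ ih =>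
    refine ⟨hp, ?_⟩
    rw [hK]
    exact ih.2
  | dir hf _ ih =>
    have h1 := (interior_iff ih.1).1 hf
    refine ⟨garding1 ih.1 h1, ?_⟩
    rw [K_eq ih.1 h1]
    exact ih.2
  | ext ρ A B hρ hB hBK h _ ih =>
    exact ⟨quad_hyp ih.1 hBK h hρ rfl hB, quad_gshad ih.1 ih.2 hBK h hρ rfl hB⟩
  | norm J A B hev hA hB h _ ih => exact norm_ext ih.1 ih.2 hev hA hB h
  | spec A X c hs hX hXe h _ ih => exact spec_ext ih.1 ih.2 hs hX hXe h
  | sum z hd1 hd2 hq hqh hqz hz1 hz2 _ _ ih1 ih2 =>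
    have h1 := St.sum_closure ih1.1 ih2.1 hd1 hd2 hqh rfl hq.symm hqz hz1 hz2
    exact ⟨h1.1, h1.2 ih1.2 ih2.2⟩

theorem Built₄.shadow (H4 : ∀ (n : ℕ) (p : MvPolynomial (Fin n) ℝ) (e : Fin n → ℝ), n ≤ 4 →
      IsHyperbolic p e → IsSpectrahedralShadow (hypCone p e))
    {n : ℕ} {p : MvPolynomial (Fin n) ℝ} {e : Fin n → ℝ} (h : Built₄ p e) :
    IsHyperbolic p e ∧ IsSpectrahedralShadow (hypCone p e) :=
  ⟨(h.main H4).1, (h.main H4).2.shadow⟩

end Vale.Agent.P256.H326
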