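import Vale.Agent.P256.H326.GenDefs
import Vale.Agent.P256.H326.B4
import Vale.Agent.P256.H201.Loc4

/-! All members of the class `Gen` are hyperbolic and have shadow cones. -/

namespace Vale.Agent.P256.H326

theorem Gen.built {n : ℕ} {p : MvPolynomial (Fin n) ℝ} {e : Fin n → ℝ} (h : Gen p e) :
    Built₄ p e := by
  induction h with
  | four hn h => exact .four hn h
  | cubic h => exact .built (.cubic h)
  | deriv as h1 h2 h3 => exact .built (.deriv as h1 h2 h3)
  | comp A h _ ih => exact .comp A h ih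
  | mul _ _ ih1 ih2 => exact .mul ih1 ih2
  | cone h1 h2 _ ih => exact .cone h1 h2 ih
  | dir h1 _ ih => exact .dir h1 ih
  | ext ρ A B h1 h2 h3 h4 _ ih => exact .ext ρ A B h1 h2 h3 h4 ih
  | norm J A B h1 h2 h3 h4 _ ih => exact .norm J A B h1 h2 h3 h4 ih
  | spec A X c h1 h2 h3 h4 _ ih => exact .spec A X c h1 h2 h3 h4 ih
  | sum z h1 h2 h3 h4 h5 h6 h7 _ _ ih1 ih2 => exact .sum z h1 h2 h3 h4 h5 h6 h7 ih1 ih2

/-- **Main theorem on the class.** -/
theorem Gen.main {n : ℕ} {p : MvPolynomial (Fin n) ℝ} {e : Fin n → ℝ} (h : Gen p e) :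
    IsHyperbolic p e ∧ IsSpectrahedralShadow (hypCone p e) :=
  h.built.shadow fun _ _ _ hn hp => H201.shadow_le_four hn hp

end Vale.Agent.P256.H326
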