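import Vale.Agent.P256.H326.Smooth

/-! Estimates near an ordinary singular boundary point: the anchor at radius zero. -/

set_option linter.all false

namespace Vale.Agent.P256.H326

open Filter Topology Vale.Agent.P256 Polynomial

variable {n : ℕ} {p : MvPolynomial (Fin n) ℝ} {e : Fin n → ℝ}

/-- coefficient of the derivative of a line -/
theorem abs_coord_le (v : Fin n → ℝ) (i : Fin n) : |v i| ≤ ‖v‖ := by
  have := norm_le_pi_norm v i
  rwa [Real.norm_eq_abs] at this

/-- first order perturbation of the coefficients along a line -/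
theorem coeff_pert1 (hd : ∃ d, p.IsHomogeneous d) (z e : Fin n → ℝ) (R : ℝ) (hR : 0 ≤ R) :
    ∃ C : ℝ, 0 ≤ C ∧ ∀ σ : ℝ, 0 ≤ σ → σ ≤ 1 → ∀ w : Fin n → ℝ, (∀ i, |w i| ≤ R) → ∀ k,
      |(line p (z + σ • e) w).coeff k - MvPolynomial.eval w (part p z k)| ≤ C * σ := by
  obtain ⟨d, hd⟩ := hd
  obtain ⟨C1, hC1, hcb⟩ := coeff_bound d
  obtain ⟨C2, hC2, -, hl⟩ := poly_lip p (‖z‖ + ‖e‖ + R) (by positivity)
  refine ⟨C1 * (C2 * ‖e‖), by positivity, fun σ h0 h1 w hw k => ?_⟩
  have h2 := hcb (line p (z + σ • e) w - line p z w)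
    ((natDegree_sub_le _ _).trans (max_le (line_top hd _ _).1 (line_top hd _ _).1))
    (C2 * (σ * ‖e‖)) (fun t ht => by
      rw [eval_sub, eval_line, eval_line]
      refine hl _ _ (σ * ‖e‖) (by positivity) (fun i => ?_) (fun i => ?_) (fun i => ?_)
      · simp only [Pi.add_apply, Pi.smul_apply, smul_eq_mul]
        have a1 := abs_coord_le z i
        have a2 := abs_coord_le e i
        have a3 : |σ * e i| ≤ ‖e‖ := by
          rw [abs_mul, abs_of_nonneg h0]
          nlinarith [abs_nonneg (e i), norm_nonneg e]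
        have a4 : |t * w i| ≤ R := by
          rw [abs_mul]
          nlinarith [hw i, abs_nonneg (w i), abs_nonneg t]
        calc |z i + σ * e i + t * w i| ≤ |z i| + |σ * e i| + |t * w i| := abs_add_three _ _ _
          _ ≤ _ := by linarith
      · simp only [Pi.add_apply, Pi.smul_apply, smul_eq_mul]
        have a1 := abs_coord_le z i
        have a4 : |t * w i| ≤ R := by
          rw [abs_mul]
          nlinarith [hw i, abs_nonneg (w i), abs_nonneg t]
        have := abs_add_le (z i) (t * w i)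
        linarith [norm_nonneg e]
      · simp only [Pi.add_apply, Pi.smul_apply, smul_eq_mul]
        have : z i + σ * e i + t * w i - (z i + t * w i) = σ * e i := by ring
        rw [this, abs_mul, abs_of_nonneg h0]
        exact mul_le_mul_of_nonneg_left (abs_coord_le e i) h0) k
  rw [coeff_sub, coeff_line p z w] at h2
  calc _ ≤ _ := h2
    _ = _ := by ring

theorem coeff_pert2 (hd : ∃ d, p.IsHomogeneous d) (z e : Fin n → ℝ) (R : ℝ) (hR : 0 ≤ R) :
    ∃ C : ℝ, 0 ≤ C ∧ ∀ σ : ℝ, 0 ≤ σ → σ ≤ 1 → ∀ w : Fin n → ℝ, (∀ i, |w i| ≤ R) → ∀ k,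
      |(line p (z + σ • e) w).coeff k - MvPolynomial.eval w (part p z k) -
        σ * dd (part p z (k + 1)) w e| ≤ C * σ ^ 2 := by
  obtain ⟨d, hd⟩ := hd
  obtain ⟨C1, hC1, hcb⟩ := coeff_bound d
  obtain ⟨C2, hC2, -, hl⟩ := poly_lip (dirD p e) (‖z‖ + ‖e‖ + R) (by positivity)
  refine ⟨C1 * (C2 * ‖e‖), by positivity, fun σ h0 h1 w hw k => ?_⟩
  have hdeg : (line (dirD p e) z w).natDegree ≤ d := by
    refine (line_top (homog_dirD hd e) z w).1.trans (by omega)
  have h2 := hcb (line p (z + σ • e) w - line p z w - Polynomial.C σ * line (dirD p e) z w)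
    ((natDegree_sub_le _ _).trans (max_le ((natDegree_sub_le _ _).trans (max_le (line_top hd _ _).1
      (line_top hd _ _).1)) ((natDegree_C_mul_le _ _).trans hdeg)))
    (C2 * (‖e‖ * σ ^ 2)) (fun t ht => by
      rw [eval_sub, eval_sub, eval_line, eval_line, eval_mul, eval_C, eval_line]
      set a : Fin n → ℝ := z + t • w with ha
      have e1 : z + σ • e + t • w = a + σ • e := by rw [ha]; abel
      rw [e1]
      rcases h0.eq_or_lt with h | h
      · rw [← h]; simp
      obtain ⟨ξ, hξ, hξe⟩ := exists_deriv_eq_slope (fun s => (line p a e).eval s) h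
        (line p a e).continuous.continuousOn (line p a e).differentiable.differentiableOn
      rw [Polynomial.deriv, eval_derivative_line, eval_line, eval_line, zero_smul, add_zero,
        sub_zero, eq_div_iff h.ne'] at hξe
      rw [← hξe, ← eval_dirD, mul_comm σ, ← sub_mul, abs_mul, abs_of_pos h]
      have h3 := hl (a + ξ • e) a (ξ * ‖e‖) (mul_nonneg hξ.1.le (norm_nonneg e)) (fun i => by
          rw [ha]
          simp only [Pi.add_apply, Pi.smul_apply, smul_eq_mul]
          have a1 := abs_coord_le z i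
          have a2 := abs_coord_le e i
          have a3 : |ξ * e i| ≤ ‖e‖ := by
            rw [abs_mul, abs_of_nonneg hξ.1.le]
            nlinarith [abs_nonneg (e i), norm_nonneg e, hξ.2]
          have a4 : |t * w i| ≤ R := by
            rw [abs_mul]
            nlinarith [hw i, abs_nonneg (w i), abs_nonneg t]
          calc |z i + t * w i + ξ * e i| ≤ |z i| + |t * w i| + |ξ * e i| := abs_add_three _ _ _
            _ ≤ _ := by linarith)
        (fun i => by
          rw [ha]
          simp only [Pi.add_apply, Pi.smul_apply, smul_eq_mul]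
          have a1 := abs_coord_le z i
          have a4 : |t * w i| ≤ R := by
            rw [abs_mul]
            nlinarith [hw i, abs_nonneg (w i), abs_nonneg t]
          have := abs_add_le (z i) (t * w i)
          linarith [norm_nonneg e])
        (fun i => by
          simp only [Pi.add_apply, Pi.smul_apply, smul_eq_mul, add_sub_cancel_left]
          rw [abs_mul, abs_of_nonneg hξ.1.le]
          exact mul_le_mul_of_nonneg_left (abs_coord_le e i) hξ.1.le)
      have h4 : C2 * (ξ * ‖e‖) ≤ C2 * (σ * ‖e‖) := by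
        apply mul_le_mul_of_nonneg_left _ hC2
        exact mul_le_mul_of_nonneg_right hξ.2.le (norm_nonneg e)
      calc _ ≤ C2 * (σ * ‖e‖) * σ := mul_le_mul_of_nonneg_right (h3.trans h4) h.le
        _ = _ := by ring) k
  rw [coeff_sub, coeff_sub, coeff_line p z w, coeff_C_mul, coeff_line (dirD p e),
    eval_part_dirD] at h2
  calc _ ≤ _ := h2
    _ = _ := by ring

/-- uniform bounds for all the parts -/
theorem parts_bdd (p : MvPolynomial (Fin n) ℝ) (z e : Fin n → ℝ) (R : ℝ) (hR : 0 ≤ R) :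
    ∃ B : ℝ, 0 ≤ B ∧ ∀ w : Fin n → ℝ, (∀ i, |w i| ≤ R) → ∀ k,
      |MvPolynomial.eval w (part p z k)| ≤ B ∧ |dd (part p z k) w e| ≤ B := by
  have h1 := fun k => poly_lip (part p z k) R hR
  have h2 := fun k => poly_lip (dirD (part p z k) e) R hR
  choose C1 hC1 b1 _ using h1
  choose C2 hC2 b2 _ using h2
  refine ⟨∑ k ∈ Finset.range (pdeg p z), (C1 k + C2 k),
    Finset.sum_nonneg fun k _ => add_nonneg (hC1 k) (hC2 k), fun w hw k => ?_⟩
  by_cases hk : k < pdeg p z
  · have h3 : C1 k + C2 k ≤ ∑ k ∈ Finset.range (pdeg p z), (C1 k + C2 k) :=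
      Finset.single_le_sum (f := fun k => C1 k + C2 k)
        (fun k _ => add_nonneg (hC1 k) (hC2 k)) (Finset.mem_range.2 hk)
    refine ⟨(b1 k w hw).trans (by linarith [hC2 k]), ?_⟩
    rw [← eval_dirD]
    exact (b2 k w hw).trans (by linarith [hC1 k])
  · rw [part_eq_zero_of_ge p z (not_lt.1 hk), ← eval_dirD, dirD_zero, map_zero, abs_zero]
    have : 0 ≤ ∑ k ∈ Finset.range (pdeg p z), (C1 k + C2 k) :=
      Finset.sum_nonneg fun k _ => add_nonneg (hC1 k) (hC2 k)
    exact ⟨this, this⟩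

theorem splits_iter {f : ℝ[X]} (hf : f.Splits) (k : ℕ) : (derivative^[k] f).Splits := by
  induction k with
  | zero => simpa using hf
  | succ k ih => rw [Function.iterate_succ_apply']; exact Splits.derivative' ih

/-- real-rooted polynomials with a small `m`-th coefficient -/
theorem iter_data (f : ℝ[X]) (m : ℕ) :
    (derivative^[m] f).eval 0 = (m.factorial : ℝ) * f.coeff m ∧
    (derivative (derivative^[m] f)).eval 0 = ((m + 1).factorial : ℝ) * f.coeff (m + 1) ∧
    (derivative (derivative (derivative^[m] f))).eval 0 =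
      ((m + 2).factorial : ℝ) * f.coeff (m + 2) := by
  have h : ∀ k, (derivative^[k] f).eval 0 = (k.factorial : ℝ) * f.coeff k := by
    intro k
    rw [← coeff_zero_eq_eval_zero, coeff_iterate_derivative, zero_add, Nat.descFactorial_self,
      nsmul_eq_mul]
  refine ⟨h m, ?_, ?_⟩
  · rw [← h (m + 1), Function.iterate_succ_apply']
  · rw [← h (m + 2), Function.iterate_succ_apply', Function.iterate_succ_apply']

/-- The univariate step: control of all the higher coefficients. -/
theorem split_coeffs (d m : ℕ) {c0 Cup C1 C2 : ℝ} (hc0 : 0 < c0) (hCup : 0 ≤ Cup) (hC1 : 0 ≤ C1)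
    (hC2 : 0 ≤ C2) : ∃ C : ℝ, 0 ≤ C ∧ ∀ (f : ℝ[X]), f.Splits → f.natDegree ≤ d →
      ∀ σ : ℝ, 0 < σ → c0 * σ ≤ f.coeff m → f.coeff m ≤ Cup * σ → |f.coeff (m + 1)| ≤ C1 * σ →
      -(C2 * σ) ≤ f.coeff (m + 2) → ∀ j, |f.coeff (m + j)| ≤ C * σ := by
  obtain ⟨K, hK, hcb⟩ := coeff_bound d
  set M := (1 + Real.sqrt (((((m + 1).factorial : ℝ) * C1) ^ 2 +
    ((m.factorial : ℝ) * Cup) * (((m + 2).factorial : ℝ) * C2)) /
      ((m.factorial : ℝ) * c0) ^ 2)) ^ d with hM
  refine ⟨K * (((m.factorial : ℝ) * Cup) * M), by positivity,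
    fun f hf hdeg σ hσ h1 h2 h3 h4 j => ?_⟩
  obtain ⟨e1, e2, e3⟩ := iter_data f m
  have hm : (0 : ℝ) < (m.factorial : ℝ) := by positivity
  have hm1 : (0 : ℝ) < ((m + 1).factorial : ℝ) := by positivity
  have hm2 : (0 : ℝ) < ((m + 2).factorial : ℝ) := by positivity
  have hdeg' : (derivative^[m] f).natDegree ≤ d :=
    (natDegree_iterate_derivative _ _).trans (by omega)
  have key : ∀ t : ℝ, |t| ≤ 1 → |(derivative^[m] f).eval t| ≤
      (((m.factorial : ℝ) * Cup) * σ) * M := fun t ht =>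
    split_bound (splits_iter hf m) hdeg' (c0 := (m.factorial : ℝ) * c0)
      (Cup := (m.factorial : ℝ) * Cup) (C1 := ((m + 1).factorial : ℝ) * C1)
      (C2 := ((m + 2).factorial : ℝ) * C2) (by positivity) (by positivity) (by positivity)
      (by positivity) hσ
      (by rw [e1, mul_assoc]; exact mul_le_mul_of_nonneg_left h1 hm.le)
      (by rw [e1, mul_assoc]; exact mul_le_mul_of_nonneg_left h2 hm.le)
      (by rw [e2, abs_mul, abs_of_pos hm1, mul_assoc]; exact mul_le_mul_of_nonneg_left h3 hm1.le)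
      (by
        rw [e3, mul_assoc, ← mul_neg]
        exact mul_le_mul_of_nonneg_left h4 hm2.le) ht
  have h5 := hcb _ hdeg' _ key j
  rw [coeff_iterate_derivative, nsmul_eq_mul, abs_mul, Nat.abs_cast] at h5
  have h6 : (1 : ℝ) ≤ ((j + m).descFactorial m : ℝ) := by
    have : 0 < (j + m).descFactorial m := Nat.descFactorial_pos.2 (by omega)
    exact_mod_cast this
  rw [add_comm m j]
  calc |f.coeff (j + m)| ≤ ((j + m).descFactorial m : ℝ) * |f.coeff (j + m)| :=
        le_mul_of_one_le_left (abs_nonneg _) h6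
    _ ≤ _ := h5
    _ = _ := by ring

/-- the `(m+2)`-nd coefficient cannot be very positive -/
theorem split_coeff_upper {f : ℝ[X]} (hf : f.Splits) (m : ℕ) (h0 : 0 < f.coeff m) :
    ((m.factorial : ℝ) * ((m + 2).factorial : ℝ)) * (f.coeff m * f.coeff (m + 2)) ≤
      (((m + 1).factorial : ℝ) * f.coeff (m + 1)) ^ 2 := by
  obtain ⟨e1, e2, e3⟩ := iter_data f m
  have hm : (0 : ℝ) < (m.factorial : ℝ) := by positivity
  have h1 := (eval_sq_nonneg (splits_iter hf m) (by rw [e1]; positivity)).1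
  rw [e1, e2, e3] at h1
  nlinarith [h1]

theorem nonpos_of_le_small {a K σ0 : ℝ} (hσ0 : 0 < σ0) (hK : 0 ≤ K)
    (h : ∀ σ : ℝ, 0 < σ → σ ≤ σ0 → a ≤ K * σ) : a ≤ 0 := by
  by_contra hne
  push Not at hne
  set σ := min σ0 (a / (2 * (K + 1))) with hσ
  have h1 : 0 < σ := lt_min hσ0 (by positivity)
  have h2 := h σ h1 (min_le_left _ _)
  have h3 : σ ≤ a / (2 * (K + 1)) := min_le_right _ _
  rw [le_div_iff₀ (by positivity)] at h3
  nlinarith

/-- **Anchor estimate**: at a smooth boundary point `w` of the tangent cone, all the higher parts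
of `p` are controlled by the first one. -/
theorem anchor (hp : IsHyperbolic p e) {z : Fin n → ℝ} (hz : z ∈ hypCone p e) {m : ℕ}
    (hm : ∀ k < m + 1, part p z k = 0) {c0 R : ℝ} (hc0 : 0 < c0) (hR : 0 ≤ R) :
    ∃ C : ℝ, 0 ≤ C ∧ ∀ w : Fin n → ℝ, (∀ i, |w i| ≤ R) →
      MvPolynomial.eval w (part p z (m + 1)) = 0 → c0 ≤ dd (part p z (m + 1)) w e →
      MvPolynomial.eval w (part p z (m + 2)) ≤ 0 ∧
      ∀ j, |MvPolynomial.eval w (part p z (m + j))| ≤
        C * (- MvPolynomial.eval w (part p z (m + 2))) := by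
  obtain ⟨d, hd⟩ := hp.1
  obtain ⟨C1, hC1, pert1⟩ := coeff_pert1 ⟨d, hd⟩ z e R hR
  obtain ⟨C2, hC2, pert2⟩ := coeff_pert2 ⟨d, hd⟩ z e R hR
  obtain ⟨B, hB, bdd⟩ := parts_bdd p z e R hR
  obtain ⟨C3, hC3, hsc⟩ := split_coeffs d m (c0 := c0 / 2) (Cup := B + C2) (C1 := C1)
    (C2 := 1 + C1) (by positivity) (by positivity) hC1 (by positivity)
  set σ0 : ℝ := min 1 (c0 / (2 * (C2 + 1))) with hσ0
  have hσ0p : 0 < σ0 := lt_min one_pos (by positivity)
  have basic : ∀ σ : ℝ, 0 < σ → σ ≤ σ0 → ∀ w : Fin n → ℝ, (∀ i, |w i| ≤ R) →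
      MvPolynomial.eval w (part p z (m + 1)) = 0 → c0 ≤ dd (part p z (m + 1)) w e →
      (line p (z + σ • e) w).Splits ∧ c0 / 2 * σ ≤ (line p (z + σ • e) w).coeff m ∧
      (line p (z + σ • e) w).coeff m ≤ (B + C2) * σ ∧
      |(line p (z + σ • e) w).coeff (m + 1)| ≤ C1 * σ := by
    intro σ hσ hσσ w hw h1 h2
    have hσ1 : σ ≤ 1 := hσσ.trans (min_le_left _ _)
    have hσ2 : σ ≤ c0 / (2 * (C2 + 1)) := hσσ.trans (min_le_right _ _)
    rw [le_div_iff₀ (by positivity)] at hσ2
    have a1 := pert2 σ hσ.le hσ1 w hw m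
    rw [hm m (by omega), map_zero, sub_zero, abs_le] at a1
    have a2 := (bdd w hw (m + 1)).2
    rw [abs_le] at a2
    have a3 : C2 * σ ^ 2 ≤ c0 / 2 * σ := by nlinarith
    have a4 : C2 * σ ^ 2 ≤ C2 * σ := by nlinarith [mul_nonneg hC2 hσ.le]
    refine ⟨splits_line_open hp ((mem_K_iff hp z).1 hz σ hσ) w, ?_, ?_, ?_⟩
    · nlinarith [a1.1]
    · nlinarith [a1.2, a2.2]
    · have := pert1 σ hσ.le hσ1 w hw (m + 1)
      rwa [h1, sub_zero] at this
  refine ⟨max (B / σ0) (C3 + C1), by positivity, fun w hw h1 h2 => ?_⟩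
  have hneg : MvPolynomial.eval w (part p z (m + 2)) ≤ 0 := by
    set Q : ℝ := (((m + 1).factorial : ℝ) * C1) ^ 2 /
      (((m.factorial : ℝ) * ((m + 2).factorial : ℝ)) * (c0 / 2)) with hQ
    have hm0 : (0 : ℝ) < (m.factorial : ℝ) := by positivity
    have hm2 : (0 : ℝ) < ((m + 2).factorial : ℝ) := by positivity
    refine nonpos_of_le_small (K := Q + C1) hσ0p (by positivity) fun σ hσ hσσ => ?_
    obtain ⟨b1, b2, b3, b4⟩ := basic σ hσ hσσ w hw h1 h2
    have b5 := pert1 σ hσ.le (hσσ.trans (min_le_left _ _)) w hw (m + 2)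
    rw [abs_le] at b5
    have b0 : 0 < (line p (z + σ • e) w).coeff m := lt_of_lt_of_le (by positivity) b2
    have b6 := split_coeff_upper b1 m b0
    have b7 : (line p (z + σ • e) w).coeff (m + 2) ≤ Q * σ := by
      by_cases hc : (line p (z + σ • e) w).coeff (m + 2) ≤ 0
      · exact hc.trans (by positivity)
      push Not at hc
      have b8 : (((m + 1).factorial : ℝ) * (line p (z + σ • e) w).coeff (m + 1)) ^ 2 ≤
          (((m + 1).factorial : ℝ) * C1) ^ 2 * σ ^ 2 := by
        rw [← mul_pow, ← sq_abs, abs_mul, Nat.abs_cast, mul_assoc]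
        exact pow_le_pow_left₀ (by positivity) (mul_le_mul_of_nonneg_left b4 (by positivity)) 2
      have b9 : (c0 / 2 * σ) * (line p (z + σ • e) w).coeff (m + 2) ≤
          (line p (z + σ • e) w).coeff m * (line p (z + σ • e) w).coeff (m + 2) :=
        mul_le_mul_of_nonneg_right b2 hc.le
      rw [hQ, div_mul_eq_mul_div, le_div_iff₀ (by positivity)]
      have b10 : ((m.factorial : ℝ) * ((m + 2).factorial : ℝ)) *
          ((c0 / 2 * σ) * (line p (z + σ • e) w).coeff (m + 2)) ≤
          (((m + 1).factorial : ℝ) * C1) ^ 2 * σ ^ 2 :=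
        (mul_le_mul_of_nonneg_left b9 (by positivity)).trans (b6.trans b8)
      have b11 : σ * ((line p (z + σ • e) w).coeff (m + 2) *
          (((m.factorial : ℝ) * ((m + 2).factorial : ℝ)) * (c0 / 2))) ≤
          σ * ((((m + 1).factorial : ℝ) * C1) ^ 2 * σ) := by
        calc _ = ((m.factorial : ℝ) * ((m + 2).factorial : ℝ)) *
          ((c0 / 2 * σ) * (line p (z + σ • e) w).coeff (m + 2)) := by ring
          _ ≤ _ := b10
          _ = _ := by ring
      exact le_of_mul_le_mul_left b11 hσ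
    nlinarith [b5.1]
  refine ⟨hneg, fun j => ?_⟩
  set g := - MvPolynomial.eval w (part p z (m + 2)) with hg
  have hg0 : 0 ≤ g := by rw [hg]; linarith
  have step : ∀ σ : ℝ, 0 < σ → σ ≤ σ0 → g ≤ σ →
      |MvPolynomial.eval w (part p z (m + j))| ≤ (C3 + C1) * σ := by
    intro σ hσ hσσ hgσ
    obtain ⟨b1, b2, b3, b4⟩ := basic σ hσ hσσ w hw h1 h2
    have hσ1 : σ ≤ 1 := hσσ.trans (min_le_left _ _)
    have b5 := pert1 σ hσ.le hσ1 w hw (m + 2)
    rw [abs_le] at b5
    have b6 := hsc _ b1 (line_top hd _ _).1 σ hσ b2 b3 b4 (by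
      have : MvPolynomial.eval w (part p z (m + 2)) = -g := by rw [hg]; ring
      nlinarith [b5.1]) j
    have b7 := pert1 σ hσ.le hσ1 w hw (m + j)
    have b8 : MvPolynomial.eval w (part p z (m + j)) = (line p (z + σ • e) w).coeff (m + j) -
      ((line p (z + σ • e) w).coeff (m + j) - MvPolynomial.eval w (part p z (m + j))) := by ring
    rw [b8]
    refine (abs_sub _ _).trans ?_
    nlinarith
  rcases le_or_gt σ0 g with hgσ | hgσ
  · have h3 := (bdd w hw (m + j)).1
    have h4 : B ≤ B / σ0 * g := by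
      rw [div_mul_eq_mul_div, le_div_iff₀ hσ0p]
      exact mul_le_mul_of_nonneg_left hgσ hB
    exact h3.trans (h4.trans (mul_le_mul_of_nonneg_right (le_max_left _ _) hg0))
  · refine le_trans ?_ (mul_le_mul_of_nonneg_right (le_max_right (B / σ0) (C3 + C1)) hg0)
    rcases hg0.eq_or_lt with h0 | h0
    · rw [← h0, mul_zero]
      exact nonpos_of_le_small (K := C3 + C1) hσ0p (by positivity) fun σ hσ hσσ =>
        step σ hσ hσσ (by rw [← h0]; exact hσ.le)
    · exact step g h0 hgσ.le le_rfl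

end Vale.Agent.P256.H326
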