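import Vale.Agent.P256.St.ClassB

/-! Norm extensions and the class `Built₄`. -/

namespace Vale.Agent.P256.H326

open MvPolynomial

variable {n k m : ℕ}

/-- The point of `ℝᵏ` whose coordinate `j` is the Euclidean norm of `B j x` for `j ∈ J`, and the
linear form `A x j` for `j ∉ J`. -/
noncomputable def nmap (J : Finset (Fin k)) (A : (Fin n → ℝ) →ₗ[ℝ] (Fin k → ℝ))
    (B : Fin k → (Fin n → ℝ) →ₗ[ℝ] (Fin m → ℝ)) (x : Fin n → ℝ) : Fin k → ℝ :=
  fun j => if j ∈ J then Real.sqrt (∑ i, (B j x i) ^ 2) else A x j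

/-- `q` is even in each of the coordinates of `J`. -/
def EvenIn (J : Finset (Fin k)) (q : MvPolynomial (Fin k) ℝ) : Prop :=
  ∀ j ∈ J, ∀ y : Fin k → ℝ, eval (Function.update y j (-y j)) q = eval y q

/-- `q`, a polynomial in the variables `(u, y) ∈ ℝᵃ × ℝᵏ`, is invariant under the permutations
of the coordinates of `y`. -/
def SymmLast {a k : ℕ} (q : MvPolynomial (Fin (a + k)) ℝ) : Prop :=
  ∀ (σ : Equiv.Perm (Fin k)) (u : Fin a → ℝ) (y : Fin k → ℝ),
    eval (Fin.append u (y ∘ σ)) q = eval (Fin.append u y) q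

/-- `Built₄ p e`: the hyperbolic polynomial `p`, with direction `e`, is obtained in finitely many
steps from hyperbolic polynomials in at most four variables, of any degree, and from the
polynomials of the class `St.Built`, by composition with linear maps, products, changes of the
polynomial which do not change the cone, changes of the direction in the interior of the cone,
quadratic extensions, sums `p₁ + p₂` with `D_z p₁ = D_z p₂ = q`, `q` hyperbolic, `D_z q = 0`, for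
a common point `z` of the two cones, norm extensions: `p(x) = q(y(x))` where `q` is even in
the coordinates of a set `J`, `y_j(x)` is the Euclidean norm of a linear map `B_j x` with
`B_j e = 0` for `j ∈ J`, and a linear form for `j ∉ J`, and spectral extensions:
`p(x) = q(A x, λ(x))` where `q(u, y)` is invariant under the permutations of the coordinates of
`y` and `λ(x)` are the eigenvalues of a symmetric matrix `X x`, linear in `x`, `X e` a multiple
of the identity. -/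
inductive Built₄ : ∀ {n : ℕ}, MvPolynomial (Fin n) ℝ → (Fin n → ℝ) → Prop
  | four {n : ℕ} {p : MvPolynomial (Fin n) ℝ} {e : Fin n → ℝ} :
      n ≤ 4 → IsHyperbolic p e → Built₄ p e
  | built {n : ℕ} {p : MvPolynomial (Fin n) ℝ} {e : Fin n → ℝ} : St.Built p e → Built₄ p e
  | comp {n k : ℕ} {p : MvPolynomial (Fin n) ℝ} {q : MvPolynomial (Fin k) ℝ} {e : Fin n → ℝ}
      (A : (Fin n → ℝ) →ₗ[ℝ] (Fin k → ℝ)) :
      (∀ x, eval x p = eval (A x) q) → Built₄ q (A e) → Built₄ p e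
  | mul {n : ℕ} {p q : MvPolynomial (Fin n) ℝ} {e : Fin n → ℝ} :
      Built₄ p e → Built₄ q e → Built₄ (p * q) e
  | cone {n : ℕ} {p q : MvPolynomial (Fin n) ℝ} {e : Fin n → ℝ} :
      IsHyperbolic p e → hypCone p e = hypCone q e → Built₄ q e → Built₄ p e
  | dir {n : ℕ} {p : MvPolynomial (Fin n) ℝ} {e f : Fin n → ℝ} :
      f ∈ interior (hypCone p e) → Built₄ p e → Built₄ p f
  | ext {n k : ℕ} {p : MvPolynomial (Fin n) ℝ} {q : MvPolynomial (Fin k) ℝ} {e : Fin n → ℝ}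
      (ρ : (Fin n → ℝ) →ₗ[ℝ] ℝ) (A : (Fin n → ℝ) →ₗ[ℝ] (Fin k → ℝ))
      (B : (Fin n → ℝ) →ₗ[ℝ] (Fin n → ℝ) →ₗ[ℝ] (Fin k → ℝ)) :
      ρ e = 1 → (∀ x, B e x + B x e = 0) → (∀ x, B x x ∈ hypCone q (A e)) →
      (∀ x, eval x p = eval (ρ x • A x - B x x) q) → Built₄ q (A e) → Built₄ p e
  | norm {n k m : ℕ} {p : MvPolynomial (Fin n) ℝ} {q : MvPolynomial (Fin k) ℝ} {e : Fin n → ℝ}
      (J : Finset (Fin k)) (A : (Fin n → ℝ) →ₗ[ℝ] (Fin k → ℝ))
      (B : Fin k → (Fin n → ℝ) →ₗ[ℝ] (Fin m → ℝ)) :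
      EvenIn J q → (∀ j ∈ J, A e j = 0) → (∀ j ∈ J, B j e = 0) →
      (∀ x, eval x p = eval (nmap J A B x) q) → Built₄ q (A e) → Built₄ p e
  | spec {n a k : ℕ} {p : MvPolynomial (Fin n) ℝ} {q : MvPolynomial (Fin (a + k)) ℝ}
      {e : Fin n → ℝ} (A : (Fin n → ℝ) →ₗ[ℝ] (Fin a → ℝ))
      (X : (Fin n → ℝ) →ₗ[ℝ] Matrix (Fin k) (Fin k) ℝ) (c : ℝ) :
      SymmLast q → (∀ x, (X x).IsSymm) → X e = c • (1 : Matrix (Fin k) (Fin k) ℝ) →
      (∀ x y, (X x).charpoly = ∏ i, (Polynomial.X - Polynomial.C (y i)) →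
        eval x p = eval (Fin.append (A x) y) q) →
      Built₄ q (Fin.append (A e) fun _ => c) → Built₄ p e
  | sum {n d : ℕ} {p₁ p₂ : MvPolynomial (Fin n) ℝ} {e : Fin n → ℝ} (z : Fin n → ℝ) :
      p₁.IsHomogeneous d → p₂.IsHomogeneous d → polarDeriv z p₁ = polarDeriv z p₂ →
      IsHyperbolic (polarDeriv z p₁) e → polarDeriv z (polarDeriv z p₁) = 0 →
      z ∈ hypCone p₁ e → z ∈ hypCone p₂ e → Built₄ p₁ e → Built₄ p₂ e → Built₄ (p₁ + p₂) e

end Vale.Agent.P256.H326
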