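import Vale.Agent.P256.H326.UQ

/-! Coefficients of forms which are dominated by a diagonal quadratic form. -/

set_option linter.all false

namespace Vale.Agent.P256.H326

open Filter Topology Vale.Agent.P256

/-- exponents of degree `k` -/
noncomputable def expo (n k : ℕ) : Finset (Fin n →₀ ℕ) := Finset.finsuppAntidiag Finset.univ k

theorem mem_expo {n k : ℕ} {m : Fin n →₀ ℕ} : m ∈ expo n k ↔ ∑ i, m i = k := by
  unfold expo; rw [Finset.mem_finsuppAntidiag]; simp

theorem degree_eq_sum {n : ℕ} (m : Fin n →₀ ℕ) : m.degree = ∑ i, m i := by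
  rw [Finsupp.degree_apply]
  exact Finset.sum_subset (Finset.subset_univ _) fun i _ hi => by simpa using hi

theorem eval_homog {n k : ℕ} {G : MvPolynomial (Fin n) ℝ} (hG : G.IsHomogeneous k)
    (u : Fin n → ℝ) :
    MvPolynomial.eval u G = ∑ m ∈ expo n k, MvPolynomial.coeff m G * ∏ i, u i ^ m i := by
  rw [MvPolynomial.eval_eq']
  refine Finset.sum_subset (fun m hm => ?_) (fun m _ hm => ?_)
  · rw [mem_expo, ← degree_eq_sum]
    by_contra h
    exact (MvPolynomial.mem_support_iff.1 hm) (hG.coeff_eq_zero h)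
  · rw [MvPolynomial.notMem_support_iff.1 hm, zero_mul]

/-- the coefficients of a form of degree `k` are bounded by its maximum on the cube -/
theorem mv_coeff_bound (n k : ℕ) : ∃ C : ℝ, 0 < C ∧ ∀ G : MvPolynomial (Fin n) ℝ,
    G.IsHomogeneous k → ∀ B : ℝ, (∀ u : Fin n → ℝ, (∀ i, |u i| ≤ 1) →
      |MvPolynomial.eval u G| ≤ B) → ∀ m, |MvPolynomial.coeff m G| ≤ C * B := by
  classical
  obtain ⟨N, ⟨φ⟩⟩ : ∃ N : ℕ, Nonempty (Fin N ≃ {m // m ∈ expo n k}) :=
    ⟨_, ⟨((expo n k).equivFin).symm⟩⟩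
  set g : Fin N → (Fin n → ℝ) → ℝ := fun j u => ∏ i, u i ^ (φ j).1 i with hg
  have hind : ∀ (v : Fin N → ℝ), v ≠ 0 →
      (∀ u ∈ {u : Fin n → ℝ | ∀ i, |u i| ≤ 1}, ∑ j, v j * g j u = 0) → False := by
    intro v hv hz
    apply hv
    set f : MvPolynomial (Fin n) ℝ := ∑ j, MvPolynomial.monomial (φ j).1 (v j) with hf
    have hev : ∀ u, MvPolynomial.eval u f = ∑ j, v j * g j u := by
      intro u
      rw [hf, map_sum]
      refine Finset.sum_congr rfl fun j _ => ?_
      rw [MvPolynomial.eval_monomial, Finsupp.prod_fintype]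
      intro i; simp
    have hf0 : f = 0 := by
      refine MvPolynomial.funext_set (fun _ => Set.Icc (-1 : ℝ) 1)
        (fun _ => Set.Icc_infinite (by norm_num)) fun u hu => ?_
      rw [hev, map_zero]
      exact hz u fun i => abs_le.2 (hu i (Set.mem_univ i))
    funext j
    have h1 : MvPolynomial.coeff (φ j).1 f = v j := by
      rw [hf, MvPolynomial.coeff_sum, Finset.sum_eq_single j]
      · simp
      · intro j' _ hj'
        rw [MvPolynomial.coeff_monomial, if_neg]
        intro h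
        exact hj' (φ.injective (Subtype.ext h))
      · simp
    rw [← h1, hf0]; simp
  have hsep := fun j : Fin N => separate {u : Fin n → ℝ | ∀ i, |u i| ≤ 1} g hind j
  choose m w z hz hw using hsep
  have hS0 : 0 ≤ ∑ j, ∑ i, |w j i| :=
    Finset.sum_nonneg fun _ _ => Finset.sum_nonneg fun _ _ => abs_nonneg _
  refine ⟨1 + ∑ j, ∑ i, |w j i|, by linarith, fun G hG B hB m' => ?_⟩
  have hB0 : 0 ≤ B := (abs_nonneg _).trans (hB 0 (by simp))
  by_cases hm' : m' ∈ expo n k
  · set j := φ.symm ⟨m', hm'⟩ with hj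
    have hjm : (φ j).1 = m' := by rw [hj, Equiv.apply_symm_apply]
    have hev : ∀ u, MvPolynomial.eval u G = ∑ j, MvPolynomial.coeff (φ j).1 G * g j u := by
      intro u
      rw [eval_homog hG, ← Finset.sum_coe_sort]
      exact (Equiv.sum_comp φ (fun m : {m // m ∈ expo n k} =>
        MvPolynomial.coeff m.1 G * ∏ i, u i ^ m.1 i)).symm
    have h1 : MvPolynomial.coeff m' G = ∑ i, w j i * MvPolynomial.eval (z j i) G := by
      simp only [hev, Finset.mul_sum]
      rw [Finset.sum_comm]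
      have : ∀ j', ∑ i, w j i * (MvPolynomial.coeff (φ j').1 G * g j' (z j i)) =
          MvPolynomial.coeff (φ j').1 G * (if j' = j then 1 else 0) := by
        intro j'
        rw [← hw j j', Finset.mul_sum]
        exact Finset.sum_congr rfl fun i _ => by ring
      simp only [this]
      simp [hjm]
    rw [h1]
    have h2 : |∑ i, w j i * MvPolynomial.eval (z j i) G| ≤ ∑ i, |w j i| * B := by
      refine (Finset.abs_sum_le_sum_abs _ _).trans (Finset.sum_le_sum fun i _ => ?_)
      rw [abs_mul]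
      exact mul_le_mul_of_nonneg_left (hB _ (hz j i)) (abs_nonneg _)
    refine h2.trans ?_
    rw [← Finset.sum_mul]
    refine mul_le_mul_of_nonneg_right ?_ hB0
    have h3 : ∑ i, |w j i| ≤ ∑ j, ∑ i, |w j i| :=
      Finset.single_le_sum (f := fun j => ∑ i, |w j i|)
        (fun _ _ => Finset.sum_nonneg fun _ _ => abs_nonneg _) (Finset.mem_univ j)
    linarith
  · have : MvPolynomial.coeff m' G = 0 := by
      apply hG.coeff_eq_zero
      rw [degree_eq_sum]
      exact fun h => hm' (mem_expo.2 h)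
    rw [this, abs_zero]
    positivity

/-- the substitution `u_i ↦ μ_i u_i` -/
noncomputable def scal {n : ℕ} (μ : Fin n → ℝ) (G : MvPolynomial (Fin n) ℝ) :
    MvPolynomial (Fin n) ℝ :=
  MvPolynomial.aeval (fun i => MvPolynomial.C (μ i) * MvPolynomial.X i) G

theorem eval_scal {n : ℕ} (μ : Fin n → ℝ) (G : MvPolynomial (Fin n) ℝ) (u : Fin n → ℝ) :
    MvPolynomial.eval u (scal μ G) = MvPolynomial.eval (fun i => μ i * u i) G := by
  unfold scal
  induction G using MvPolynomial.induction_on with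
  | C a => simp
  | add p q hp hq => simp only [map_add, hp, hq]
  | mul_X p i hp =>
    simp only [map_mul, hp, MvPolynomial.aeval_X, MvPolynomial.eval_X, MvPolynomial.eval_C]

theorem coeff_scal {n : ℕ} (μ : Fin n → ℝ) (G : MvPolynomial (Fin n) ℝ) (m : Fin n →₀ ℕ) :
    MvPolynomial.coeff m (scal μ G) = (∏ i, μ i ^ m i) * MvPolynomial.coeff m G := by
  classical
  unfold scal
  induction G using MvPolynomial.induction_on' with
  | monomial m' a =>
    rw [MvPolynomial.aeval_monomial, MvPolynomial.algebraMap_eq, Finsupp.prod_fintype _ _ (by simp)]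
    have h1 : ∏ i, (MvPolynomial.C (μ i) * MvPolynomial.X i : MvPolynomial (Fin n) ℝ) ^ m' i =
        MvPolynomial.C (∏ i, μ i ^ m' i) * MvPolynomial.monomial m' 1 := by
      simp only [mul_pow]
      rw [Finset.prod_mul_distrib, map_prod]
      congr 1
      · exact Finset.prod_congr rfl fun i _ => by rw [map_pow]
      · rw [MvPolynomial.monomial_eq, map_one, one_mul, Finsupp.prod_fintype _ _ (by simp)]
    rw [h1, MvPolynomial.coeff_C_mul, MvPolynomial.coeff_C_mul, MvPolynomial.coeff_monomial,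
      MvPolynomial.coeff_monomial]
    by_cases h : m' = m
    · subst h; simp; ring
    · simp [h]
  | add p q hp hq => rw [map_add, MvPolynomial.coeff_add, hp, hq, MvPolynomial.coeff_add]; ring

theorem homog_scal {n k : ℕ} (μ : Fin n → ℝ) {G : MvPolynomial (Fin n) ℝ}
    (hG : G.IsHomogeneous k) : (scal μ G).IsHomogeneous k := by
  intro m hm
  rw [coeff_scal] at hm
  exact hG (right_ne_zero_of_mul hm)

/-- Lemma (R): the coefficients of a form dominated by `Σ c_i² u_i²`, with a parameter. -/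
theorem coefR_aux (n k : ℕ) : ∃ C : ℝ, 0 < C ∧ ∀ G : MvPolynomial (Fin n) ℝ,
    G.IsHomogeneous k → ∀ (B : ℝ) (c : Fin n → ℝ), 0 ≤ B → (∀ i, 0 ≤ c i) →
    (∀ u : Fin n → ℝ, (∀ i, |u i| ≤ 1) → |MvPolynomial.eval u G| ≤ B * ∑ i, c i ^ 2 * u i ^ 2) →
    ∀ (m : Fin n →₀ ℕ) (a : Fin n) (μ : ℝ), 0 < μ → (∀ i, m i ≠ 0 → c i ≤ μ) →
      |MvPolynomial.coeff (m + Finsupp.single a 1) G| ≤ C * B * (μ * max μ (c a)) := by
  obtain ⟨C0, hC0, hb⟩ := mv_coeff_bound n k
  refine ⟨C0 * (n + 1), by positivity, fun G hG B c hB hc hGc m a μ hμ hm => ?_⟩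
  set ν : Fin n → ℝ := fun i => μ / max μ (c i) with hν
  have hmax : ∀ i, 0 < max μ (c i) := fun i => lt_max_of_lt_left hμ
  have hν0 : ∀ i, 0 < ν i := fun i => div_pos hμ (hmax i)
  have hν1 : ∀ i, ν i ≤ 1 := fun i => (div_le_one (hmax i)).2 (le_max_left _ _)
  have hνc : ∀ i, c i * ν i ≤ μ := by
    intro i
    rw [hν]
    simp only
    rw [mul_div_assoc', div_le_iff₀ (hmax i), mul_comm]
    exact mul_le_mul_of_nonneg_left (le_max_right _ _) hμ.le
  have h1 : ∀ u : Fin n → ℝ, (∀ i, |u i| ≤ 1) →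
      |MvPolynomial.eval u (scal ν G)| ≤ B * ((n + 1) * μ ^ 2) := by
    intro u hu
    rw [eval_scal]
    refine (hGc _ fun i => ?_).trans (mul_le_mul_of_nonneg_left ?_ hB)
    · rw [abs_mul, abs_of_pos (hν0 i)]
      exact mul_le_one₀ (hν1 i) (abs_nonneg _) (hu i)
    · have h2 : ∀ i, c i ^ 2 * (ν i * u i) ^ 2 ≤ μ ^ 2 := by
        intro i
        have h3 : (c i * ν i) ^ 2 ≤ μ ^ 2 :=
          pow_le_pow_left₀ (mul_nonneg (hc i) (hν0 i).le) (hνc i) 2
        have h4 : u i ^ 2 ≤ 1 := by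
          rw [← sq_abs]
          exact pow_le_one₀ (abs_nonneg _) (hu i)
        calc c i ^ 2 * (ν i * u i) ^ 2 = (c i * ν i) ^ 2 * u i ^ 2 := by ring
          _ ≤ μ ^ 2 * 1 := mul_le_mul h3 h4 (sq_nonneg _) (sq_nonneg _)
          _ = μ ^ 2 := mul_one _
      calc ∑ i, c i ^ 2 * (ν i * u i) ^ 2 ≤ ∑ _i : Fin n, μ ^ 2 :=
            Finset.sum_le_sum fun i _ => h2 i
        _ = n * μ ^ 2 := by simp
        _ ≤ (n + 1) * μ ^ 2 := by nlinarith [sq_nonneg μ]
  have h2 := hb (scal ν G) (homog_scal ν hG) _ h1 (m + Finsupp.single a 1)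
  have h3 : ∏ i, ν i ^ (m + Finsupp.single a 1 : Fin n →₀ ℕ) i = ν a := by
    classical
    have h4 : ∀ i, ν i ^ (m + Finsupp.single a 1 : Fin n →₀ ℕ) i = if i = a then ν a else 1 := by
      intro i
      have h5 : ν i ^ m i = 1 := by
        by_cases h : m i = 0
        · rw [h, pow_zero]
        · have : ν i = 1 := by
            rw [hν]; simp only
            rw [max_eq_left (hm i h), div_self hμ.ne']
          rw [this, one_pow]
      rw [Finsupp.add_apply, pow_add, h5, one_mul, Finsupp.single_apply]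
      by_cases h : a = i
      · subst h; simp
      · rw [if_neg h, if_neg (Ne.symm h), pow_zero]
    rw [Finset.prod_congr rfl fun i _ => h4 i]
    simp
  rw [coeff_scal, h3, abs_mul, abs_of_pos (hν0 a)] at h2
  have h6 : |MvPolynomial.coeff (m + Finsupp.single a 1) G| * μ ≤
      C0 * (B * ((n + 1) * μ ^ 2)) * max μ (c a) := by
    have h7 : ν a * max μ (c a) = μ := by
      rw [hν]; simp only
      rw [div_mul_cancel₀ _ (hmax a).ne']
    have h8 := mul_le_mul_of_nonneg_right h2 (hmax a).le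
    calc |MvPolynomial.coeff (m + Finsupp.single a 1) G| * μ
        = |MvPolynomial.coeff (m + Finsupp.single a 1) G| * (ν a * max μ (c a)) := by rw [h7]
      _ = ν a * |MvPolynomial.coeff (m + Finsupp.single a 1) G| * max μ (c a) := by ring
      _ ≤ _ := h8
  have h9 : |MvPolynomial.coeff (m + Finsupp.single a 1) G| * μ ≤
      (C0 * (n + 1) * B * (μ * max μ (c a))) * μ := by
    refine h6.trans (le_of_eq ?_); ring
  exact le_of_mul_le_mul_right h9 hμ

/-- Lemma (R): the coefficients of a form dominated by `Σ c_i² u_i²`. -/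
theorem coefR (n k : ℕ) : ∃ C : ℝ, 0 < C ∧ ∀ G : MvPolynomial (Fin n) ℝ,
    G.IsHomogeneous k → ∀ (B : ℝ) (c : Fin n → ℝ), 0 ≤ B → (∀ i, 0 ≤ c i) →
    (∀ u : Fin n → ℝ, (∀ i, |u i| ≤ 1) → |MvPolynomial.eval u G| ≤ B * ∑ i, c i ^ 2 * u i ^ 2) →
    ∀ (m : Fin n →₀ ℕ) (a b : Fin n), c b ≤ c a → (∀ i, m i ≠ 0 → c i ≤ c b) →
      |MvPolynomial.coeff (m + Finsupp.single b 1 + Finsupp.single a 1) G| ≤
        C * B * (c a * c b) := by
  obtain ⟨C, hC, h⟩ := coefR_aux n k
  refine ⟨C, hC, fun G hG B c hB hc hGc m a b hab hm => ?_⟩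
  have h1 : ∀ ε : ℝ, 0 < ε →
      |MvPolynomial.coeff (m + Finsupp.single b 1 + Finsupp.single a 1) G| ≤
        C * B * ((c b + ε) * (c a + ε)) := by
    intro ε hε
    have h2 := h G hG B c hB hc hGc (m + Finsupp.single b 1) a (c b + ε)
      (by linarith [hc b]) (fun i hi => by
        classical
        rw [Finsupp.add_apply, Finsupp.single_apply] at hi
        by_cases hbi : b = i
        · subst hbi; linarith
        · rw [if_neg hbi, add_zero] at hi
          linarith [hm i hi])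
    refine h2.trans (mul_le_mul_of_nonneg_left ?_ (mul_nonneg hC.le hB))
    refine mul_le_mul_of_nonneg_left ?_ (by linarith [hc b])
    exact max_le (by linarith) (by linarith)
  have h3 : Tendsto (fun ε : ℝ => C * B * ((c b + ε) * (c a + ε))) (𝓝[>] 0)
      (𝓝 (C * B * ((c b + 0) * (c a + 0)))) := by
    have : Continuous (fun ε : ℝ => C * B * ((c b + ε) * (c a + ε))) := by fun_prop
    exact this.continuousWithinAt.tendsto
  have h4 := ge_of_tendsto h3 (by
    filter_upwards [self_mem_nhdsWithin] with ε hε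
    exact h1 ε hε)
  refine h4.trans (le_of_eq ?_); ring

/-- a finite nonempty set has a largest element along an ultrafilter -/
theorem exists_ultra_max {Z ι : Type*} (U : Ultrafilter Z) (c : ι → Z → ℝ) (s : Finset ι)
    (hs : s.Nonempty) : ∃ a ∈ s, ∀ i ∈ s, ∀ᶠ z in (U : Filter Z), c i z ≤ c a z := by
  classical
  induction hs using Finset.Nonempty.cons_induction with
  | singleton a =>
    exact ⟨a, Finset.mem_singleton_self a, fun i hi => by
      rw [Finset.mem_singleton.1 hi]; exact Eventually.of_forall fun _ => le_rfl⟩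
  | cons b s hb hs ih =>
    obtain ⟨a, ha, h⟩ := ih
    rcases ultra_le_total U (c a) (c b) with h1 | h1
    · refine ⟨b, Finset.mem_cons_self b s, fun i hi => ?_⟩
      rcases Finset.mem_cons.1 hi with hi | hi
      · subst hi; exact Eventually.of_forall fun _ => le_rfl
      · filter_upwards [h i hi, h1] with z h2 h3
        exact h2.trans h3
    · refine ⟨a, Finset.mem_cons.2 (Or.inr ha), fun i hi => ?_⟩
      rcases Finset.mem_cons.1 hi with hi | hi
      · subst hi; exact h1
      · exact h i hi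

/-- the two largest indices of an exponent along an ultrafilter -/
theorem exists_split {Z : Type*} (U : Ultrafilter Z) {n : ℕ} (c : Fin n → Z → ℝ)
    {m : Fin n →₀ ℕ} (hm : 2 ≤ ∑ i, m i) :
    ∃ (m' : Fin n →₀ ℕ) (a b : Fin n), m = m' + Finsupp.single b 1 + Finsupp.single a 1 ∧
      ∀ᶠ z in (U : Filter Z), c b z ≤ c a z ∧ ∀ i, m' i ≠ 0 → c i z ≤ c b z := by
  classical
  have hne : ∀ m : Fin n →₀ ℕ, 0 < ∑ i, m i → m.support.Nonempty := by
    intro m h
    rw [Finset.nonempty_iff_ne_empty]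
    intro h0
    rw [Finsupp.support_eq_empty] at h0
    rw [h0] at h; simp at h
  have key : ∀ m : Fin n →₀ ℕ, 0 < ∑ i, m i → ∃ (m' : Fin n →₀ ℕ) (a : Fin n),
      m = m' + Finsupp.single a 1 ∧ ∑ i, m i = ∑ i, m' i + 1 ∧ m a ≠ 0 ∧
        ∀ i, m i ≠ 0 → ∀ᶠ z in (U : Filter Z), c i z ≤ c a z := by
    intro m h
    obtain ⟨a, ha, hmax⟩ := exists_ultra_max U c m.support (hne m h)
    have ha0 : m a ≠ 0 := Finsupp.mem_support_iff.1 ha
    have hle : Finsupp.single a 1 ≤ m := by
      rw [Finsupp.single_le_iff]; omega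
    have e1 : m = (m - Finsupp.single a 1) + Finsupp.single a 1 := (tsub_add_cancel_of_le hle).symm
    refine ⟨m - Finsupp.single a 1, a, e1, ?_, ha0, fun i hi => hmax i (Finsupp.mem_support_iff.2 hi)⟩
    conv_lhs => rw [e1]
    simp [Finsupp.add_apply, Finset.sum_add_distrib, Finsupp.single_apply]
  obtain ⟨m1, a, e1, s1, ha, h1⟩ := key m (by omega)
  obtain ⟨m2, b, e2, s2, hb, h2⟩ := key m1 (by omega)
  refine ⟨m2, a, b, by rw [← e2]; exact e1, ?_⟩
  have hmb : m b ≠ 0 := by
    rw [e1, Finsupp.add_apply]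
    omega
  have h3 : ∀ᶠ z in (U : Filter Z), ∀ i, m1 i ≠ 0 → c i z ≤ c b z := by
    rw [eventually_all]
    intro i
    by_cases hi : m1 i = 0
    · exact Eventually.of_forall fun z h => absurd hi h
    · filter_upwards [h2 i hi] with z hz _ using hz
  filter_upwards [h1 b hmb, h3] with z hz1 hz2
  refine ⟨hz1, fun i hi => hz2 i ?_⟩
  rw [e2, Finsupp.add_apply]
  omega

end Vale.Agent.P256.H326
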