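import Vale.Agent.P256.H326.Anchor

/-! Estimates near an ordinary singular boundary point: transfer to positive radius. -/

set_option linter.all false

namespace Vale.Agent.P256.H326

open Filter Topology Vale.Agent.P256 Polynomial

variable {n : ℕ} {p : MvPolynomial (Fin n) ℝ} {e : Fin n → ℝ}

/-- number of terms -/
noncomputable def NN (p : MvPolynomial (Fin n) ℝ) (z : Fin n → ℝ) : ℕ := pdeg p z + 2

/-- `1/j! ∂_r^j` of the blown up polynomial, as a polynomial in the direction -/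
noncomputable def HJ (p : MvPolynomial (Fin n) ℝ) (z : Fin n → ℝ) (m j : ℕ) (r : ℝ) :
    MvPolynomial (Fin n) ℝ :=
  ∑ i ∈ Finset.range (NN p z), MvPolynomial.C ((i.choose j : ℝ) * r ^ (i - j)) * part p z (m + i)

theorem eval_HJ (p : MvPolynomial (Fin n) ℝ) (z : Fin n → ℝ) (m j : ℕ) (r : ℝ) (w : Fin n → ℝ) :
    MvPolynomial.eval w (HJ p z m j r) = ∑ i ∈ Finset.range (NN p z),
      ((i.choose j : ℝ) * r ^ (i - j)) * MvPolynomial.eval w (part p z (m + i)) := by
  unfold HJ
  rw [map_sum]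
  exact Finset.sum_congr rfl fun i _ => by rw [map_mul, MvPolynomial.eval_C]

theorem dd_C_mul (c : ℝ) (q : MvPolynomial (Fin n) ℝ) (w v : Fin n → ℝ) :
    dd (MvPolynomial.C c * q) w v = c * dd q w v := by
  unfold dd
  rw [Finset.mul_sum]
  refine Finset.sum_congr rfl fun i _ => ?_
  rw [MvPolynomial.pderiv_C_mul, map_mul, MvPolynomial.eval_C]
  ring

theorem dd_sum' {ι : Type*} (s : Finset ι) (q : ι → MvPolynomial (Fin n) ℝ) (w v : Fin n → ℝ) :
    dd (∑ i ∈ s, q i) w v = ∑ i ∈ s, dd (q i) w v := by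
  unfold dd
  rw [Finset.sum_comm]
  refine Finset.sum_congr rfl fun i _ => ?_
  rw [map_sum, map_sum, Finset.mul_sum]

theorem dd_HJ (p : MvPolynomial (Fin n) ℝ) (z : Fin n → ℝ) (m j : ℕ) (r : ℝ) (w v : Fin n → ℝ) :
    dd (HJ p z m j r) w v = ∑ i ∈ Finset.range (NN p z),
      ((i.choose j : ℝ) * r ^ (i - j)) * dd (part p z (m + i)) w v := by
  unfold HJ
  rw [dd_sum']
  exact Finset.sum_congr rfl fun i _ => dd_C_mul _ _ _ _

theorem coef_le (N : ℕ) {i : ℕ} (hi : i ∈ Finset.range N) (j : ℕ) {r : ℝ} (hr : |r| ≤ 1) :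
    |(i.choose j : ℝ) * r ^ (i - j)| ≤ 2 ^ N := by
  rw [abs_mul, abs_pow, Nat.abs_cast]
  have h1 : |r| ^ (i - j) ≤ 1 := pow_le_one₀ (abs_nonneg _) hr
  have h2 : ((i.choose j : ℕ) : ℝ) ≤ 2 ^ i := by exact_mod_cast Nat.choose_le_two_pow i j
  have h3 : (2 : ℝ) ^ i ≤ 2 ^ N := pow_le_pow_right₀ (by norm_num) (Finset.mem_range.1 hi).le
  have h4 : (0 : ℝ) ≤ ((i.choose j : ℕ) : ℝ) := Nat.cast_nonneg _
  calc ((i.choose j : ℕ) : ℝ) * |r| ^ (i - j) ≤ ((i.choose j : ℕ) : ℝ) * 1 :=
        mul_le_mul_of_nonneg_left h1 h4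
    _ ≤ _ := by linarith

/-- first order Taylor estimate for a form -/
theorem homog_tay {q : MvPolynomial (Fin n) ℝ} {d : ℕ} (hq : q.IsHomogeneous d) (e : Fin n → ℝ)
    (R : ℝ) (hR : 0 ≤ R) :
    ∃ C : ℝ, 0 ≤ C ∧ ∀ x v : Fin n → ℝ, (∀ i, |x i| ≤ R) → (∀ i, |v i| ≤ R) → ∀ t s : ℝ,
      |t| ≤ 1 → |s| ≤ 1 →
      |MvPolynomial.eval (x + t • v + s • e) q - MvPolynomial.eval x q - t * dd q x v| ≤
        C * (t ^ 2 + |s|) ∧
      |dd q (x + t • v + s • e) e - dd q x e| ≤ C * (|t| + |s|) := by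
  obtain ⟨K, hK, hcb⟩ := coeff_bound d
  obtain ⟨C1, hC1, hb1, hl1⟩ := poly_lip q (R + R + ‖e‖) (by positivity)
  obtain ⟨C2, hC2, hb2, hl2⟩ := poly_lip (dirD q e) (R + R + ‖e‖) (by positivity)
  refine ⟨C1 * ‖e‖ + d * (K * C1) + C2 * (R + ‖e‖), by positivity, fun x v hx hv t s ht hs => ?_⟩
  have b1 : ∀ τ : ℝ, |τ| ≤ 1 → ∀ i, |(x + τ • v) i| ≤ R + R + ‖e‖ := by
    intro τ hτ i
    simp only [Pi.add_apply, Pi.smul_apply, smul_eq_mul]
    have h1 : |τ * v i| ≤ R := abs_smul_le hτ hv i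
    have := abs_add_le (x i) (τ * v i)
    linarith [hx i, norm_nonneg e]
  have b2 : ∀ i, |(x + t • v + s • e) i| ≤ R + R + ‖e‖ := by
    intro i
    simp only [Pi.add_apply, Pi.smul_apply, smul_eq_mul]
    have h1 : |t * v i| ≤ R := abs_smul_le ht hv i
    have h2 : |s * e i| ≤ ‖e‖ := abs_smul_le hs (abs_coord_le e) i
    have := abs_add_three (x i) (t * v i) (s * e i)
    linarith [hx i]
  have h0 : 0 ≤ C2 * (R + ‖e‖) := by positivity
  have h0' : 0 ≤ d * (K * C1) := by positivity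
  have h0'' : 0 ≤ C1 * ‖e‖ := by positivity
  constructor
  · -- shift in `e`
    have h1 := hl1 (x + t • v + s • e) (x + t • v) (|s| * ‖e‖) (by positivity) b2 (b1 t ht)
      (fun i => by
        simp only [Pi.add_apply, Pi.smul_apply, smul_eq_mul, add_sub_cancel_left]
        rw [abs_mul]
        exact mul_le_mul_of_nonneg_left (abs_coord_le e i) (abs_nonneg _))
    have h2 : |MvPolynomial.eval (x + t • v) q - MvPolynomial.eval x q - t * dd q x v| ≤
        d * (K * C1) * t ^ 2 := by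
      have e1 : MvPolynomial.eval (x + t • v) q - MvPolynomial.eval x q - t * dd q x v =
          t ^ 2 * ∑ k ∈ Finset.range d, (line q x v).coeff (k + 2) * t ^ k := by
        rw [← eval_line, eval_eq_sum_range' (show (line q x v).natDegree < d + 2 from
          lt_of_le_of_lt (line_top hq x v).1 (by omega)), Finset.sum_range_succ',
          Finset.sum_range_succ']
        have c0 : (line q x v).coeff 0 = MvPolynomial.eval x q := by rw [coeff_line, part0_eq]
        have c1 : (line q x v).coeff 1 = dd q x v := by rw [coeff_line, part1_eq]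
        simp only [zero_add, pow_zero, pow_one, mul_one, c0, c1]
        rw [Finset.mul_sum]
        have : ∀ k ∈ Finset.range d, t ^ 2 * ((line q x v).coeff (k + 2) * t ^ k) =
            (line q x v).coeff (k + 1 + 1) * t ^ (k + 1 + 1) := fun k _ => by ring
        rw [Finset.sum_congr rfl this]; ring
      rw [e1, abs_mul, abs_of_nonneg (sq_nonneg t), mul_comm]
      apply mul_le_mul_of_nonneg_right _ (sq_nonneg t)
      refine (Finset.abs_sum_le_sum_abs _ _).trans ?_
      have : ∀ k ∈ Finset.range d, |(line q x v).coeff (k + 2) * t ^ k| ≤ K * C1 := by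
        intro k _
        rw [abs_mul, abs_pow]
        have h3 := hcb (line q x v) (line_top hq x v).1 C1 (fun τ hτ => by
          rw [eval_line]; exact hb1 _ (b1 τ hτ)) (k + 2)
        have h4 : |t| ^ k ≤ 1 := pow_le_one₀ (abs_nonneg _) ht
        calc _ ≤ K * C1 * 1 := mul_le_mul h3 h4 (by positivity) (by positivity)
          _ = _ := mul_one _
      refine (Finset.sum_le_sum this).trans ?_
      simp
    have e2 : MvPolynomial.eval (x + t • v + s • e) q - MvPolynomial.eval x q - t * dd q x v =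
        (MvPolynomial.eval (x + t • v + s • e) q - MvPolynomial.eval (x + t • v) q) +
        (MvPolynomial.eval (x + t • v) q - MvPolynomial.eval x q - t * dd q x v) := by ring
    rw [e2]
    refine (abs_add_le _ _).trans ?_
    nlinarith [abs_nonneg s, sq_nonneg t, mul_nonneg h0 (abs_nonneg s), mul_nonneg h0 (sq_nonneg t),
      mul_nonneg h0' (abs_nonneg s), mul_nonneg h0'' (sq_nonneg t)]
  · rw [← eval_dirD, ← eval_dirD]
    have h1 := hl2 (x + t • v + s • e) x ((R + ‖e‖) * (|t| + |s|)) (by positivity) b2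
      (fun i => by linarith [hx i, norm_nonneg e]) (fun i => by
        simp only [Pi.add_apply, Pi.smul_apply, smul_eq_mul]
        have e3 : x i + t * v i + s * e i - x i = t * v i + s * e i := by ring
        rw [e3]
        refine (abs_add_le _ _).trans ?_
        rw [abs_mul, abs_mul]
        have h5 := hv i
        have h6 := abs_coord_le e i
        nlinarith [abs_nonneg t, abs_nonneg s, norm_nonneg e, abs_nonneg (v i), abs_nonneg (e i),
          mul_le_mul_of_nonneg_left h5 (abs_nonneg t), mul_le_mul_of_nonneg_left h6 (abs_nonneg s),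
          mul_nonneg (abs_nonneg t) (norm_nonneg e), mul_nonneg (abs_nonneg s) hR])
    refine h1.trans ?_
    have h7 : 0 ≤ |t| + |s| := by positivity
    nlinarith [mul_nonneg h0'' h7, mul_nonneg h0' h7]

theorem parts_tay (p : MvPolynomial (Fin n) ℝ) (z e : Fin n → ℝ) (R : ℝ) (hR : 0 ≤ R) :
    ∃ C : ℝ, 0 ≤ C ∧ ∀ k, ∀ x v : Fin n → ℝ, (∀ i, |x i| ≤ R) → (∀ i, |v i| ≤ R) → ∀ t s : ℝ,
      |t| ≤ 1 → |s| ≤ 1 →
      |MvPolynomial.eval (x + t • v + s • e) (part p z k) - MvPolynomial.eval x (part p z k) -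
        t * dd (part p z k) x v| ≤ C * (t ^ 2 + |s|) ∧
      |dd (part p z k) (x + t • v + s • e) e - dd (part p z k) x e| ≤ C * (|t| + |s|) := by
  have h1 := fun k => homog_tay (part_homog p z k) e R hR
  choose C hC b using h1
  refine ⟨∑ k ∈ Finset.range (pdeg p z), C k, Finset.sum_nonneg fun k _ => hC k,
    fun k x v hx hv t s ht hs => ?_⟩
  by_cases hk : k < pdeg p z
  · have h3 : C k ≤ ∑ k ∈ Finset.range (pdeg p z), C k :=
      Finset.single_le_sum (f := fun k => C k) (fun k _ => hC k) (Finset.mem_range.2 hk)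
    obtain ⟨a1, a2⟩ := b k x v hx hv t s ht hs
    exact ⟨a1.trans (mul_le_mul_of_nonneg_right h3 (by positivity)),
      a2.trans (mul_le_mul_of_nonneg_right h3 (by positivity))⟩
  · have h4 : ∀ x v : Fin n → ℝ, dd (0 : MvPolynomial (Fin n) ℝ) x v = 0 := by
      intro x v; rw [← eval_dirD, dirD_zero, map_zero]
    rw [part_eq_zero_of_ge p z (not_lt.1 hk)]
    simp only [map_zero, h4, mul_zero, sub_zero, abs_zero]
    have : 0 ≤ ∑ k ∈ Finset.range (pdeg p z), C k := Finset.sum_nonneg fun k _ => hC k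
    exact ⟨by positivity, by positivity⟩

theorem HJ_tay (p : MvPolynomial (Fin n) ℝ) (z e : Fin n → ℝ) (m : ℕ) (R : ℝ) (hR : 0 ≤ R) :
    ∃ C : ℝ, 0 ≤ C ∧ ∀ j, ∀ r : ℝ, |r| ≤ 1 → ∀ x v : Fin n → ℝ, (∀ i, |x i| ≤ R) →
      (∀ i, |v i| ≤ R) → ∀ t s : ℝ, |t| ≤ 1 → |s| ≤ 1 →
      |MvPolynomial.eval (x + t • v + s • e) (HJ p z m j r) -
        MvPolynomial.eval x (HJ p z m j r) - t * dd (HJ p z m j r) x v| ≤ C * (t ^ 2 + |s|) ∧
      |dd (HJ p z m j r) (x + t • v + s • e) e - dd (HJ p z m j r) x e| ≤ C * (|t| + |s|) ∧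
      |MvPolynomial.eval x (HJ p z m j r)| ≤ C := by
  obtain ⟨C, hC, b⟩ := parts_tay p z e R hR
  obtain ⟨B, hB, bd⟩ := parts_bdd p z e R hR
  set N := NN p z with hN
  have sumb : ∀ (j : ℕ) (r : ℝ), |r| ≤ 1 → ∀ (a : ℕ → ℝ) (Y : ℝ), 0 ≤ Y → (∀ i, |a i| ≤ Y) →
      |∑ i ∈ Finset.range N, ((i.choose j : ℝ) * r ^ (i - j)) * a i| ≤ N * 2 ^ N * Y := by
    intro j r hr a Y hY ha
    refine (Finset.abs_sum_le_sum_abs _ _).trans ?_
    have : ∀ i ∈ Finset.range N, |((i.choose j : ℝ) * r ^ (i - j)) * a i| ≤ 2 ^ N * Y := by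
      intro i hi
      rw [abs_mul]
      exact mul_le_mul (coef_le N hi j hr) (ha i) (abs_nonneg _) (by positivity)
    refine (Finset.sum_le_sum this).trans ?_
    rw [Finset.sum_const, Finset.card_range, nsmul_eq_mul, mul_assoc]
  refine ⟨N * 2 ^ N * (C + B), by positivity, fun j r hr x v hx hv t s ht hs => ⟨?_, ?_, ?_⟩⟩
  · rw [eval_HJ, eval_HJ, dd_HJ, Finset.mul_sum, ← Finset.sum_sub_distrib,
      ← Finset.sum_sub_distrib]
    have e1 : ∀ i ∈ Finset.range N, (i.choose j : ℝ) * r ^ (i - j) *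
        MvPolynomial.eval (x + t • v + s • e) (part p z (m + i)) -
        (i.choose j : ℝ) * r ^ (i - j) * MvPolynomial.eval x (part p z (m + i)) -
        t * ((i.choose j : ℝ) * r ^ (i - j) * dd (part p z (m + i)) x v) =
        ((i.choose j : ℝ) * r ^ (i - j)) *
          (MvPolynomial.eval (x + t • v + s • e) (part p z (m + i)) -
          MvPolynomial.eval x (part p z (m + i)) - t * dd (part p z (m + i)) x v) :=
      fun i _ => by ring
    rw [Finset.sum_congr rfl e1]
    have h0 : 0 ≤ t ^ 2 + |s| := by positivity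
    refine (sumb j r hr _ (C * (t ^ 2 + |s|)) (by positivity)
      (fun i => (b (m + i) x v hx hv t s ht hs).1)).trans ?_
    calc N * 2 ^ N * (C * (t ^ 2 + |s|)) ≤ N * 2 ^ N * ((C + B) * (t ^ 2 + |s|)) := by
          gcongr; linarith
      _ = _ := by ring
  · rw [dd_HJ, dd_HJ, ← Finset.sum_sub_distrib]
    have e1 : ∀ i ∈ Finset.range N, (i.choose j : ℝ) * r ^ (i - j) *
        dd (part p z (m + i)) (x + t • v + s • e) e -
        (i.choose j : ℝ) * r ^ (i - j) * dd (part p z (m + i)) x e =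
        ((i.choose j : ℝ) * r ^ (i - j)) *
          (dd (part p z (m + i)) (x + t • v + s • e) e - dd (part p z (m + i)) x e) :=
      fun i _ => by ring
    rw [Finset.sum_congr rfl e1]
    have h0 : 0 ≤ |t| + |s| := by positivity
    refine (sumb j r hr _ (C * (|t| + |s|)) (by positivity)
      (fun i => (b (m + i) x v hx hv t s ht hs).2)).trans ?_
    calc N * 2 ^ N * (C * (|t| + |s|)) ≤ N * 2 ^ N * ((C + B) * (|t| + |s|)) := by
          gcongr; linarith
      _ = _ := by ring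
  · rw [eval_HJ]
    refine (sumb j r hr _ B hB (fun i => (bd x hx (m + i)).1)).trans ?_
    gcongr; linarith

/-- zero along a direction in which the derivative is bounded below -/
theorem ift_line {q : MvPolynomial (Fin n) ℝ} {x e : Fin n → ℝ} {c δ : ℝ} (hc : 0 < c)
    (hδ : ∀ s : ℝ, |s| ≤ δ → c ≤ dd q (x + s • e) e) (h0 : |MvPolynomial.eval x q| ≤ c * δ) :
    ∃ s : ℝ, |s| ≤ |MvPolynomial.eval x q| / c ∧ MvPolynomial.eval (x + s • e) q = 0 := by
  set s1 := |MvPolynomial.eval x q| / c with hs1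
  have hs10 : 0 ≤ s1 := by positivity
  have hs1δ : s1 ≤ δ := by rw [hs1, div_le_iff₀ hc, mul_comm]; exact h0
  set f : ℝ → ℝ := fun s => (line q x e).eval s with hf
  have hcont : Continuous f := (line q x e).continuous
  have hgrow : ∀ a b : ℝ, a ∈ Set.Icc (-s1) s1 → b ∈ Set.Icc (-s1) s1 → a ≤ b →
      c * (b - a) ≤ f b - f a := by
    intro a b ha hb hab
    refine Convex.mul_sub_le_image_sub_of_le_deriv (convex_Icc (-s1) s1) hcont.continuousOn
      (line q x e).differentiable.differentiableOn (fun s hs => ?_) a ha b hb hab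
    rw [interior_Icc] at hs
    show c ≤ deriv (fun s => (line q x e).eval s) s
    rw [Polynomial.deriv, eval_derivative_line]
    exact hδ s (by rw [abs_le]; constructor <;> linarith [hs.1, hs.2])
  have f0 : f 0 = MvPolynomial.eval x q := by rw [hf]; simp [eval_line]
  have hcs : c * s1 = |MvPolynomial.eval x q| := by rw [hs1, mul_div_cancel₀ _ hc.ne']
  have h1 : 0 ≤ f s1 := by
    have := hgrow 0 s1 ⟨by linarith, hs10⟩ ⟨by linarith, le_rfl⟩ hs10
    rw [sub_zero, hcs, f0] at this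
    linarith [neg_abs_le (MvPolynomial.eval x q)]
  have h2 : f (-s1) ≤ 0 := by
    have := hgrow (-s1) 0 ⟨le_rfl, by linarith⟩ ⟨by linarith, hs10⟩ (by linarith)
    rw [zero_sub, neg_neg, hcs, f0] at this
    linarith [le_abs_self (MvPolynomial.eval x q)]
  obtain ⟨s, hs, hfs⟩ := intermediate_value_Icc (by linarith : -s1 ≤ s1) hcont.continuousOn
    (show (0 : ℝ) ∈ Set.Icc (f (-s1)) (f s1) from ⟨h2, h1⟩)
  refine ⟨s, abs_le.2 hs, ?_⟩
  rw [← eval_line]; exact hfs

end Vale.Agent.P256.H326
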