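import Vale.Agent.P256.H326.ConicCore

/-! The slack kernel near an ordinary singular boundary point. -/

set_option linter.all false

namespace Vale.Agent.P256.H326

open Filter Topology Vale.Agent.P256

variable {n : ℕ} {p : MvPolynomial (Fin n) ℝ} {e : Fin n → ℝ} {u0 z : Fin n → ℝ} {m : ℕ}

/-- the algebraic identity in terms of the quotients -/
theorem hid_eq {y x : ℝ × (Fin n → ℝ)} {g : ℝ} {c : ℕ → ℝ} {c' : ℕ → Fin n → ℝ}
    {E : ℕ → ℕ → Fin n → Fin n → ℝ} (hg : g = - MvPolynomial.eval y.2 (HJ p z m 1 y.1))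
    (hy : MvPolynomial.eval y.2 (HJ p z m 0 y.1) = 0)
    (hx : MvPolynomial.eval x.2 (HJ p z m 0 x.1) = 0)
    (hs : 0 < dd (HJ p z m 0 y.1) y.2 e)
    (hc : ∀ j, MvPolynomial.eval y.2 (HJ p z m j y.1) = g * c j)
    (hc' : ∀ j i, dd (HJ p z m j y.1) y.2 (tpr (HJ p z m 0 y.1) e y.2 (Pi.single i 1)) =
      Real.sqrt g * c' j i)
    (hE : ∀ j ∈ Finset.range (NN p z), ∀ k ∈ Finset.range (m + pdeg p z + 1),
      MvPolynomial.eval (tpr (HJ p z m 0 y.1) e y.2 (x.2 - y.2))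
          (part (HJ p z m j y.1) y.2 (k + 3)) =
        ∑ a, ∑ b, E j k a b * (x.2 a - y.2 a) * (x.2 b - y.2 b)) :
    dd (HJ p z m 0 x.1) x.2 e *
        ∑ i, kap (HJ p z m 0 y.1) e y.2 (Pi.single i 1) * (x.2 i - y.2 i) =
      g * (x.1 - y.1) - g * (x.1 - y.1) ^ 2 * (∑ j ∈ Finset.range (pdeg p z),
          (x.1 - y.1) ^ j * c (j + 2)) -
        Real.sqrt g * (x.1 - y.1) * ∑ i, (∑ j ∈ Finset.range (pdeg p z + 1),
          (x.1 - y.1) ^ j * c' (j + 1) i) * (x.2 i - y.2 i) -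
        ∑ a, ∑ b, (∑ j ∈ Finset.range (NN p z), (x.1 - y.1) ^ j *
          (- curvM (HJ p z m j y.1) y.2 (tpr (HJ p z m 0 y.1) e y.2) a b +
            ∑ k ∈ Finset.range (m + pdeg p z + 1), E j k a b)) *
          (x.2 a - y.2 a) * (x.2 b - y.2 b) +
        (∑ i, kap (HJ p z m 0 y.1) e y.2 (Pi.single i 1) * (x.2 i - y.2 i)) ^ 2 *
          ∑ k ∈ Finset.range (KK p z m),
            (- ∑ i, kap (HJ p z m 0 y.1) e y.2 (Pi.single i 1) * (x.2 i - y.2 i)) ^ k *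
              MvPolynomial.eval e (part (HJ p z m 0 x.1) x.2 (k + 2)) := by
  have hk : ∑ i, kap (HJ p z m 0 y.1) e y.2 (Pi.single i 1) * (x.2 i - y.2 i) =
      kap (HJ p z m 0 y.1) e y.2 (x.2 - y.2) := by
    rw [kap_lin _ e y.2 (x.2 - y.2)]
    exact Finset.sum_congr rfl fun i _ => by rw [Pi.sub_apply]
  rw [hk, polar_identity hy hx hs, ← hg]
  congr 1
  congr 1
  · congr 1
    · congr 1
      rw [Finset.mul_sum]
      refine Finset.sum_congr rfl fun j _ => ?_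
      rw [hc]; ring
    · have h1 : ∀ j ∈ Finset.range (pdeg p z + 1), (x.1 - y.1) ^ (j + 1) *
          dd (HJ p z m (j + 1) y.1) y.2 (tpr (HJ p z m 0 y.1) e y.2 (x.2 - y.2)) =
          ∑ i, Real.sqrt g * (x.1 - y.1) * ((x.1 - y.1) ^ j * c' (j + 1) i *
            (x.2 i - y.2 i)) := by
        intro j _
        rw [dd_lin, Finset.mul_sum]
        refine Finset.sum_congr rfl fun i _ => ?_
        rw [hc', Pi.sub_apply]; ring
      rw [Finset.sum_congr rfl h1, Finset.sum_comm, Finset.mul_sum]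
      refine Finset.sum_congr rfl fun i _ => ?_
      rw [Finset.sum_mul, Finset.mul_sum]
  · have h2 : ∀ j ∈ Finset.range (NN p z), ∑ k ∈ Finset.range (KK p z m), (x.1 - y.1) ^ j *
        MvPolynomial.eval (tpr (HJ p z m 0 y.1) e y.2 (x.2 - y.2))
          (part (HJ p z m j y.1) y.2 (k + 2)) =
        ∑ a, ∑ b, ((x.1 - y.1) ^ j *
          (- curvM (HJ p z m j y.1) y.2 (tpr (HJ p z m 0 y.1) e y.2) a b +
            ∑ k ∈ Finset.range (m + pdeg p z + 1), E j k a b)) *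
          (x.2 a - y.2 a) * (x.2 b - y.2 b) := by
      intro j hj
      have e0 : KK p z m = (m + pdeg p z + 1) + 1 := rfl
      rw [e0, Finset.sum_range_succ', zero_add]
      have e1 : MvPolynomial.eval (tpr (HJ p z m 0 y.1) e y.2 (x.2 - y.2))
          (part (HJ p z m j y.1) y.2 2) = - ∑ a, ∑ b, curvM (HJ p z m j y.1) y.2
            (tpr (HJ p z m 0 y.1) e y.2) a b * (x.2 - y.2) a * (x.2 - y.2) b := by
        rw [curvM_form, part2_eq]; ring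
      have e2 : ∀ k ∈ Finset.range (m + pdeg p z + 1), (x.1 - y.1) ^ j *
          MvPolynomial.eval (tpr (HJ p z m 0 y.1) e y.2 (x.2 - y.2))
            (part (HJ p z m j y.1) y.2 (k + 1 + 2)) =
          (x.1 - y.1) ^ j * ∑ a, ∑ b, E j k a b * (x.2 a - y.2 a) * (x.2 b - y.2 b) := by
        intro k hk
        rw [← hE j hj k hk]
      rw [Finset.sum_congr rfl e2, e1, ← Finset.mul_sum, ← mul_add, Finset.sum_comm]
      have e3 : ∀ a b : Fin n, ((x.1 - y.1) ^ j *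
          (- curvM (HJ p z m j y.1) y.2 (tpr (HJ p z m 0 y.1) e y.2) a b +
            ∑ k ∈ Finset.range (m + pdeg p z + 1), E j k a b)) *
          (x.2 a - y.2 a) * (x.2 b - y.2 b) = (x.1 - y.1) ^ j * ((∑ k ∈ Finset.range
            (m + pdeg p z + 1), E j k a b * (x.2 a - y.2 a) * (x.2 b - y.2 b)) -
          curvM (HJ p z m j y.1) y.2 (tpr (HJ p z m 0 y.1) e y.2) a b * (x.2 - y.2) a *
            (x.2 - y.2) b) := by
        intro a b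
        rw [← Finset.sum_mul, ← Finset.sum_mul, Pi.sub_apply, Pi.sub_apply]
        ring
      simp only [e3, ← Finset.mul_sum, Finset.sum_sub_distrib]
      congr 1
      rw [sub_eq_add_neg]
      congr 1
      refine Finset.sum_congr rfl fun a _ => ?_
      rw [Finset.sum_comm]
    rw [Finset.sum_congr rfl h2, Finset.sum_comm]
    refine Finset.sum_congr rfl fun a _ => ?_
    rw [Finset.sum_comm]
    refine Finset.sum_congr rfl fun b _ => ?_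
    rw [← Finset.sum_mul, ← Finset.sum_mul]

theorem germ_A {F G : Filter (ℝ × (Fin n → ℝ))} (hF : F ≤ 𝓝 ((0 : ℝ), u0))
    (hG : G ≤ 𝓝 ((0 : ℝ), u0)) (N : ℕ) {c : ℕ → ℝ × (Fin n → ℝ) → ℝ} {c0 : ℕ → ℝ}
    (hc : ∀ j, Tendsto (c j) F (𝓝 (c0 j))) :
    ∃ A0, GermFR F G (fun y x => ∑ j ∈ Finset.range N, (x.1 - y.1) ^ j * c j y) A0 :=
  ⟨_, GermFR.sum _ fun j _ => (GermFR.pow' (germ_dr (t_fst hF) (t_fst hG)) j).mul
    (GermFR.left (hc j))⟩

theorem Q_limit (p : MvPolynomial (Fin n) ℝ) (z : Fin n → ℝ) (m K : ℕ) (f : ℕ → ℝ) :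
    ∑ j ∈ Finset.range (NN p z), (0 : ℝ) ^ j * (f j + ∑ k ∈ Finset.range K, (0 : ℝ)) = f 0 := by
  rw [Finset.sum_eq_single 0]
  · simp
  · intro j _ hj
    simp [hj]
  · intro h
    exact absurd (Finset.mem_range.2 (by unfold NN; omega)) h

theorem t_D {F : Filter (ℝ × (Fin n → ℝ))} (hF : F ≤ 𝓝 ((0 : ℝ), u0)) :
    Tendsto (fun y : ℝ × (Fin n → ℝ) => dd (HJ p z m 0 y.1) y.2 e) F
      (𝓝 (dd (part p z m) u0 e)) := by
  have := t_ddHJ (p := p) (z := z) (m := m) hF 0 e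
  rwa [dd_HJ0] at this

theorem germ_kapHJ {F G : Filter (ℝ × (Fin n → ℝ))} (hF : F ≤ 𝓝 ((0 : ℝ), u0))
    (hG : G ≤ 𝓝 ((0 : ℝ), u0)) (hs : 0 < dd (part p z m) u0 e) :
    GermFR F G (fun y x => ∑ i, kap (HJ p z m 0 y.1) e y.2 (Pi.single i 1) *
      (x.2 i - y.2 i)) 0 :=
  germ_kapc (wy := fun y : ℝ × (Fin n → ℝ) => y.2)
    (wx := fun x : ℝ × (Fin n → ℝ) => x.2)
    (κc := fun i y => kap (HJ p z m 0 y.1) e y.2 (Pi.single i 1))
    (t_snd hF) (t_snd hG) (fun i => t_kap hF hs _)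

theorem core_beta {F G : Filter (ℝ × (Fin n → ℝ))} (hF : F ≤ 𝓝 ((0 : ℝ), u0))
    (hG : G ≤ 𝓝 ((0 : ℝ), u0)) (hs : 0 < dd (part p z m) u0 e) (K : ℕ) :
    ∃ β0, GermFR F G (fun y x => ∑ k ∈ Finset.range K,
      (- ∑ i, kap (HJ p z m 0 y.1) e y.2 (Pi.single i 1) * (x.2 i - y.2 i)) ^ k *
        MvPolynomial.eval e (part (HJ p z m 0 x.1) x.2 (k + 2))) β0 := by
  refine ⟨_, GermFR.sum _ fun k _ => (GermFR.pow' (germ_kapHJ hF hG hs).neg k).mul (GermFR.right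
    (f0 := MvPolynomial.eval e (part (HJ p z m 0 0) u0 (k + 2))) ?_)⟩
  have h1 := (continuous_part_HJ p z m 0 (k + 2)).comp
    (show Continuous (fun x : ℝ × (Fin n → ℝ) => (x, e)) by fun_prop)
  exact (h1.tendsto ((0 : ℝ), u0)).mono_left hG

theorem core_Q {F G : Filter (ℝ × (Fin n → ℝ))} (hF : F ≤ 𝓝 ((0 : ℝ), u0))
    (hG : G ≤ 𝓝 ((0 : ℝ), u0)) (hs : 0 < dd (part p z m) u0 e) (K : ℕ)
    {E : ℕ → ℕ → Fin n → Fin n → ℝ × (Fin n → ℝ) → ℝ × (Fin n → ℝ) → ℝ}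
    (hE : ∀ j k a b, GermFR F G (E j k a b) 0) (i j : Fin n) :
    GermFR F G (fun y x => ∑ l ∈ Finset.range (NN p z), (x.1 - y.1) ^ l *
          (- curvM (HJ p z m l y.1) y.2 (tpr (HJ p z m 0 y.1) e y.2) i j +
            ∑ k ∈ Finset.range K, E l k i j y x))
      (- curvM (part p z m) u0 (tpr (part p z m) e u0) i j) := by
  refine (GermFR.sum _ (c := fun l => (0 : ℝ) ^ l *
    (- curvM (HJ p z m l 0) u0 (tpr (part p z m) e u0) i j +
      ∑ k ∈ Finset.range K, (0 : ℝ))) fun l _ =>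
    (GermFR.pow' (germ_dr (t_fst hF) (t_fst hG)) l).mul
      ((GermFR.left (t_curvM hF hs l i j)).neg.add
        (GermFR.sum _ fun k _ => hE l k i j))).congr (fun y x => rfl) ?_
  rw [Q_limit p z m K
    (fun l => - curvM (HJ p z m l 0) u0 (tpr (part p z m) e u0) i j), HJ_zero]

theorem core_hid {F G : Filter (ℝ × (Fin n → ℝ))}
    {c : ℕ → ℝ × (Fin n → ℝ) → ℝ} {c' : ℕ → Fin n → ℝ × (Fin n → ℝ) → ℝ}
    {E : ℕ → ℕ → Fin n → Fin n → ℝ × (Fin n → ℝ) → ℝ × (Fin n → ℝ) → ℝ}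
    (h1 : ∀ᶠ y in F, MvPolynomial.eval y.2 (HJ p z m 0 y.1) = 0)
    (h2 : ∀ᶠ y in F, 0 < dd (HJ p z m 0 y.1) y.2 e)
    (h3 : ∀ᶠ y in F, ∀ j, MvPolynomial.eval y.2 (HJ p z m j y.1) =
          (- MvPolynomial.eval y.2 (HJ p z m 1 y.1)) * c j y)
    (h4 : ∀ᶠ y in F, ∀ j i, dd (HJ p z m j y.1) y.2 (tpr (HJ p z m 0 y.1) e y.2
          (Pi.single i 1)) =
          Real.sqrt (- MvPolynomial.eval y.2 (HJ p z m 1 y.1)) * c' j i y)
    (h5 : ∀ j k, ∀ᶠ y in F, ∀ x : ℝ × (Fin n → ℝ),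
        MvPolynomial.eval (tpr (HJ p z m 0 y.1) e y.2 (x.2 - y.2))
          (part (HJ p z m j y.1) y.2 (k + 3)) =
        ∑ a, ∑ b, E j k a b y x * (x.2 a - y.2 a) * (x.2 b - y.2 b))
    (h6 : ∀ᶠ x in G, MvPolynomial.eval x.2 (HJ p z m 0 x.1) = 0) :
    EqF F G (fun y x => dd (HJ p z m 0 x.1) x.2 e *
        ∑ i, kap (HJ p z m 0 y.1) e y.2 (Pi.single i 1) * (x.2 i - y.2 i))
      (fun y x => (- MvPolynomial.eval y.2 (HJ p z m 1 y.1)) * (x.1 - y.1) -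
        (- MvPolynomial.eval y.2 (HJ p z m 1 y.1)) * (x.1 - y.1) ^ 2 *
          (∑ j ∈ Finset.range (pdeg p z), (x.1 - y.1) ^ j * c (j + 2) y) -
        Real.sqrt (- MvPolynomial.eval y.2 (HJ p z m 1 y.1)) * (x.1 - y.1) *
          ∑ i, (∑ j ∈ Finset.range (pdeg p z + 1),
            (x.1 - y.1) ^ j * c' (j + 1) i y) * (x.2 i - y.2 i) -
        ∑ a, ∑ b, (∑ j ∈ Finset.range (NN p z), (x.1 - y.1) ^ j *
          (- curvM (HJ p z m j y.1) y.2 (tpr (HJ p z m 0 y.1) e y.2) a b +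
            ∑ k ∈ Finset.range (m + pdeg p z + 1), E j k a b y x)) *
          (x.2 a - y.2 a) * (x.2 b - y.2 b) +
        (∑ i, kap (HJ p z m 0 y.1) e y.2 (Pi.single i 1) * (x.2 i - y.2 i)) ^ 2 *
          ∑ k ∈ Finset.range (KK p z m),
            (- ∑ i, kap (HJ p z m 0 y.1) e y.2 (Pi.single i 1) * (x.2 i - y.2 i)) ^ k *
              MvPolynomial.eval e (part (HJ p z m 0 x.1) x.2 (k + 2))) := by
  have h7 : ∀ᶠ y in F, ∀ j ∈ Finset.range (NN p z), ∀ k ∈ Finset.range (m + pdeg p z + 1),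
      ∀ x : ℝ × (Fin n → ℝ),
        MvPolynomial.eval (tpr (HJ p z m 0 y.1) e y.2 (x.2 - y.2))
          (part (HJ p z m j y.1) y.2 (k + 3)) =
        ∑ a, ∑ b, E j k a b y x * (x.2 a - y.2 a) * (x.2 b - y.2 b) :=
    (Finset.range (NN p z)).eventually_all.2 fun j _ =>
        (Finset.range (m + pdeg p z + 1)).eventually_all.2 fun k _ => h5 j k
  obtain ⟨B, hB, hBx⟩ := h6.exists_mem
  obtain ⟨A, hA, hAy⟩ := (((h1.and h2).and (h3.and h4)).and h7).exists_mem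
  refine ⟨A, hA, B, hB, fun y hy x hx => ?_⟩
  obtain ⟨⟨⟨a1, a2⟩, a3, a4⟩, a5⟩ := hAy y hy
  exact hid_eq (c := fun j => c j y) (c' := fun j i => c' j i y)
    (E := fun j k a b => E j k a b y x) rfl a1 (hBx x hx) a2 a3 a4
    (fun j hj k hk => a5 j hj k hk x)

theorem core_sph {F G : Filter (ℝ × (Fin n → ℝ))}
    (h1 : ∀ᶠ y in F, ∑ i, y.2 i ^ 2 = 1) (h2 : ∀ᶠ x in G, ∑ i, x.2 i ^ 2 = 1) :
    EqF F G (fun y x => ∑ i, (x.2 i + y.2 i) * (x.2 i - y.2 i)) (fun _ _ => 0) := by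
  refine EqF.of_eventually _ _ h1 h2 fun y x hy hx => ?_
  have : ∑ i, (x.2 i + y.2 i) * (x.2 i - y.2 i) = ∑ i, x.2 i ^ 2 - ∑ i, y.2 i ^ 2 := by
    rw [← Finset.sum_sub_distrib]
    exact Finset.sum_congr rfl fun i _ => by ring
  rw [this, hx, hy, sub_self]

theorem core_orth {F G : Filter (ℝ × (Fin n → ℝ))}
    (h1 : ∀ᶠ y in F, ∑ i, z i * y.2 i = 0) (h2 : ∀ᶠ x in G, ∑ i, z i * x.2 i = 0) :
    EqF F G (fun y x => ∑ i, z i * (x.2 i - y.2 i)) (fun _ _ => 0) := by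
  refine EqF.of_eventually _ _ h1 h2 fun y x hy hx => ?_
  have : ∑ i, z i * (x.2 i - y.2 i) = ∑ i, z i * x.2 i - ∑ i, z i * y.2 i := by
    rw [← Finset.sum_sub_distrib]
    exact Finset.sum_congr rfl fun i _ => by ring
  rw [this, hx, hy, sub_self]

theorem core_pos {q : MvPolynomial (Fin n) ℝ} (hs : 0 < dd q u0 e)
    (hconv : ∀ ω : Fin n → ℝ, ω ≠ 0 → dd q u0 ω = 0 → ∑ i, u0 i * ω i = 0 →
      ∑ i, z i * ω i = 0 → dd2 q u0 ω < 0) :
    ∀ ω : Fin n → ℝ, ω ≠ 0 → ∑ i, kap q e u0 (Pi.single i 1) * ω i = 0 →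
      ∑ i, u0 i * ω i = 0 → ∑ i, z i * ω i = 0 →
      ∑ i, ∑ j, - curvM q u0 (tpr q e u0) i j * ω i * ω j < 0 := by
  intro ω hω h1 h2 h3
  have h4 : kap q e u0 ω = 0 := by
    rw [kap_lin]; exact h1
  have h5 : tpr q e u0 ω = ω := by
    rw [tpr_apply, h4, zero_smul, sub_zero]
  have h6 : dd q u0 ω = 0 := by
    rw [kap, div_eq_zero_iff] at h4
    exact h4.resolve_right hs.ne'
  have h7 : ∑ i, ∑ j, - curvM q u0 (tpr q e u0) i j * ω i * ω j = 1 / 2 * dd2 q u0 ω := by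
    have := curvM_form (p := q) u0 (tpr q e u0) ω
    rw [h5] at this
    simp only [neg_mul, Finset.sum_neg_distrib]
    linarith
  rw [h7]
  have := hconv ω hω h6 h2 h3
  linarith

/-- the kernel in polar coordinates -/
noncomputable def polK (p : MvPolynomial (Fin n) ℝ) (e z : Fin n → ℝ) (m : ℕ)
    (y x : ℝ × (Fin n → ℝ)) : ℝ :=
  x.1 * dd (HJ p z m 0 y.1) y.2 e *
        ∑ i, kap (HJ p z m 0 y.1) e y.2 (Pi.single i 1) * (x.2 i - y.2 i) -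
      (- MvPolynomial.eval y.2 (HJ p z m 1 y.1)) * y.1 * (x.1 - y.1)

/-- **Core of the conic theorem** in polar coordinates. -/
theorem conic_core (hp : IsHyperbolic p e) (hz : z ∈ hypCone p e)
    (hm : ∀ k < m + 1, part p z k = 0)
    (hu0 : MvPolynomial.eval u0 (part p z (m + 1)) = 0)
    (hs : 0 < dd (part p z (m + 1)) u0 e)
    (hconv : ∀ ω : Fin n → ℝ, ω ≠ 0 → dd (part p z (m + 1)) u0 ω = 0 → ∑ i, u0 i * ω i = 0 →
      ∑ i, z i * ω i = 0 → dd2 (part p z (m + 1)) u0 ω < 0)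
    (U : Ultrafilter (ℝ × (Fin n → ℝ))) {G : Filter (ℝ × (Fin n → ℝ))}
    (hU : (U : Filter (ℝ × (Fin n → ℝ))) ≤ 𝓝 ((0 : ℝ), u0)) (hG : G ≤ 𝓝 ((0 : ℝ), u0))
    (hU0 : ∀ᶠ y in (U : Filter (ℝ × (Fin n → ℝ))),
      MvPolynomial.eval y.2 (HJ p z (m + 1) 0 y.1) = 0)
    (hU1 : ∀ᶠ y in (U : Filter (ℝ × (Fin n → ℝ))), ∑ i, y.2 i ^ 2 = 1)
    (hU2 : ∀ᶠ y in (U : Filter (ℝ × (Fin n → ℝ))), ∑ i, z i * y.2 i = 0)
    (hGp : ∀ᶠ x in G, 0 ≤ x.1)
    (hG0 : ∀ᶠ x in G, MvPolynomial.eval x.2 (HJ p z (m + 1) 0 x.1) = 0)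
    (hG1 : ∀ᶠ x in G, ∑ i, x.2 i ^ 2 = 1)
    (hG2 : ∀ᶠ x in G, ∑ i, z i * x.2 i = 0) :
    SosF (U : Filter (ℝ × (Fin n → ℝ))) G (polK p e z (m + 1)) := by
  obtain ⟨c, c0, hc0, hc⟩ := quot_g hp hz hm hu0 hs U hU hU0
  obtain ⟨c', c0', hc0', hc'⟩ := quot_sg hp hz hm hu0 hs U hU hU0
  choose E hE hEe using fun j k => high_err (p := p) (z := z) (m := m + 1) (e := e) hs U hU hG j k
  obtain ⟨a, a0, b, b0, ha, hb, hab⟩ := dq_D hU hG p z e (m + 1)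
  obtain ⟨A0, hA⟩ := germ_A hU hG (pdeg p z) (c := fun j => c (j + 2)) (fun j => hc0 (j + 2))
  choose B0 hB using fun i => germ_A hU hG (pdeg p z + 1) (c := fun j => c' (j + 1) i)
    (fun j => hc0' (j + 1) i)
  have hD : ∀ᶠ y in (U : Filter (ℝ × (Fin n → ℝ))), 0 < dd (HJ p z (m + 1) 0 y.1) y.2 e :=
    (t_D hU).eventually (lt_mem_nhds hs)
  obtain ⟨β0, hβ⟩ := core_beta (p := p) (z := z) (m := m + 1) hU hG hs (KK p z (m + 1))
  have hg : Tendsto (fun y : ℝ × (Fin n → ℝ) => - MvPolynomial.eval y.2 (HJ p z (m + 1) 1 y.1)) U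
      (𝓝 (- MvPolynomial.eval u0 (HJ p z (m + 1) 1 0))) :=
    (((continuous_eval_HJ p z (m + 1) 1).tendsto ((0 : ℝ), u0)).mono_left hU).neg
  exact conic_abstract (z := z) (wy := fun y : ℝ × (Fin n → ℝ) => y.2)
    (wx := fun x : ℝ × (Fin n → ℝ) => x.2) hg (hc.mono fun y hy => hy.1) (t_fst hU)
    (t_fst hG) hGp (t_D hU) (t_D hG) hs (t_snd hU) (t_snd hG) (fun i => t_kap hU hs _) ha hb hA
    hB (core_Q hU hG hs (m + 1 + pdeg p z + 1) hE) hβ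
    ⟨Set.univ, univ_mem, Set.univ, univ_mem, fun y _ x _ => hab y x⟩
    (core_hid hU0 hD (hc.mono fun y hy => hy.2) hc' hEe hG0)
    (core_sph hU1 hG1) (core_orth hU2 hG2) (core_pos hs hconv)

end Vale.Agent.P256.H326
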