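import Vale.Agent.P256.H326.Est2

/-! The kernel calculus near an ordinary singular boundary point. -/

set_option linter.all false

namespace Vale.Agent.P256.H326

open Filter Topology Vale.Agent.P256

/-- the generators -/
noncomputable def cf {L X : Type*} {n : ℕ} (g ry : L → ℝ) (rx : X → ℝ) (wy : L → Fin n → ℝ)
    (wx : X → Fin n → ℝ) (o : Option (Fin n)) (y : L) (x : X) : ℝ :=
  Option.elim o (Real.sqrt (g y) * (rx x - ry y)) (fun i => Real.sqrt (rx x) * (wx x i - wy y i))

section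

variable {L X : Type*} {F : Filter L} {G : Filter X} {n : ℕ}
    {g ry Dy : L → ℝ} {rx Dx : X → ℝ} {wy : L → Fin n → ℝ} {wx : X → Fin n → ℝ}
    {κc : Fin n → L → ℝ} {z u0 κ0 : Fin n → ℝ} {g0 D0 a0 A0 β0 : ℝ} {b0 B0 : Fin n → ℝ}
    {Q0 : Fin n → Fin n → ℝ} {a A β : L → X → ℝ} {b B : Fin n → L → X → ℝ}
    {Q : Fin n → Fin n → L → X → ℝ}

theorem germ_dw (hwy : ∀ i, Tendsto (fun y => wy y i) F (𝓝 (u0 i)))
    (hwx : ∀ i, Tendsto (fun x => wx x i) G (𝓝 (u0 i))) (i : Fin n) :
    GermFR F G (fun y x => wx x i - wy y i) 0 :=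
  ((GermFR.right (hwx i)).sub (GermFR.left (hwy i))).congr (fun y x => rfl) (by ring)

theorem germ_dr (hry : Tendsto ry F (𝓝 0)) (hrx : Tendsto rx G (𝓝 0)) :
    GermFR F G (fun y x => rx x - ry y) 0 :=
  ((GermFR.right hrx).sub (GermFR.left hry)).congr (fun y x => rfl) (by ring)

theorem germ_kapc (hwy : ∀ i, Tendsto (fun y => wy y i) F (𝓝 (u0 i)))
    (hwx : ∀ i, Tendsto (fun x => wx x i) G (𝓝 (u0 i)))
    (hκ : ∀ i, Tendsto (κc i) F (𝓝 (κ0 i))) :
    GermFR F G (fun y x => ∑ i, κc i y * (wx x i - wy y i)) 0 :=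
  (GermFR.sum Finset.univ (c := fun i => κ0 i * 0) fun i _ =>
    (GermFR.left (hκ i)).mul (germ_dw hwy hwx i)).congr (fun y x => rfl) (by simp)

theorem tendsto_sqrt0 {Z : Type*} {f : Z → ℝ} {H : Filter Z} (hf : Tendsto f H (𝓝 0)) :
    Tendsto (fun x => Real.sqrt (f x)) H (𝓝 0) := by
  have := (Real.continuous_sqrt.tendsto 0).comp hf
  rwa [Real.sqrt_zero] at this

/-- the matrix of the form -/
noncomputable def cM (g ry Dy : L → ℝ) (rx : X → ℝ) (wy : L → Fin n → ℝ) (wx : X → Fin n → ℝ)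
    (κc : Fin n → L → ℝ) (a A β : L → X → ℝ) (b B : Fin n → L → X → ℝ)
    (Q : Fin n → Fin n → L → X → ℝ) (o o' : Option (Fin n)) (y : L) (x : X) : ℝ :=
  Option.elim o
    (Option.elim o'
      (Dy y - ry y * a y x + ∑ i, b i y x * (wx x i - wy y i) - rx x * Dy y * A y x)
      (fun i => -(Real.sqrt (g y) * Real.sqrt (rx x) * b i y x) -
        Real.sqrt (rx x) * Dy y * B i y x))
    (fun i => Option.elim o' 0 (fun j => Dy y * (β y x * κc i y * κc j y - Q i j y x)))

theorem germ_cM (hg : Tendsto g F (𝓝 g0))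
    (hry : Tendsto ry F (𝓝 0)) (hrx : Tendsto rx G (𝓝 0))
    (hDy : Tendsto Dy F (𝓝 D0))
    (hwy : ∀ i, Tendsto (fun y => wy y i) F (𝓝 (u0 i)))
    (hwx : ∀ i, Tendsto (fun x => wx x i) G (𝓝 (u0 i)))
    (hκ : ∀ i, Tendsto (κc i) F (𝓝 (κ0 i)))
    (ha : GermFR F G a a0) (hb : ∀ i, GermFR F G (b i) (b0 i)) (hA : GermFR F G A A0)
    (hB : ∀ i, GermFR F G (B i) (B0 i))
    (hQ : ∀ i j, GermFR F G (Q i j) (Q0 i j)) (hβ : GermFR F G β β0) (o o' : Option (Fin n)) :
    GermFR F G (cM g ry Dy rx wy wx κc a A β b B Q o o')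
      (Option.elim o (Option.elim o' D0 (fun _ => 0))
        (fun i => Option.elim o' 0 (fun j => D0 * (β0 * κ0 i * κ0 j - Q0 i j)))) := by
  have hsr := tendsto_sqrt0 hrx
  have hsg : Tendsto (fun y => Real.sqrt (g y)) F (𝓝 (Real.sqrt g0)) :=
    (Real.continuous_sqrt.tendsto g0).comp hg
  cases o with
  | none =>
    cases o' with
    | none =>
      refine ((((GermFR.left hDy).sub ((GermFR.left hry).mul ha)).add
        (GermFR.sum Finset.univ (c := fun i => b0 i * 0) fun i _ =>
          (hb i).mul (germ_dw hwy hwx i))).sub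
        (((GermFR.right hrx).mul (GermFR.left hDy)).mul hA)).congr (fun y x => rfl) ?_
      simp
    | some i =>
      refine (((((GermFR.left hsg).mul (GermFR.right hsr)).mul (hb i)).neg).sub
        (((GermFR.right hsr).mul (GermFR.left hDy)).mul (hB i))).congr (fun y x => rfl) ?_
      simp
  | some i =>
    cases o' with
    | none => exact GermFR.const 0
    | some j =>
      exact ((GermFR.left hDy).mul (((hβ.mul (GermFR.left (hκ i))).mul
        (GermFR.left (hκ j))).sub (hQ i j))).congr (fun y x => rfl) rfl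

/-- the syzygies -/
noncomputable def cR (g ry : L → ℝ) (rx Dx : X → ℝ) (wy : L → Fin n → ℝ) (wx : X → Fin n → ℝ)
    (κc : Fin n → L → ℝ) (z : Fin n → ℝ) (A β : L → X → ℝ) (B : Fin n → L → X → ℝ)
    (Q : Fin n → Fin n → L → X → ℝ) (k : Fin 3) (o : Option (Fin n)) (y : L) (x : X) : ℝ :=
  match k with
  | 0 => Option.elim o (Real.sqrt (g y) * Real.sqrt (rx x) * ((rx x - ry y) * A y x - 1))
      (fun i => Dx x * κc i y + Real.sqrt (g y) * (rx x - ry y) * B i y x +
        ∑ j, Q i j y x * (wx x j - wy y j) -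
        (∑ j, κc j y * (wx x j - wy y j)) * β y x * κc i y)
  | 1 => Option.elim o 0 (fun i => wx x i + wy y i)
  | 2 => Option.elim o 0 (fun i => z i)

theorem germ_cR (hg : Tendsto g F (𝓝 g0))
    (hry : Tendsto ry F (𝓝 0)) (hrx : Tendsto rx G (𝓝 0))
    (hDx : Tendsto Dx G (𝓝 D0))
    (hwy : ∀ i, Tendsto (fun y => wy y i) F (𝓝 (u0 i)))
    (hwx : ∀ i, Tendsto (fun x => wx x i) G (𝓝 (u0 i)))
    (hκ : ∀ i, Tendsto (κc i) F (𝓝 (κ0 i))) (hA : GermFR F G A A0)
    (hB : ∀ i, GermFR F G (B i) (B0 i))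
    (hQ : ∀ i j, GermFR F G (Q i j) (Q0 i j)) (hβ : GermFR F G β β0) (k : Fin 3)
    (o : Option (Fin n)) :
    GermFR F G (cR g ry rx Dx wy wx κc z A β B Q k o)
      (match k with
        | 0 => Option.elim o 0 (fun i => D0 * κ0 i)
        | 1 => Option.elim o 0 (fun i => 2 * u0 i)
        | 2 => Option.elim o 0 (fun i => z i)) := by
  have hsr := tendsto_sqrt0 hrx
  have hsg : Tendsto (fun y => Real.sqrt (g y)) F (𝓝 (Real.sqrt g0)) :=
    (Real.continuous_sqrt.tendsto g0).comp hg
  fin_cases k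
  · cases o with
    | none =>
      refine (((GermFR.left hsg).mul (GermFR.right hsr)).mul
        (((germ_dr hry hrx).mul hA).sub (GermFR.const 1))).congr (fun y x => rfl) ?_
      simp
    | some i =>
      refine (((((GermFR.right hDx).mul (GermFR.left (hκ i))).add
        (((GermFR.left hsg).mul (germ_dr hry hrx)).mul (hB i))).add
        (GermFR.sum Finset.univ (c := fun j => Q0 i j * 0) fun j _ =>
          (hQ i j).mul (germ_dw hwy hwx j))).sub
        (((germ_kapc hwy hwx hκ).mul hβ).mul (GermFR.left (hκ i)))).congr (fun y x => rfl) ?_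
      simp
  · cases o with
    | none => exact GermFR.const 0
    | some i =>
      exact ((GermFR.right (hwx i)).add (GermFR.left (hwy i))).congr (fun y x => rfl)
        (by simp [two_mul])
  · cases o with
    | none => exact GermFR.const 0
    | some i => exact GermFR.const (z i)

theorem germ_cf (hg : Tendsto g F (𝓝 g0))
    (hry : Tendsto ry F (𝓝 0)) (hrx : Tendsto rx G (𝓝 0))
    (hwy : ∀ i, Tendsto (fun y => wy y i) F (𝓝 (u0 i)))
    (hwx : ∀ i, Tendsto (fun x => wx x i) G (𝓝 (u0 i))) (o : Option (Fin n)) :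
    GermFR F G (cf g ry rx wy wx o) 0 := by
  have hsr := tendsto_sqrt0 hrx
  have hsg : Tendsto (fun y => Real.sqrt (g y)) F (𝓝 (Real.sqrt g0)) :=
    (Real.continuous_sqrt.tendsto g0).comp hg
  cases o with
  | none => exact ((GermFR.left hsg).mul (germ_dr hry hrx)).congr (fun y x => rfl) (by simp)
  | some i => exact ((GermFR.right hsr).mul (germ_dw hwy hwx i)).congr (fun y x => rfl) (by simp)

theorem cM_sum (y : L) (x : X) (hgn : 0 ≤ g y) (hrn : 0 ≤ rx x) :
    ∑ o, ∑ o', cM g ry Dy rx wy wx κc a A β b B Q o o' y x * cf g ry rx wy wx o y x *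
      cf g ry rx wy wx o' y x =
    (Dy y - ry y * a y x + ∑ i, b i y x * (wx x i - wy y i) - rx x * Dy y * A y x) *
      (g y * (rx x - ry y) ^ 2) -
    g y * rx x * (rx x - ry y) * ∑ i, b i y x * (wx x i - wy y i) -
    rx x * Dy y * (Real.sqrt (g y) * (rx x - ry y) * ∑ i, B i y x * (wx x i - wy y i)) +
    rx x * Dy y * ((∑ i, κc i y * (wx x i - wy y i)) ^ 2 * β y x -
      ∑ i, ∑ j, Q i j y x * (wx x i - wy y i) * (wx x j - wy y j)) := by
  have h1 := Real.mul_self_sqrt hgn
  have h2 := Real.mul_self_sqrt hrn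
  rw [Fintype.sum_option]
  simp only [Fintype.sum_option, cM, cf, Option.elim, zero_mul, zero_add]
  have e1 : ∑ i, (-(Real.sqrt (g y) * Real.sqrt (rx x) * b i y x) -
      Real.sqrt (rx x) * Dy y * B i y x) * (Real.sqrt (g y) * (rx x - ry y)) *
      (Real.sqrt (rx x) * (wx x i - wy y i)) =
      - (g y * rx x * (rx x - ry y) * ∑ i, b i y x * (wx x i - wy y i)) -
      rx x * Dy y * (Real.sqrt (g y) * (rx x - ry y) * ∑ i, B i y x * (wx x i - wy y i)) := by
    simp only [Finset.mul_sum]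
    rw [← Finset.sum_neg_distrib, ← Finset.sum_sub_distrib]
    refine Finset.sum_congr rfl fun i _ => ?_
    linear_combination (-(Real.sqrt (rx x) * Real.sqrt (rx x) * b i y x * (rx x - ry y) *
      (wx x i - wy y i))) * h1 - (g y * b i y x * (rx x - ry y) * (wx x i - wy y i) +
      Dy y * B i y x * Real.sqrt (g y) * (rx x - ry y) * (wx x i - wy y i)) * h2
  have e2 : ∑ i, ∑ j, Dy y * (β y x * κc i y * κc j y - Q i j y x) *
      (Real.sqrt (rx x) * (wx x i - wy y i)) * (Real.sqrt (rx x) * (wx x j - wy y j)) =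
      rx x * Dy y * ((∑ i, κc i y * (wx x i - wy y i)) ^ 2 * β y x -
      ∑ i, ∑ j, Q i j y x * (wx x i - wy y i) * (wx x j - wy y j)) := by
    rw [sq, Finset.sum_mul_sum]
    simp only [Finset.mul_sum, Finset.sum_mul, mul_sub, ← Finset.sum_sub_distrib]
    refine Finset.sum_congr rfl fun i _ => Finset.sum_congr rfl fun j _ => ?_
    linear_combination (Dy y * (β y x * κc i y * κc j y - Q i j y x) * (wx x i - wy y i) *
      (wx x j - wy y j)) * h2
  rw [e1, e2]
  linear_combination ((Dy y - ry y * a y x + ∑ i, b i y x * (wx x i - wy y i) -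
    rx x * Dy y * A y x) * (rx x - ry y) ^ 2) * h1

theorem cR0_sum (y : L) (x : X) (hgn : 0 ≤ g y) (hrn : 0 ≤ rx x) :
    ∑ o, cR g ry rx Dx wy wx κc z A β B Q 0 o y x * cf g ry rx wy wx o y x =
    Real.sqrt (rx x) * (Dx x * ∑ i, κc i y * (wx x i - wy y i) -
      (g y * (rx x - ry y) - g y * (rx x - ry y) ^ 2 * A y x -
        Real.sqrt (g y) * (rx x - ry y) * ∑ i, B i y x * (wx x i - wy y i) -
        ∑ i, ∑ j, Q i j y x * (wx x i - wy y i) * (wx x j - wy y j) +
        (∑ i, κc i y * (wx x i - wy y i)) ^ 2 * β y x)) := by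
  have h1 := Real.mul_self_sqrt hgn
  rw [Fintype.sum_option]
  simp only [cR, cf, Option.elim]
  have e1 : ∑ i, (Dx x * κc i y + Real.sqrt (g y) * (rx x - ry y) * B i y x +
        ∑ j, Q i j y x * (wx x j - wy y j) -
        (∑ j, κc j y * (wx x j - wy y j)) * β y x * κc i y) *
      (Real.sqrt (rx x) * (wx x i - wy y i)) =
      Real.sqrt (rx x) * (Dx x * ∑ i, κc i y * (wx x i - wy y i) +
        Real.sqrt (g y) * (rx x - ry y) * ∑ i, B i y x * (wx x i - wy y i) +
        ∑ i, ∑ j, Q i j y x * (wx x i - wy y i) * (wx x j - wy y j) -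
        (∑ i, κc i y * (wx x i - wy y i)) ^ 2 * β y x) := by
    have e2 : ∀ i, (Dx x * κc i y + Real.sqrt (g y) * (rx x - ry y) * B i y x +
        ∑ j, Q i j y x * (wx x j - wy y j) -
        (∑ j, κc j y * (wx x j - wy y j)) * β y x * κc i y) *
      (Real.sqrt (rx x) * (wx x i - wy y i)) = Real.sqrt (rx x) * (
        Dx x * (κc i y * (wx x i - wy y i)) +
        Real.sqrt (g y) * (rx x - ry y) * (B i y x * (wx x i - wy y i)) +
        (∑ j, Q i j y x * (wx x i - wy y i) * (wx x j - wy y j)) -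
        (∑ j, κc j y * (wx x j - wy y j)) * β y x * (κc i y * (wx x i - wy y i))) := by
      intro i
      have e3 : ∑ j, Q i j y x * (wx x i - wy y i) * (wx x j - wy y j) =
          (∑ j, Q i j y x * (wx x j - wy y j)) * (wx x i - wy y i) := by
        rw [Finset.sum_mul]
        exact Finset.sum_congr rfl fun j _ => by ring
      rw [e3]; ring
    rw [Finset.sum_congr rfl fun i _ => e2 i, ← Finset.mul_sum, Finset.sum_sub_distrib,
      Finset.sum_add_distrib, Finset.sum_add_distrib, ← Finset.mul_sum, ← Finset.mul_sum,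
      ← Finset.mul_sum]
    ring
  rw [e1]
  linear_combination (Real.sqrt (rx x) * ((rx x - ry y) * A y x - 1) * (rx x - ry y)) * h1

/-- **Abstract conic theorem.** -/
theorem conic_abstract (hg : Tendsto g F (𝓝 g0)) (hgn : ∀ᶠ y in F, 0 ≤ g y)
    (hry : Tendsto ry F (𝓝 0)) (hrx : Tendsto rx G (𝓝 0)) (hrxn : ∀ᶠ x in G, 0 ≤ rx x)
    (hDy : Tendsto Dy F (𝓝 D0)) (hDx : Tendsto Dx G (𝓝 D0)) (hD0 : 0 < D0)
    (hwy : ∀ i, Tendsto (fun y => wy y i) F (𝓝 (u0 i)))
    (hwx : ∀ i, Tendsto (fun x => wx x i) G (𝓝 (u0 i)))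
    (hκ : ∀ i, Tendsto (κc i) F (𝓝 (κ0 i)))
    (ha : GermFR F G a a0) (hb : ∀ i, GermFR F G (b i) (b0 i)) (hA : GermFR F G A A0)
    (hB : ∀ i, GermFR F G (B i) (B0 i))
    (hQ : ∀ i j, GermFR F G (Q i j) (Q0 i j)) (hβ : GermFR F G β β0)
    (hdiff : EqF F G (fun y x => Dx x - Dy y)
      (fun y x => a y x * (rx x - ry y) + ∑ i, b i y x * (wx x i - wy y i)))
    (hid : EqF F G (fun y x => Dx x * ∑ i, κc i y * (wx x i - wy y i))
      (fun y x => g y * (rx x - ry y) - g y * (rx x - ry y) ^ 2 * A y x -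
        Real.sqrt (g y) * (rx x - ry y) * ∑ i, B i y x * (wx x i - wy y i) -
        ∑ i, ∑ j, Q i j y x * (wx x i - wy y i) * (wx x j - wy y j) +
        (∑ i, κc i y * (wx x i - wy y i)) ^ 2 * β y x))
    (hsph : EqF F G (fun y x => ∑ i, (wx x i + wy y i) * (wx x i - wy y i)) (fun _ _ => 0))
    (horth : EqF F G (fun y x => ∑ i, z i * (wx x i - wy y i)) (fun _ _ => 0))
    (hpos : ∀ ω : Fin n → ℝ, ω ≠ 0 → ∑ i, κ0 i * ω i = 0 → ∑ i, u0 i * ω i = 0 →
      ∑ i, z i * ω i = 0 → ∑ i, ∑ j, Q0 i j * ω i * ω j < 0) :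
    SosF F G (fun y x => rx x * Dy y * ∑ i, κc i y * (wx x i - wy y i) -
      g y * ry y * (rx x - ry y)) := by
  classical
  have key : SosF F G (fun y x => ∑ o, ∑ o', cM g ry Dy rx wy wx κc a A β b B Q o o' y x *
      cf g ry rx wy wx o y x * cf g ry rx wy wx o' y x) := by
    refine sosF_of_syzygy (fun o => (germ_cf hg hry hrx hwy hwx o).fr)
      (fun o o' => germ_cM hg hry hrx hDy hwy hwx hκ ha hb hA hB hQ hβ o o')
      (fun k o => germ_cR (z := z) hg hry hrx hDx hwy hwx hκ hA hB hQ hβ k o)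
      (fun k => ?_) (fun w hw hw0 => ?_)
    · have hE : EqF F G (fun (y : L) (x : X) => (0 : ℝ)) (fun _ _ => 0) := EqF.refl _
      fin_cases k
      · obtain ⟨A1, hA1, B1, hB1, e1⟩ := hid
        refine ⟨A1 ∩ {y | 0 ≤ g y}, inter_mem hA1 hgn, B1 ∩ {x | 0 ≤ rx x},
          inter_mem hB1 hrxn, fun y hy x hx => ?_⟩
        have e2 := e1 y hy.1 x hx.1
        simp only [] at e2
        show ∑ o, cR g ry rx Dx wy wx κc z A β B Q 0 o y x * cf g ry rx wy wx o y x = 0
        rw [cR0_sum y x hy.2 hx.2, e2]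
        ring
      · obtain ⟨A1, hA1, B1, hB1, e1⟩ := hsph
        refine ⟨A1, hA1, B1, hB1, fun y hy x hx => ?_⟩
        have e2 := e1 y hy x hx
        simp only [] at e2
        show ∑ o, cR g ry rx Dx wy wx κc z A β B Q 1 o y x * cf g ry rx wy wx o y x = 0
        rw [Fintype.sum_option]
        simp only [cR, cf, Option.elim, zero_mul, zero_add]
        have e3 : ∑ i, (wx x i + wy y i) * (Real.sqrt (rx x) * (wx x i - wy y i)) =
            Real.sqrt (rx x) * ∑ i, (wx x i + wy y i) * (wx x i - wy y i) := by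
          rw [Finset.mul_sum]
          exact Finset.sum_congr rfl fun i _ => by ring
        rw [e3, e2, mul_zero]
      · obtain ⟨A1, hA1, B1, hB1, e1⟩ := horth
        refine ⟨A1, hA1, B1, hB1, fun y hy x hx => ?_⟩
        have e2 := e1 y hy x hx
        simp only [] at e2
        show ∑ o, cR g ry rx Dx wy wx κc z A β B Q 2 o y x * cf g ry rx wy wx o y x = 0
        rw [Fintype.sum_option]
        simp only [cR, cf, Option.elim, zero_mul, zero_add]
        have e3 : ∑ i, z i * (Real.sqrt (rx x) * (wx x i - wy y i)) =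
            Real.sqrt (rx x) * ∑ i, z i * (wx x i - wy y i) := by
          rw [Finset.mul_sum]
          exact Finset.sum_congr rfl fun i _ => by ring
        rw [e3, e2, mul_zero]
    · have k0 := hw0 0
      have k1 := hw0 1
      have k2 := hw0 2
      rw [Fintype.sum_option] at k0 k1 k2
      simp only [Option.elim, zero_mul, zero_add] at k0 k1 k2
      have j0 : ∑ i, κ0 i * w (some i) = 0 := by
        have : ∑ i, D0 * κ0 i * w (some i) = D0 * ∑ i, κ0 i * w (some i) := by
          rw [Finset.mul_sum]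
          exact Finset.sum_congr rfl fun i _ => by ring
        rw [this] at k0
        exact (mul_eq_zero.1 k0).resolve_left hD0.ne'
      have j1 : ∑ i, u0 i * w (some i) = 0 := by
        have : ∑ i, 2 * u0 i * w (some i) = 2 * ∑ i, u0 i * w (some i) := by
          rw [Finset.mul_sum]
          exact Finset.sum_congr rfl fun i _ => by ring
        rw [this] at k1
        linarith
      rw [Fintype.sum_option]
      simp only [Fintype.sum_option, Option.elim, zero_mul, Finset.sum_const_zero, add_zero,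
        zero_add]
      have e4 : ∑ i, ∑ j, D0 * (β0 * κ0 i * κ0 j - Q0 i j) * w (some i) * w (some j) =
          D0 * (β0 * (∑ i, κ0 i * w (some i)) ^ 2 -
            ∑ i, ∑ j, Q0 i j * w (some i) * w (some j)) := by
        rw [sq, Finset.sum_mul_sum]
        simp only [Finset.mul_sum, mul_sub, ← Finset.sum_sub_distrib]
        exact Finset.sum_congr rfl fun i _ => Finset.sum_congr rfl fun j _ => by ring
      rw [e4, j0]
      by_cases h0 : (fun i => w (some i)) = 0
      · have hn : w none ≠ 0 := by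
          intro h
          apply hw
          funext o
          cases o with
          | none => exact h
          | some i => exact congrFun h0 i
        have h1 : ∀ i, w (some i) = 0 := fun i => congrFun h0 i
        simp only [h1, mul_zero, Finset.sum_const_zero, sub_zero]
        have := mul_self_pos.2 hn
        nlinarith [mul_pos hD0 this]
      · have h2 := hpos _ h0 j0 j1 k2
        nlinarith [mul_pos hD0 (neg_pos.2 h2), mul_nonneg hD0.le (mul_self_nonneg (w none))]
  have key2 : SosF F G (fun y x => (rx x * Dy y * ∑ i, κc i y * (wx x i - wy y i) -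
      g y * ry y * (rx x - ry y)) * Dx x) := by
    refine key.congr ?_
    obtain ⟨A1, hA1, B1, hB1, e1⟩ := hid
    obtain ⟨A2, hA2, B2, hB2, e2⟩ := hdiff
    refine ⟨(A1 ∩ A2) ∩ {y | 0 ≤ g y}, inter_mem (inter_mem hA1 hA2) hgn,
      (B1 ∩ B2) ∩ {x | 0 ≤ rx x}, inter_mem (inter_mem hB1 hB2) hrxn, fun y hy x hx => ?_⟩
    have e3 := e1 y hy.1.1 x hx.1.1
    have e4 := e2 y hy.1.2 x hx.1.2
    simp only [] at e3 e4
    have e6 := cM_sum (Dy := Dy) (wy := wy) (wx := wx) (κc := κc) (a := a) (A := A) (β := β)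
      (b := b) (B := B) (Q := Q) (ry := ry) y x hy.2 hx.2
    show (rx x * Dy y * ∑ i, κc i y * (wx x i - wy y i) - g y * ry y * (rx x - ry y)) * Dx x =
      ∑ o, ∑ o', cM g ry Dy rx wy wx κc a A β b B Q o o' y x * cf g ry rx wy wx o y x *
      cf g ry rx wy wx o' y x
    rw [e6]
    have e5 : Dx x = Dy y + (a y x * (rx x - ry y) + ∑ i, b i y x * (wx x i - wy y i)) := by
      linarith
    generalize hK : ∑ i, κc i y * (wx x i - wy y i) = K at *
    generalize hS1 : ∑ i, b i y x * (wx x i - wy y i) = S1 at *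
    generalize hS2 : ∑ i, B i y x * (wx x i - wy y i) = S2 at *
    generalize hS3 : ∑ i, ∑ j, Q i j y x * (wx x i - wy y i) * (wx x j - wy y j) = S3 at *
    linear_combination (rx x * Dy y) * e3 - (g y * ry y * (rx x - ry y)) * e5
  have hD1 : ∀ᶠ x in G, 0 < Dx x := hDx.eventually (lt_mem_nhds hD0)
  have key3 := key2.mul (SosF.right (F := F) (f := fun x => (Dx x)⁻¹) (by
    filter_upwards [hD1] with x hx
    exact (inv_pos.2 hx).le))
  refine key3.congr (EqF.of_eventually (fun _ => True) (fun x => 0 < Dx x)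
    (Eventually.of_forall fun _ => trivial) hD1 fun y x _ hx => ?_)
  exact (mul_inv_cancel_right₀ hx.ne' _).symm

end

end Vale.Agent.P256.H326
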