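import Vale.Agent.P256.H326.ConicLoc

/-! The slack kernel in polar coordinates near an ordinary singular boundary point. -/

set_option linter.all false

namespace Vale.Agent.P256.H326

open Filter Topology Vale.Agent.P256

variable {n : ℕ} {p : MvPolynomial (Fin n) ℝ} {e : Fin n → ℝ}

/-- forms of degree `≥ 2` are bounded by the square sum -/
theorem form_quad_bound {Q : MvPolynomial (Fin n) ℝ} {k : ℕ} (hk : 2 ≤ k)
    (hQ : Q.IsHomogeneous k) {B : ℝ} (hB : 0 ≤ B)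
    (h : ∀ u : Fin n → ℝ, (∀ i, |u i| ≤ 1) → |MvPolynomial.eval u Q| ≤ B) (u : Fin n → ℝ)
    (hu : ∀ i, |u i| ≤ 1) : |MvPolynomial.eval u Q| ≤ B * ∑ i, (1 : ℝ) ^ 2 * u i ^ 2 := by
  have hS : 0 ≤ ∑ i, u i ^ 2 := Finset.sum_nonneg fun i _ => sq_nonneg _
  simp only [one_pow, one_mul]
  set s : ℝ := ‖u‖ with hs
  have hs0 : 0 ≤ s := norm_nonneg u
  have hs1 : s ≤ 1 := by
    rw [hs, pi_norm_le_iff_of_nonneg zero_le_one]
    intro i; rw [Real.norm_eq_abs]; exact hu i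
  have hs2 : s ^ 2 ≤ ∑ i, u i ^ 2 := by
    have h1 : s ≤ Real.sqrt (∑ i, u i ^ 2) := by
      rw [hs, pi_norm_le_iff_of_nonneg (Real.sqrt_nonneg _)]
      intro i
      rw [Real.norm_eq_abs]
      apply Real.abs_le_sqrt
      exact Finset.single_le_sum (f := fun i => u i ^ 2) (fun j _ => sq_nonneg _)
        (Finset.mem_univ i)
    calc s ^ 2 ≤ Real.sqrt (∑ i, u i ^ 2) ^ 2 := pow_le_pow_left₀ hs0 h1 2
      _ = _ := Real.sq_sqrt hS
  rcases hs0.eq_or_lt with h0 | h0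
  · have hu0 : u = 0 := norm_eq_zero.1 (by rw [← hs, ← h0])
    have h1 : MvPolynomial.eval u Q = 0 := by
      have := eval_smul' hQ 0 u
      rw [zero_smul, zero_pow (by omega), zero_mul] at this
      rw [hu0]; exact this
    rw [h1, abs_zero]
    positivity
  · have h1 : u = s • (s⁻¹ • u) := by rw [smul_smul, mul_inv_cancel₀ h0.ne', one_smul]
    have h2 := h (s⁻¹ • u) (fun i => by
      rw [Pi.smul_apply, smul_eq_mul, abs_mul, abs_of_pos (inv_pos.2 h0), inv_mul_le_iff₀ h0,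
        mul_one]
      exact abs_coord_le u i)
    rw [h1, eval_smul' hQ, abs_mul, abs_of_nonneg (by positivity)]
    have h3 : s ^ k ≤ s ^ 2 := pow_le_pow_of_le_one hs0 hs1 hk
    have h5 : ∑ i, (s • s⁻¹ • u) i ^ 2 = ∑ i, u i ^ 2 := by rw [← h1]
    rw [h5]
    calc s ^ k * |MvPolynomial.eval (s⁻¹ • u) Q| ≤ s ^ 2 * B :=
          mul_le_mul h3 h2 (abs_nonneg _) (by positivity)
      _ ≤ (∑ i, u i ^ 2) * B := mul_le_mul_of_nonneg_right hs2 hB
      _ = _ := mul_comm _ _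

theorem part_HJ_bdd (p : MvPolynomial (Fin n) ℝ) (z : Fin n → ℝ) (m : ℕ) (R V : ℝ) (hR : 0 ≤ R)
    (hV : 0 ≤ V) : ∃ B : ℝ, 0 ≤ B ∧ ∀ (j k : ℕ) (r : ℝ), |r| ≤ 1 → ∀ w v : Fin n → ℝ,
      (∀ i, |w i| ≤ R) → (∀ i, |v i| ≤ V) →
      |MvPolynomial.eval v (part (HJ p z m j r) w k)| ≤ B := by
  obtain ⟨K, hK, hcb⟩ := coeff_bound (m + NN p z)
  obtain ⟨C, hC, h⟩ := HJ_tay p z 0 m (R + V) (by positivity)
  refine ⟨K * C, by positivity, fun j k r hr w v hw hv => ?_⟩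
  rw [← coeff_line]
  refine hcb _ (natDegree_line_HJ p z m j r w v) C (fun t ht => ?_) k
  rw [eval_line]
  refine (h j r hr (w + t • v) 0 (fun i => ?_) (fun i => by simp; positivity) 0 0 (by simp)
    (by simp)).2.2
  simp only [Pi.add_apply, Pi.smul_apply, smul_eq_mul]
  have := abs_add_le (w i) (t * v i)
  have h2 : |t * v i| ≤ V := abs_smul_le ht hv i
  linarith [hw i]

section

variable {u0 z : Fin n → ℝ} {m : ℕ}

theorem tpr_HJ_bdd {F : Filter (ℝ × (Fin n → ℝ))} (hF : F ≤ 𝓝 ((0 : ℝ), u0))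
    (hs : 0 < dd (part p z m) u0 e) :
    ∃ V : ℝ, 1 ≤ V ∧ ∀ᶠ y in F, ∀ v : Fin n → ℝ, (∀ i, |v i| ≤ 1) → ∀ i,
      |tpr (HJ p z m 0 y.1) e y.2 v i| ≤ V := by
  set S : ℝ := ∑ i : Fin n, (|kap (part p z m) e u0 (Pi.single i 1)| + 1) with hS
  have hS0 : 0 ≤ S := Finset.sum_nonneg fun i _ => by positivity
  refine ⟨1 + S * ‖e‖, by nlinarith [norm_nonneg e], ?_⟩
  have h1 : ∀ i : Fin n, ∀ᶠ y in F, |kap (HJ p z m 0 y.1) e y.2 (Pi.single i 1)| <
      |kap (part p z m) e u0 (Pi.single i 1)| + 1 := fun i =>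
    (t_kap (p := p) (z := z) hF hs (Pi.single i (1 : ℝ))).abs.eventually
      (gt_mem_nhds (by linarith))
  filter_upwards [eventually_all.2 h1] with y hy v hv i
  have h2 : |kap (HJ p z m 0 y.1) e y.2 v| ≤ S := by
    rw [kap_lin]
    refine (Finset.abs_sum_le_sum_abs _ _).trans (Finset.sum_le_sum fun j _ => ?_)
    rw [abs_mul]
    calc _ ≤ |kap (HJ p z m 0 y.1) e y.2 (Pi.single j 1)| * 1 :=
          mul_le_mul_of_nonneg_left (hv j) (abs_nonneg _)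
      _ ≤ _ := by rw [mul_one]; exact (hy j).le
  rw [tpr_apply, Pi.sub_apply, Pi.smul_apply, smul_eq_mul]
  have h3 := abs_sub (v i) (kap (HJ p z m 0 y.1) e y.2 v * e i)
  have h4 : |kap (HJ p z m 0 y.1) e y.2 v * e i| ≤ S * ‖e‖ := by
    rw [abs_mul]
    exact mul_le_mul h2 (abs_coord_le e i) (abs_nonneg _) hS0
  linarith [hv i]

theorem ev_bdd {F : Filter (ℝ × (Fin n → ℝ))} (hF : F ≤ 𝓝 ((0 : ℝ), u0)) {ρ : ℝ} (hρ : 0 < ρ) :
    ∀ᶠ y in F, |y.1| ≤ ρ ∧ ∀ i, |y.2 i - u0 i| ≤ ρ := by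
  have h1 : ∀ᶠ y in F, |y.1| < ρ := by
    have := (t_fst hF).abs
    rw [abs_zero] at this
    exact this.eventually (gt_mem_nhds hρ)
  have h2 : ∀ i, ∀ᶠ y in F, |y.2 i - u0 i| < ρ := by
    intro i
    have := ((t_snd hF i).sub_const (u0 i)).abs
    rw [sub_self, abs_zero] at this
    exact this.eventually (gt_mem_nhds hρ)
  filter_upwards [h1, eventually_all.2 h2] with y a b
  exact ⟨a.le, fun i => (b i).le⟩

/-- the terms of degree at least three in the direction -/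
theorem high_err (hs : 0 < dd (part p z m) u0 e) (U : Ultrafilter (ℝ × (Fin n → ℝ)))
    {G : Filter (ℝ × (Fin n → ℝ))} (hU : (U : Filter (ℝ × (Fin n → ℝ))) ≤ 𝓝 ((0 : ℝ), u0))
    (hG : G ≤ 𝓝 ((0 : ℝ), u0)) (j k : ℕ) :
    ∃ E : Fin n → Fin n → ℝ × (Fin n → ℝ) → ℝ × (Fin n → ℝ) → ℝ,
      (∀ a b, GermFR (U : Filter (ℝ × (Fin n → ℝ))) G (E a b) 0) ∧
      ∀ᶠ y in (U : Filter (ℝ × (Fin n → ℝ))), ∀ x : ℝ × (Fin n → ℝ),
        MvPolynomial.eval (tpr (HJ p z m 0 y.1) e y.2 (x.2 - y.2))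
          (part (HJ p z m j y.1) y.2 (k + 3)) =
        ∑ a, ∑ b, E a b y x * (x.2 a - y.2 a) * (x.2 b - y.2 b) := by
  obtain ⟨V, hV, hVe⟩ := tpr_HJ_bdd (p := p) (z := z) (e := e) hU hs
  set R : ℝ := ‖u0‖ + 1 with hR
  obtain ⟨B, hB, hb⟩ := part_HJ_bdd p z m R V (by positivity) (by linarith)
  obtain ⟨E, hE, hEe⟩ := germ_err (U := U) (G := G) (k := k + 3) (by omega)
    (fun y => fform (part (HJ p z m j y.1) y.2 (k + 3))
      (fun i => tpr (HJ p z m 0 y.1) e y.2 (Pi.single i 1)))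
    (fun y => homog_fform (part_homog _ y.2 (k + 3)) _) (fun i y => 1)
    (Eventually.of_forall fun _ _ => zero_le_one) hB
    (by
      filter_upwards [hVe, ev_bdd hU one_pos] with y h1 h2
      intro u hu
      refine form_quad_bound (by omega) (homog_fform (part_homog _ y.2 (k + 3)) _) hB
        (fun u hu => ?_) u hu
      rw [eval_fform]
      have e1 : ∑ i, u i • tpr (HJ p z m 0 y.1) e y.2 (Pi.single i 1) =
          tpr (HJ p z m 0 y.1) e y.2 u := by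
        funext k
        rw [lin_apply, Finset.sum_apply]
        exact Finset.sum_congr rfl fun i _ => by rw [Pi.smul_apply, smul_eq_mul]
      rw [e1]
      refine hb j (k + 3) y.1 h2.1 y.2 _ (fun i => ?_) (h1 u hu)
      have e2 : y.2 i = u0 i + (y.2 i - u0 i) := by ring
      rw [e2]
      have := abs_add_le (u0 i) (y.2 i - u0 i)
      linarith [h2.2 i, abs_coord_le u0 i])
    (fun i y x => x.2 i - y.2 i) (fun i =>
      ((GermFR.right (t_snd hG i)).sub (GermFR.left (t_snd hU i))).congr (fun y x => rfl)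
        (by ring))
  refine ⟨E, hE, ?_⟩
  filter_upwards [hEe] with y hy x
  have h3 := hy x
  simp only [one_mul] at h3
  rw [← h3, eval_fform]
  congr 2
  funext k
  rw [lin_apply, Finset.sum_apply]
  exact Finset.sum_congr rfl fun i _ => by rw [Pi.smul_apply, smul_eq_mul, Pi.sub_apply]

/-- quotients by `g` -/
theorem quot_g (hp : IsHyperbolic p e) {z : Fin n → ℝ} (hz : z ∈ hypCone p e) {m : ℕ}
    (hm : ∀ k < m + 1, part p z k = 0)
    (hu0 : MvPolynomial.eval u0 (part p z (m + 1)) = 0)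
    (hs : 0 < dd (part p z (m + 1)) u0 e) (U : Ultrafilter (ℝ × (Fin n → ℝ)))
    (hU : (U : Filter (ℝ × (Fin n → ℝ))) ≤ 𝓝 ((0 : ℝ), u0))
    (hUT : ∀ᶠ y in (U : Filter (ℝ × (Fin n → ℝ))),
      MvPolynomial.eval y.2 (HJ p z (m + 1) 0 y.1) = 0) :
    ∃ (c : ℕ → ℝ × (Fin n → ℝ) → ℝ) (c0 : ℕ → ℝ), (∀ j, Tendsto (c j) U (𝓝 (c0 j))) ∧
      ∀ᶠ y in (U : Filter (ℝ × (Fin n → ℝ))),
        0 ≤ - MvPolynomial.eval y.2 (HJ p z (m + 1) 1 y.1) ∧
        ∀ j, MvPolynomial.eval y.2 (HJ p z (m + 1) j y.1) =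
          (- MvPolynomial.eval y.2 (HJ p z (m + 1) 1 y.1)) * c j y := by
  obtain ⟨ρ, hρ, _, C, hC, h⟩ := est1 hp hz hm hu0 hs
  have hev : ∀ᶠ y in (U : Filter (ℝ × (Fin n → ℝ))),
      0 ≤ - MvPolynomial.eval y.2 (HJ p z (m + 1) 1 y.1) ∧
      ∀ j, |MvPolynomial.eval y.2 (HJ p z (m + 1) j y.1)| ≤
        C * (- MvPolynomial.eval y.2 (HJ p z (m + 1) 1 y.1)) := by
    filter_upwards [hUT, ev_bdd hU hρ] with y h1 h2
    exact h y.1 y.2 h2.1 h2.2 h1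
  set c : ℕ → ℝ × (Fin n → ℝ) → ℝ := fun j y => MvPolynomial.eval y.2 (HJ p z (m + 1) j y.1) /
    (- MvPolynomial.eval y.2 (HJ p z (m + 1) 1 y.1)) with hc
  have hb : ∀ j, ∀ᶠ y in (U : Filter (ℝ × (Fin n → ℝ))), |c j y| ≤ C := by
    intro j
    filter_upwards [hev] with y hy
    rw [hc]
    simp only
    rw [abs_div, abs_of_nonneg hy.1]
    exact div_le_of_le_mul₀ hy.1 hC (hy.2 j)
  choose c0 _ hc0 using fun j => exists_tendsto U (hb j)
  refine ⟨c, c0, hc0, ?_⟩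
  filter_upwards [hev] with y hy
  refine ⟨hy.1, fun j => ?_⟩
  by_cases h0 : (- MvPolynomial.eval y.2 (HJ p z (m + 1) 1 y.1)) = 0
  · have := hy.2 j
    rw [h0, mul_zero] at this
    rw [h0, zero_mul]
    exact abs_nonpos_iff.1 this
  · rw [hc]; simp only
    rw [mul_div_cancel₀ _ h0]

/-- quotients by `√g` -/
theorem quot_sg (hp : IsHyperbolic p e) {z : Fin n → ℝ} (hz : z ∈ hypCone p e) {m : ℕ}
    (hm : ∀ k < m + 1, part p z k = 0)
    (hu0 : MvPolynomial.eval u0 (part p z (m + 1)) = 0)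
    (hs : 0 < dd (part p z (m + 1)) u0 e) (U : Ultrafilter (ℝ × (Fin n → ℝ)))
    (hU : (U : Filter (ℝ × (Fin n → ℝ))) ≤ 𝓝 ((0 : ℝ), u0))
    (hUT : ∀ᶠ y in (U : Filter (ℝ × (Fin n → ℝ))),
      MvPolynomial.eval y.2 (HJ p z (m + 1) 0 y.1) = 0) :
    ∃ (c : ℕ → Fin n → ℝ × (Fin n → ℝ) → ℝ) (c0 : ℕ → Fin n → ℝ),
      (∀ j i, Tendsto (c j i) U (𝓝 (c0 j i))) ∧
      ∀ᶠ y in (U : Filter (ℝ × (Fin n → ℝ))), ∀ j i,
        dd (HJ p z (m + 1) j y.1) y.2 (tpr (HJ p z (m + 1) 0 y.1) e y.2 (Pi.single i 1)) =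
          Real.sqrt (- MvPolynomial.eval y.2 (HJ p z (m + 1) 1 y.1)) * c j i y := by
  obtain ⟨V, hV, hVe⟩ := tpr_HJ_bdd (p := p) (z := z) (e := e) hU hs
  obtain ⟨ρ, hρ, C, hC, h⟩ := est2 hp hz hm hu0 hs V (by linarith)
  have hD : ∀ᶠ y in (U : Filter (ℝ × (Fin n → ℝ))), 0 < dd (HJ p z (m + 1) 0 y.1) y.2 e := by
    have := t_ddHJ (p := p) (z := z) (m := m + 1) hU 0 e
    rw [dd_HJ0] at this
    exact this.eventually (lt_mem_nhds hs)
  have hev : ∀ᶠ y in (U : Filter (ℝ × (Fin n → ℝ))), ∀ j i,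
      |dd (HJ p z (m + 1) j y.1) y.2 (tpr (HJ p z (m + 1) 0 y.1) e y.2 (Pi.single i 1))| ≤
        C * Real.sqrt (- MvPolynomial.eval y.2 (HJ p z (m + 1) 1 y.1)) := by
    filter_upwards [hUT, ev_bdd hU hρ, hVe, hD] with y h1 h2 h3 h4 j i
    refine h y.1 y.2 h2.1 h2.2 h1 _ (h3 _ fun k => ?_) (dd_tpr h4 _) j
    by_cases hk : k = i
    · subst hk; simp
    · simp [Pi.single_eq_of_ne hk]
  set c : ℕ → Fin n → ℝ × (Fin n → ℝ) → ℝ := fun j i y =>
    dd (HJ p z (m + 1) j y.1) y.2 (tpr (HJ p z (m + 1) 0 y.1) e y.2 (Pi.single i 1)) /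
    Real.sqrt (- MvPolynomial.eval y.2 (HJ p z (m + 1) 1 y.1)) with hc
  have hb : ∀ j i, ∀ᶠ y in (U : Filter (ℝ × (Fin n → ℝ))), |c j i y| ≤ C := by
    intro j i
    filter_upwards [hev] with y hy
    rw [hc]
    simp only
    rw [abs_div, abs_of_nonneg (Real.sqrt_nonneg _)]
    exact div_le_of_le_mul₀ (Real.sqrt_nonneg _) hC (hy j i)
  choose c0 _ hc0 using fun j i => exists_tendsto U (hb j i)
  refine ⟨c, c0, hc0, ?_⟩
  filter_upwards [hev] with y hy j i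
  by_cases h0 : Real.sqrt (- MvPolynomial.eval y.2 (HJ p z (m + 1) 1 y.1)) = 0
  · have := hy j i
    rw [h0, mul_zero] at this
    rw [h0, zero_mul]
    exact abs_nonpos_iff.1 this
  · rw [hc]; simp only
    rw [mul_div_cancel₀ _ h0]

end

end Vale.Agent.P256.H326
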