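import Vale.Agent.P256.H326.Polar

/-! Germs of the coefficients in polar coordinates. -/

set_option linter.all false

namespace Vale.Agent.P256.H326

open Filter Topology Vale.Agent.P256

variable {n : ℕ} {p : MvPolynomial (Fin n) ℝ} {e : Fin n → ℝ}

section dq

variable {F G : Filter (ℝ × (Fin n → ℝ))} {u0 : Fin n → ℝ}

theorem t_fst {F : Filter (ℝ × (Fin n → ℝ))} (hF : F ≤ 𝓝 ((0 : ℝ), u0)) :
    Tendsto (fun y : ℝ × (Fin n → ℝ) => y.1) F (𝓝 0) :=
  (continuous_fst.tendsto ((0 : ℝ), u0)).mono_left hF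

theorem t_snd {F : Filter (ℝ × (Fin n → ℝ))} (hF : F ≤ 𝓝 ((0 : ℝ), u0)) (i : Fin n) :
    Tendsto (fun y : ℝ × (Fin n → ℝ) => y.2 i) F (𝓝 (u0 i)) :=
  (((continuous_apply i).comp continuous_snd).tendsto ((0 : ℝ), u0)).mono_left hF

theorem dq_pow (hF : F ≤ 𝓝 ((0 : ℝ), u0)) (hG : G ≤ 𝓝 ((0 : ℝ), u0)) (i : ℕ) :
    ∃ (a : ℝ × (Fin n → ℝ) → ℝ × (Fin n → ℝ) → ℝ) (a0 : ℝ), GermFR F G a a0 ∧
      ∀ y x, x.1 ^ i - y.1 ^ i = a y x * (x.1 - y.1) := by
  induction i with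
  | zero => exact ⟨fun _ _ => 0, 0, GermFR.const 0, fun y x => by simp⟩
  | succ i ih =>
    obtain ⟨a, a0, ha, h⟩ := ih
    refine ⟨fun y x => x.1 ^ i + a y x * y.1, _,
      (GermFR.right ((t_fst hG).pow i)).add (ha.mul (GermFR.left (t_fst hF))), fun y x => ?_⟩
    have := h y x
    calc x.1 ^ (i + 1) - y.1 ^ (i + 1) = x.1 ^ i * (x.1 - y.1) + (x.1 ^ i - y.1 ^ i) * y.1 := by
          ring
      _ = _ := by rw [this]; ring

theorem dq_poly (hF : F ≤ 𝓝 ((0 : ℝ), u0)) (hG : G ≤ 𝓝 ((0 : ℝ), u0))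
    (q : MvPolynomial (Fin n) ℝ) :
    ∃ (b : Fin n → ℝ × (Fin n → ℝ) → ℝ × (Fin n → ℝ) → ℝ) (b0 : Fin n → ℝ),
      (∀ k, GermFR F G (b k) (b0 k)) ∧
      ∀ y x, MvPolynomial.eval x.2 q - MvPolynomial.eval y.2 q =
        ∑ k, b k y x * (x.2 k - y.2 k) := by
  classical
  induction q using MvPolynomial.induction_on with
  | C a => exact ⟨fun _ _ _ => 0, 0, fun k => GermFR.const 0, fun y x => by simp⟩
  | add p q hp hq =>
    obtain ⟨b, b0, hb, h⟩ := hp
    obtain ⟨b', b0', hb', h'⟩ := hq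
    refine ⟨fun k y x => b k y x + b' k y x, fun k => b0 k + b0' k,
      fun k => (hb k).add (hb' k), fun y x => ?_⟩
    rw [map_add, map_add, add_sub_add_comm, h, h', ← Finset.sum_add_distrib]
    exact Finset.sum_congr rfl fun k _ => by ring
  | mul_X q i hq =>
    obtain ⟨b, b0, hb, h⟩ := hq
    have hev : Tendsto (fun y : ℝ × (Fin n → ℝ) => MvPolynomial.eval y.2 q) F
        (𝓝 (MvPolynomial.eval u0 q)) :=
      (((continuous_eval q).comp continuous_snd).tendsto ((0 : ℝ), u0)).mono_left hF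
    refine ⟨fun k y x => b k y x * x.2 i + (if k = i then MvPolynomial.eval y.2 q else 0),
      fun k => b0 k * u0 i + (if k = i then MvPolynomial.eval u0 q else 0),
      fun k => ((hb k).mul (GermFR.right (t_snd hG i))).add ?_, fun y x => ?_⟩
    · by_cases hk : k = i
      · simp only [hk, if_true]; exact GermFR.left hev
      · simp only [hk, if_false]; exact GermFR.const 0
    · rw [map_mul, map_mul, MvPolynomial.eval_X, MvPolynomial.eval_X]
      have e1 : MvPolynomial.eval x.2 q * x.2 i - MvPolynomial.eval y.2 q * y.2 i =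
          (MvPolynomial.eval x.2 q - MvPolynomial.eval y.2 q) * x.2 i +
            MvPolynomial.eval y.2 q * (x.2 i - y.2 i) := by ring
      rw [e1, h, Finset.sum_mul]
      have e2 : ∀ k ∈ (Finset.univ : Finset (Fin n)), (b k y x * x.2 i +
          (if k = i then MvPolynomial.eval y.2 q else 0)) * (x.2 k - y.2 k) =
          b k y x * (x.2 k - y.2 k) * x.2 i +
          (if k = i then MvPolynomial.eval y.2 q * (x.2 k - y.2 k) else 0) := by
        intro k _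
        split_ifs <;> ring
      rw [Finset.sum_congr rfl e2, Finset.sum_add_distrib]
      simp

theorem dq_sum (hF : F ≤ 𝓝 ((0 : ℝ), u0)) (hG : G ≤ 𝓝 ((0 : ℝ), u0)) (N : ℕ) (c : ℕ → ℝ)
    (q : ℕ → MvPolynomial (Fin n) ℝ) :
    ∃ (a : ℝ × (Fin n → ℝ) → ℝ × (Fin n → ℝ) → ℝ) (a0 : ℝ)
      (b : Fin n → ℝ × (Fin n → ℝ) → ℝ × (Fin n → ℝ) → ℝ) (b0 : Fin n → ℝ),
      GermFR F G a a0 ∧ (∀ k, GermFR F G (b k) (b0 k)) ∧
      ∀ y x, ∑ i ∈ Finset.range N, c i * x.1 ^ i * MvPolynomial.eval x.2 (q i) -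
        ∑ i ∈ Finset.range N, c i * y.1 ^ i * MvPolynomial.eval y.2 (q i) =
        a y x * (x.1 - y.1) + ∑ k, b k y x * (x.2 k - y.2 k) := by
  induction N with
  | zero =>
    exact ⟨fun _ _ => 0, 0, fun _ _ _ => 0, 0, GermFR.const 0, fun k => GermFR.const 0,
      fun y x => by simp⟩
  | succ N ih =>
    obtain ⟨a, a0, b, b0, ha, hb, h⟩ := ih
    obtain ⟨a', a0', ha', h'⟩ := dq_pow hF hG N
    obtain ⟨b', b0', hb', h''⟩ := dq_poly hF hG (q N)
    have hev : Tendsto (fun y : ℝ × (Fin n → ℝ) => MvPolynomial.eval y.2 (q N)) G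
        (𝓝 (MvPolynomial.eval u0 (q N))) :=
      (((continuous_eval (q N)).comp continuous_snd).tendsto ((0 : ℝ), u0)).mono_left hG
    refine ⟨fun y x => a y x + c N * a' y x * MvPolynomial.eval x.2 (q N), _,
      fun k y x => b k y x + c N * y.1 ^ N * b' k y x, _,
      ha.add (((GermFR.const (c N)).mul ha').mul (GermFR.right hev)),
      fun k => (hb k).add (((GermFR.const (c N)).mul (GermFR.left ((t_fst hF).pow N))).mul
        (hb' k)), fun y x => ?_⟩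
    rw [Finset.sum_range_succ, Finset.sum_range_succ, add_sub_add_comm, h]
    have e1 : c N * x.1 ^ N * MvPolynomial.eval x.2 (q N) -
        c N * y.1 ^ N * MvPolynomial.eval y.2 (q N) =
        c N * (x.1 ^ N - y.1 ^ N) * MvPolynomial.eval x.2 (q N) +
        c N * y.1 ^ N * (MvPolynomial.eval x.2 (q N) - MvPolynomial.eval y.2 (q N)) := by ring
    rw [e1, h', h'', Finset.mul_sum]
    have e2 : ∀ k ∈ (Finset.univ : Finset (Fin n)), (b k y x + c N * y.1 ^ N * b' k y x) *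
        (x.2 k - y.2 k) = b k y x * (x.2 k - y.2 k) +
          c N * y.1 ^ N * (b' k y x * (x.2 k - y.2 k)) := fun k _ => by ring
    rw [Finset.sum_congr rfl e2, Finset.sum_add_distrib]
    ring

theorem dq_D (hF : F ≤ 𝓝 ((0 : ℝ), u0)) (hG : G ≤ 𝓝 ((0 : ℝ), u0))
    (p : MvPolynomial (Fin n) ℝ) (z e : Fin n → ℝ) (m : ℕ) :
    ∃ (a : ℝ × (Fin n → ℝ) → ℝ × (Fin n → ℝ) → ℝ) (a0 : ℝ)
      (b : Fin n → ℝ × (Fin n → ℝ) → ℝ × (Fin n → ℝ) → ℝ) (b0 : Fin n → ℝ),
      GermFR F G a a0 ∧ (∀ k, GermFR F G (b k) (b0 k)) ∧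
      ∀ y x, dd (HJ p z m 0 x.1) x.2 e - dd (HJ p z m 0 y.1) y.2 e =
        a y x * (x.1 - y.1) + ∑ k, b k y x * (x.2 k - y.2 k) := by
  obtain ⟨a, a0, b, b0, ha, hb, h⟩ := dq_sum hF hG (NN p z) (fun _ => 1)
    (fun i => dirD (part p z (m + i)) e)
  refine ⟨a, a0, b, b0, ha, hb, fun y x => ?_⟩
  rw [← h, dd_HJ, dd_HJ]
  simp only [eval_dirD, Nat.choose_zero_right, Nat.cast_one, one_mul, Nat.sub_zero]

end dq

theorem HJ_zero (p : MvPolynomial (Fin n) ℝ) (z : Fin n → ℝ) (m : ℕ) :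
    HJ p z m 0 0 = part p z m := by
  unfold HJ
  rw [Finset.sum_eq_single 0]
  · simp
  · intro i _ hi
    simp [hi]
  · intro h
    exact absurd (Finset.mem_range.2 (by unfold NN; omega)) h

theorem dd_single (q : MvPolynomial (Fin n) ℝ) (w : Fin n → ℝ) (i : Fin n) :
    dd q w (Pi.single i 1) = MvPolynomial.eval w (MvPolynomial.pderiv i q) := by
  unfold dd
  rw [Finset.sum_eq_single i]
  · simp
  · intro j _ hj
    simp [Pi.single_eq_of_ne hj]
  · simp

theorem kap_lin (q : MvPolynomial (Fin n) ℝ) (e w v : Fin n → ℝ) :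
    kap q e w v = ∑ i, kap q e w (Pi.single i 1) * v i := by
  rw [kap_eq]
  exact Finset.sum_congr rfl fun i _ => by rw [kap, dd_single]

theorem dd_lin (q : MvPolynomial (Fin n) ℝ) (w v : Fin n → ℝ)
    (T : (Fin n → ℝ) →ₗ[ℝ] (Fin n → ℝ)) :
    dd q w (T v) = ∑ i, v i * dd q w (T (Pi.single i 1)) := by
  simp only [dd]
  simp only [lin_apply T v, Finset.sum_mul, Finset.mul_sum]
  rw [Finset.sum_comm]
  exact Finset.sum_congr rfl fun i _ => Finset.sum_congr rfl fun k _ => by ring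

section germs

variable {F : Filter (ℝ × (Fin n → ℝ))} {u0 z : Fin n → ℝ} {m : ℕ}

theorem t_ddHJ (hF : F ≤ 𝓝 ((0 : ℝ), u0)) (j : ℕ) (v : Fin n → ℝ) :
    Tendsto (fun y : ℝ × (Fin n → ℝ) => dd (HJ p z m j y.1) y.2 v) F
      (𝓝 (dd (HJ p z m j 0) u0 v)) :=
  ((continuous_dd_HJ p z m j v).tendsto ((0 : ℝ), u0)).mono_left hF

theorem t_kap (hF : F ≤ 𝓝 ((0 : ℝ), u0)) (hs : 0 < dd (part p z m) u0 e) (v : Fin n → ℝ) :
    Tendsto (fun y : ℝ × (Fin n → ℝ) => kap (HJ p z m 0 y.1) e y.2 v) F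
      (𝓝 (kap (part p z m) e u0 v)) := by
  unfold kap
  rw [← HJ_zero] at hs ⊢
  exact (t_ddHJ hF 0 v).div (t_ddHJ hF 0 e) hs.ne'

theorem t_tpr (hF : F ≤ 𝓝 ((0 : ℝ), u0)) (hs : 0 < dd (part p z m) u0 e) (v : Fin n → ℝ) :
    Tendsto (fun y : ℝ × (Fin n → ℝ) => tpr (HJ p z m 0 y.1) e y.2 v) F
      (𝓝 (tpr (part p z m) e u0 v)) := by
  simp only [tpr_apply]
  exact tendsto_const_nhds.sub ((t_kap hF hs v).smul_const e)

theorem eval_pderiv2_HJ (p : MvPolynomial (Fin n) ℝ) (z : Fin n → ℝ) (m j : ℕ) (r : ℝ)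
    (w : Fin n → ℝ) (k l : Fin n) :
    MvPolynomial.eval w (MvPolynomial.pderiv k (MvPolynomial.pderiv l (HJ p z m j r))) =
      ∑ i ∈ Finset.range (NN p z), ((i.choose j : ℝ) * r ^ (i - j)) *
        MvPolynomial.eval w (MvPolynomial.pderiv k (MvPolynomial.pderiv l (part p z (m + i)))) := by
  unfold HJ
  rw [map_sum, map_sum, map_sum]
  exact Finset.sum_congr rfl fun i _ => by
    rw [MvPolynomial.pderiv_C_mul, MvPolynomial.pderiv_C_mul, map_mul, MvPolynomial.eval_C]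

theorem t_pderiv2 (hF : F ≤ 𝓝 ((0 : ℝ), u0)) (j : ℕ) (k l : Fin n) :
    Tendsto (fun y : ℝ × (Fin n → ℝ) => MvPolynomial.eval y.2
      (MvPolynomial.pderiv k (MvPolynomial.pderiv l (HJ p z m j y.1)))) F
      (𝓝 (MvPolynomial.eval u0
      (MvPolynomial.pderiv k (MvPolynomial.pderiv l (HJ p z m j 0))))) := by
  have h4 : ∀ i, Continuous (fun q : ℝ × (Fin n → ℝ) => ((i.choose j : ℝ) * q.1 ^ (i - j)) *
        MvPolynomial.eval q.2 (MvPolynomial.pderiv k (MvPolynomial.pderiv l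
          (part p z (m + i))))) := by
    intro i
    have h2 : Continuous (fun q : ℝ × (Fin n → ℝ) => (i.choose j : ℝ) * q.1 ^ (i - j)) := by
      fun_prop
    exact h2.mul ((continuous_eval _).comp continuous_snd)
  have h6 := continuous_finsetSum (Finset.range (NN p z)) fun i _ => h4 i
  have h7 : Continuous (fun y : ℝ × (Fin n → ℝ) => MvPolynomial.eval y.2
      (MvPolynomial.pderiv k (MvPolynomial.pderiv l (HJ p z m j y.1)))) :=
    h6.congr fun q => (eval_pderiv2_HJ p z m j q.1 q.2 k l).symm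
  exact (h7.tendsto ((0 : ℝ), u0)).mono_left hF

theorem t_curvM (hF : F ≤ 𝓝 ((0 : ℝ), u0)) (hs : 0 < dd (part p z m) u0 e) (j : ℕ)
    (a b : Fin n) :
    Tendsto (fun y : ℝ × (Fin n → ℝ) => curvM (HJ p z m j y.1) y.2
      (tpr (HJ p z m 0 y.1) e y.2) a b) F
      (𝓝 (curvM (HJ p z m j 0) u0 (tpr (part p z m) e u0) a b)) := by
  unfold curvM
  refine tendsto_finset_sum _ fun k _ => tendsto_finset_sum _ fun l _ => ?_
  have h1 := ((continuous_apply k).tendsto _).comp (t_tpr (p := p) (z := z) (e := e) hF hs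
    (Pi.single a (1 : ℝ)))
  have h2 := ((continuous_apply l).tendsto _).comp (t_tpr (p := p) (z := z) (e := e) hF hs
    (Pi.single b (1 : ℝ)))
  exact (tendsto_const_nhds.mul (h1.mul h2)).mul (t_pderiv2 hF j k l)

end germs

end Vale.Agent.P256.H326
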