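import Vale.Agent.P256.H326.ConeEst

/-! First estimate near an ordinary singular boundary point. -/

set_option linter.all false

namespace Vale.Agent.P256.H326

open Filter Topology Vale.Agent.P256 Polynomial

variable {n : ℕ} {p : MvPolynomial (Fin n) ℝ} {e : Fin n → ℝ}

theorem near_box {f : (Fin n → ℝ) → ℝ} (hf : Continuous f) {u0 : Fin n → ℝ} {c : ℝ}
    (h : c < f u0) : ∃ ρ : ℝ, 0 < ρ ∧ ρ ≤ 1 ∧ ∀ w : Fin n → ℝ, (∀ i, |w i - u0 i| ≤ ρ) → c ≤ f w := by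
  have h1 := (hf.tendsto u0).eventually (lt_mem_nhds h)
  obtain ⟨r, hr, h2⟩ := Metric.eventually_nhds_iff.1 h1
  refine ⟨min 1 (r / 2), by positivity, min_le_left _ _, fun w hw => (h2 ?_).le⟩
  have : dist w u0 ≤ r / 2 := by
    rw [dist_pi_le_iff (by positivity)]
    intro i
    rw [Real.dist_eq]
    exact (hw i).trans (min_le_right _ _)
  linarith

/-- arithmetic of the transfer -/
theorem transfer_arith {M : ℕ} {a b : ℕ → ℝ} {r s g0 c0 CA L ρ : ℝ} (hc0 : 0 < c0)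
    (hCA : 0 ≤ CA) (hL : 0 ≤ L) (hg0 : 0 ≤ g0) (hr : |r| ≤ ρ) (hρ1 : ρ ≤ 1)
    (hρ : ρ * (((M + 2 : ℕ) : ℝ) / c0 * L + L * (2 * (((M + 2 : ℕ) : ℝ) / c0) * CA) +
      ((M + 2 : ℕ) : ℝ) * 2 ^ (M + 2) * (CA + L * (2 * (((M + 2 : ℕ) : ℝ) / c0) * CA)) + 1) ≤ 1 / 2)
    (hsum : ∑ i ∈ Finset.range (M + 2), r ^ i * a i = 0)
    (hs : |s| ≤ |a 0| / c0) (hb : ∀ j, |b j| ≤ CA * g0) (hab : ∀ j, |b j - a j| ≤ L * |s|)
    (hb1 : b 1 = - g0) :
    (∀ j, |a j| ≤ (CA + L * (2 * (((M + 2 : ℕ) : ℝ) / c0) * CA)) * g0) ∧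
    g0 / 2 ≤ - ∑ i ∈ Finset.range (M + 2), ((i.choose 1 : ℝ) * r ^ (i - 1)) * a i := by
  set κ : ℝ := ((M + 2 : ℕ) : ℝ) / c0 with hκ
  have hκ0 : 0 ≤ κ := by positivity
  set CB : ℝ := CA + L * (2 * κ * CA) with hCB
  have hCB0 : 0 ≤ CB := by positivity
  have hr0 : 0 ≤ |r| := abs_nonneg r
  have hρ0 : 0 ≤ ρ := hr0.trans hr
  have hr1 : |r| ≤ 1 := hr.trans hρ1
  have ha : ∀ j, |a j| ≤ CA * g0 + L * |s| := by
    intro j
    have e1 : a j = b j - (b j - a j) := by ring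
    rw [e1]
    exact (abs_sub _ _).trans (add_le_add (hb j) (hab j))
  have hY : 0 ≤ CA * g0 + L * |s| := by positivity
  have ha0 : |a 0| ≤ ((M + 2 : ℕ) : ℝ) * (|r| * (CA * g0 + L * |s|)) := by
    rw [Finset.sum_range_succ'] at hsum
    simp only [pow_zero, one_mul] at hsum
    have e1 : a 0 = - ∑ i ∈ Finset.range (M + 1), r ^ (i + 1) * a (i + 1) := by linarith
    rw [e1, abs_neg]
    refine (Finset.abs_sum_le_sum_abs _ _).trans ?_
    have : ∀ i ∈ Finset.range (M + 1), |r ^ (i + 1) * a (i + 1)| ≤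
        |r| * (CA * g0 + L * |s|) := by
      intro i _
      rw [abs_mul, abs_pow]
      refine mul_le_mul ?_ (ha _) (abs_nonneg _) hr0
      calc |r| ^ (i + 1) ≤ |r| ^ 1 := pow_le_pow_of_le_one hr0 hr1 (by omega)
        _ = |r| := pow_one _
    refine (Finset.sum_le_sum this).trans ?_
    rw [Finset.sum_const, Finset.card_range, nsmul_eq_mul]
    refine mul_le_mul_of_nonneg_right ?_ (by positivity)
    push_cast; linarith
  have hs2 : |s| ≤ κ * (|r| * (CA * g0 + L * |s|)) := by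
    refine hs.trans ?_
    rw [hκ, div_mul_eq_mul_div]
    exact div_le_div_of_nonneg_right ha0 hc0.le
  have hκL : ρ * (κ * L) ≤ 1 / 2 := by
    refine le_trans ?_ hρ
    apply mul_le_mul_of_nonneg_left _ hρ0
    have : 0 ≤ L * (2 * κ * CA) + ((M + 2 : ℕ) : ℝ) * 2 ^ (M + 2) * CB + 1 := by positivity
    linarith
  have hs3 : |s| ≤ 2 * κ * CA * (|r| * g0) := by
    have h1 : κ * (|r| * (L * |s|)) ≤ 1 / 2 * |s| := by
      calc κ * (|r| * (L * |s|)) = |r| * (κ * L) * |s| := by ring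
        _ ≤ ρ * (κ * L) * |s| := by gcongr
        _ ≤ _ := mul_le_mul_of_nonneg_right hκL (abs_nonneg _)
    nlinarith
  have hra : |r| * g0 ≤ g0 := by nlinarith
  have hs4 : L * |s| ≤ L * (2 * κ * CA) * (|r| * g0) := by
    calc L * |s| ≤ L * (2 * κ * CA * (|r| * g0)) := mul_le_mul_of_nonneg_left hs3 hL
      _ = _ := by ring
  have h1 : ∀ j, |a j| ≤ CB * g0 := by
    intro j
    refine (ha j).trans ?_
    have : L * (2 * κ * CA) * (|r| * g0) ≤ L * (2 * κ * CA) * g0 :=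
      mul_le_mul_of_nonneg_left hra (by positivity)
    rw [hCB]; linarith
  refine ⟨h1, ?_⟩
  rw [Finset.sum_range_succ', Finset.sum_range_succ']
  simp only [zero_add, Nat.choose_zero_succ, Nat.cast_zero, zero_mul, add_zero, Nat.choose_self,
    Nat.cast_one, Nat.sub_self, pow_zero, one_mul]
  have h2 : |∑ i ∈ Finset.range M, (((i + 1 + 1).choose 1 : ℕ) : ℝ) * r ^ (i + 1 + 1 - 1) *
      a (i + 1 + 1)| ≤ ((M + 2 : ℕ) : ℝ) * 2 ^ (M + 2) * CB * (|r| * g0) := by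
    refine (Finset.abs_sum_le_sum_abs _ _).trans ?_
    have : ∀ i ∈ Finset.range M, |(((i + 1 + 1).choose 1 : ℕ) : ℝ) * r ^ (i + 1 + 1 - 1) *
        a (i + 1 + 1)| ≤ 2 ^ (M + 2) * CB * (|r| * g0) := by
      intro i hi
      have hi' := Finset.mem_range.1 hi
      rw [abs_mul, abs_mul, abs_pow, Nat.abs_cast]
      have c1 : (((i + 1 + 1).choose 1 : ℕ) : ℝ) ≤ 2 ^ (M + 2) := by
        have c2 : (i + 1 + 1).choose 1 ≤ 2 ^ (i + 1 + 1) := Nat.choose_le_two_pow _ _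
        have c3 : 2 ^ (i + 1 + 1) ≤ 2 ^ (M + 2) := Nat.pow_le_pow_right (by norm_num) (by omega)
        exact_mod_cast c2.trans c3
      have c4 : |r| ^ (i + 1 + 1 - 1) ≤ |r| := by
        calc |r| ^ (i + 1 + 1 - 1) ≤ |r| ^ 1 := pow_le_pow_of_le_one hr0 hr1 (by omega)
          _ = |r| := pow_one _
      calc (((i + 1 + 1).choose 1 : ℕ) : ℝ) * |r| ^ (i + 1 + 1 - 1) * |a (i + 1 + 1)| ≤
          2 ^ (M + 2) * |r| * (CB * g0) := by
            refine mul_le_mul (mul_le_mul c1 c4 (by positivity) (by positivity)) (h1 _)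
              (abs_nonneg _) (by positivity)
        _ = _ := by ring
    refine (Finset.sum_le_sum this).trans ?_
    rw [Finset.sum_const, Finset.card_range, nsmul_eq_mul]
    have h0 : 0 ≤ 2 ^ (M + 2) * CB * (|r| * g0) := by positivity
    calc (M : ℝ) * (2 ^ (M + 2) * CB * (|r| * g0)) ≤
        ((M + 2 : ℕ) : ℝ) * (2 ^ (M + 2) * CB * (|r| * g0)) := by
          apply mul_le_mul_of_nonneg_right _ h0
          push_cast; linarith
      _ = _ := by ring
  have h3 := hab 1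
  rw [hb1] at h3
  have h4 : (L * (2 * κ * CA) + ((M + 2 : ℕ) : ℝ) * 2 ^ (M + 2) * CB) * (|r| * g0) ≤ g0 / 2 := by
    have h5 : |r| * (L * (2 * κ * CA) + ((M + 2 : ℕ) : ℝ) * 2 ^ (M + 2) * CB) ≤ 1 / 2 := by
      refine le_trans ?_ hρ
      refine mul_le_mul hr ?_ (by positivity) hρ0
      have : 0 ≤ κ * L := by positivity
      linarith
    calc _ = (|r| * (L * (2 * κ * CA) + ((M + 2 : ℕ) : ℝ) * 2 ^ (M + 2) * CB)) * g0 := by ring
      _ ≤ 1 / 2 * g0 := mul_le_mul_of_nonneg_right h5 hg0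
      _ = _ := by ring
  rw [abs_le] at h2 h3
  simp only [Nat.choose_one_right] at h2 ⊢
  nlinarith [h2.1, h2.2, h3.1, h3.2, hs4, h4]

/-- **First estimate** near an ordinary singular point. -/
theorem est1 (hp : IsHyperbolic p e) {z : Fin n → ℝ} (hz : z ∈ hypCone p e) {m : ℕ}
    (hm : ∀ k < m + 1, part p z k = 0) {u0 : Fin n → ℝ}
    (hu0 : MvPolynomial.eval u0 (part p z (m + 1)) = 0)
    (hs : 0 < dd (part p z (m + 1)) u0 e) :
    ∃ ρ : ℝ, 0 < ρ ∧ ρ ≤ 1 ∧ ∃ C : ℝ, 0 ≤ C ∧ ∀ (r : ℝ) (w : Fin n → ℝ), |r| ≤ ρ →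
      (∀ i, |w i - u0 i| ≤ ρ) → MvPolynomial.eval w (HJ p z (m + 1) 0 r) = 0 →
      0 ≤ - MvPolynomial.eval w (HJ p z (m + 1) 1 r) ∧
      ∀ j, |MvPolynomial.eval w (HJ p z (m + 1) j r)| ≤
        C * (- MvPolynomial.eval w (HJ p z (m + 1) 1 r)) := by
  set c0 : ℝ := dd (part p z (m + 1)) u0 e / 2 with hc0
  have hc0p : 0 < c0 := by positivity
  obtain ⟨ρ1, hρ1, hρ1', hbox⟩ := near_box (continuous_dd (part p z (m + 1)) e) (u0 := u0)
    (c := c0) (by rw [hc0]; linarith)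
  set R : ℝ := ‖u0‖ + 2 with hR
  have hR0 : 0 ≤ R := by positivity
  obtain ⟨CA, hCA, hanc⟩ := anchor hp hz hm hc0p hR0
  obtain ⟨B, hB, hbd⟩ := parts_bdd p z e R hR0
  obtain ⟨L, hL, htay⟩ := parts_tay p z e R hR0
  set M := pdeg p z with hM
  set E : ℝ := ‖e‖ + 1 with hE
  have hE1 : 1 ≤ E := by rw [hE]; linarith [norm_nonneg e]
  set κ : ℝ := ((M + 2 : ℕ) : ℝ) / c0 with hκ
  have hκ0 : 0 ≤ κ := by positivity
  set Z : ℝ := κ * L + L * (2 * κ * CA) +
    ((M + 2 : ℕ) : ℝ) * 2 ^ (M + 2) * (CA + L * (2 * κ * CA)) + 1 with hZ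
  have hZ0 : 0 < Z := by positivity
  set ρ : ℝ := min (min 1 (ρ1 / 2)) (min (c0 * (ρ1 / (2 * E)) / (((M + 2 : ℕ) : ℝ) * (B + 1)))
    (1 / (2 * Z))) with hρ
  have hρ0 : 0 < ρ := by
    refine lt_min (lt_min one_pos (by positivity)) (lt_min ?_ (by positivity))
    have : (0 : ℝ) < ((M + 2 : ℕ) : ℝ) := by positivity
    positivity
  have hρa : ρ ≤ 1 := (min_le_left _ _).trans (min_le_left _ _)
  have hρb : ρ ≤ ρ1 / 2 := (min_le_left _ _).trans (min_le_right _ _)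
  have hρc : ρ ≤ c0 * (ρ1 / (2 * E)) / (((M + 2 : ℕ) : ℝ) * (B + 1)) :=
    (min_le_right _ _).trans (min_le_left _ _)
  have hρd : ρ ≤ 1 / (2 * Z) := (min_le_right _ _).trans (min_le_right _ _)
  have hρZ : ρ * Z ≤ 1 / 2 := by
    rw [le_div_iff₀ (by positivity)] at hρd
    linarith
  refine ⟨ρ, hρ0, hρa, 2 * (((M + 2 : ℕ) : ℝ) * 2 ^ (M + 2) * (CA + L * (2 * κ * CA))),
    by positivity, fun r w hr hw h0 => ?_⟩
  set a : ℕ → ℝ := fun i => MvPolynomial.eval w (part p z (m + 1 + i)) with ha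
  have hwR : ∀ i, |w i| ≤ R := by
    intro i
    have e1 : w i = u0 i + (w i - u0 i) := by ring
    rw [e1]
    have := abs_add_le (u0 i) (w i - u0 i)
    linarith [hw i, abs_coord_le u0 i]
  have hr1 : |r| ≤ 1 := hr.trans hρa
  have hsum : ∑ i ∈ Finset.range (M + 2), r ^ i * a i = 0 := by
    rw [eval_HJ] at h0
    rw [← h0]
    refine Finset.sum_congr rfl fun i _ => ?_
    simp [ha]
  have haB : ∀ i, |a i| ≤ B := fun i => (hbd w hwR (m + 1 + i)).1
  have hδ : ρ1 / (2 * E) ≤ 1 := by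
    rw [div_le_one (by positivity)]; linarith
  have ha0 : |a 0| ≤ c0 * (ρ1 / (2 * E)) := by
    have hsum' := hsum
    rw [Finset.sum_range_succ'] at hsum'
    simp only [pow_zero, one_mul] at hsum'
    have e1 : a 0 = - ∑ i ∈ Finset.range (M + 1), r ^ (i + 1) * a (i + 1) := by linarith
    rw [e1, abs_neg]
    refine (Finset.abs_sum_le_sum_abs _ _).trans ?_
    have : ∀ i ∈ Finset.range (M + 1), |r ^ (i + 1) * a (i + 1)| ≤ ρ * (B + 1) := by
      intro i _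
      rw [abs_mul, abs_pow]
      refine mul_le_mul ?_ (by linarith [haB (i + 1)]) (abs_nonneg _) hρ0.le
      calc |r| ^ (i + 1) ≤ |r| ^ 1 := pow_le_pow_of_le_one (abs_nonneg r) hr1 (by omega)
        _ = |r| := pow_one _
        _ ≤ ρ := hr
    refine (Finset.sum_le_sum this).trans ?_
    rw [Finset.sum_const, Finset.card_range, nsmul_eq_mul]
    rw [le_div_iff₀ (by positivity)] at hρc
    calc ((M + 1 : ℕ) : ℝ) * (ρ * (B + 1)) ≤ ((M + 2 : ℕ) : ℝ) * (ρ * (B + 1)) := by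
          apply mul_le_mul_of_nonneg_right _ (by positivity)
          push_cast; linarith
      _ = ρ * (((M + 2 : ℕ) : ℝ) * (B + 1)) := by ring
      _ ≤ _ := hρc
  have hEe : ∀ i, |e i| ≤ E := fun i => (abs_coord_le e i).trans (by rw [hE]; linarith)
  have hnear : ∀ s : ℝ, |s| ≤ ρ1 / (2 * E) → ∀ i, |(w + s • e) i - u0 i| ≤ ρ1 := by
    intro s hs' i
    have e1 : (w + s • e) i - u0 i = (w i - u0 i) + s * e i := by
      simp only [Pi.add_apply, Pi.smul_apply, smul_eq_mul]; ring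
    rw [e1]
    have h1 : |s * e i| ≤ ρ1 / 2 := by
      rw [abs_mul]
      calc |s| * |e i| ≤ ρ1 / (2 * E) * E := mul_le_mul hs' (hEe i) (abs_nonneg _) (by positivity)
        _ = ρ1 / 2 := by field_simp
    have := abs_add_le (w i - u0 i) (s * e i)
    linarith [hw i]
  obtain ⟨s, hs1, hs2⟩ := ift_line (q := part p z (m + 1)) (x := w) (e := e) hc0p
    (fun s hs' => hbox _ (hnear s hs')) ha0
  have hs3 : |s| ≤ ρ1 / (2 * E) := by
    refine hs1.trans ?_
    rw [div_le_iff₀ hc0p, mul_comm]; exact ha0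
  have hwbR : ∀ i, |(w + s • e) i| ≤ R := by
    intro i
    have e1 : (w + s • e) i = u0 i + ((w + s • e) i - u0 i) := by ring
    rw [e1]
    have := abs_add_le (u0 i) ((w + s • e) i - u0 i)
    linarith [hnear s hs3 i, abs_coord_le u0 i]
  obtain ⟨hn, hj⟩ := hanc (w + s • e) hwbR hs2 (hbox _ (hnear s hs3))
  set g0 := - MvPolynomial.eval (w + s • e) (part p z (m + 2)) with hg0
  have key := transfer_arith (M := M) (a := a)
    (b := fun i => MvPolynomial.eval (w + s • e) (part p z (m + 1 + i))) (r := r) (s := s)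
    (g0 := g0) (c0 := c0) (CA := CA) (L := L) (ρ := ρ) hc0p hCA hL (by rw [hg0]; linarith) hr hρa
    hρZ hsum hs1 (fun j => by rw [add_assoc]; exact hj (1 + j)) (fun j => by
      have := (htay (m + 1 + j) w 0 hwR (by simp [hR0]) 0 s (by simp)
        (hs3.trans hδ)).1
      simp only [smul_zero, add_zero, zero_mul, sub_zero, ne_eq, OfNat.ofNat_ne_zero,
        not_false_eq_true, zero_pow, zero_add] at this
      exact this) (by rw [hg0]; simp)
  obtain ⟨k1, k2⟩ := key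
  have k3 : g0 / 2 ≤ - MvPolynomial.eval w (HJ p z (m + 1) 1 r) := by
    rw [eval_HJ]; exact k2
  have hg00 : 0 ≤ g0 := by rw [hg0]; linarith
  refine ⟨by linarith, fun j => ?_⟩
  rw [eval_HJ]
  have h5 : |∑ i ∈ Finset.range (NN p z), (i.choose j : ℝ) * r ^ (i - j) *
      MvPolynomial.eval w (part p z (m + 1 + i))| ≤
      ((M + 2 : ℕ) : ℝ) * (2 ^ (M + 2) * ((CA + L * (2 * κ * CA)) * g0)) := by
    refine (Finset.abs_sum_le_sum_abs _ _).trans ?_
    have : ∀ i ∈ Finset.range (NN p z), |(i.choose j : ℝ) * r ^ (i - j) *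
        MvPolynomial.eval w (part p z (m + 1 + i))| ≤
        2 ^ (M + 2) * ((CA + L * (2 * κ * CA)) * g0) := by
      intro i hi
      rw [abs_mul]
      exact mul_le_mul (coef_le _ hi j hr1) (k1 i) (abs_nonneg _) (by positivity)
    refine (Finset.sum_le_sum this).trans ?_
    rw [Finset.sum_const, Finset.card_range, nsmul_eq_mul]
    exact le_rfl
  refine h5.trans ?_
  calc _ = 2 * (((M + 2 : ℕ) : ℝ) * 2 ^ (M + 2) * (CA + L * (2 * κ * CA))) * (g0 / 2) := by ring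
    _ ≤ _ := mul_le_mul_of_nonneg_left k3 (by positivity)

end Vale.Agent.P256.H326
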