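import Vale.Agent.P256.H326.Est1

/-! Second estimate near an ordinary singular boundary point. -/

set_option linter.all false

namespace Vale.Agent.P256.H326

open Filter Topology Vale.Agent.P256 Polynomial

variable {n : ℕ} {p : MvPolynomial (Fin n) ℝ} {e : Fin n → ℝ}

theorem near_box2 {f : ℝ × (Fin n → ℝ) → ℝ} (hf : Continuous f) {u0 : Fin n → ℝ} {c : ℝ}
    (h : c < f (0, u0)) : ∃ ρ : ℝ, 0 < ρ ∧ ρ ≤ 1 ∧ ∀ (r : ℝ) (w : Fin n → ℝ), |r| ≤ ρ →
      (∀ i, |w i - u0 i| ≤ ρ) → c ≤ f (r, w) := by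
  have h1 := (hf.tendsto (0, u0)).eventually (lt_mem_nhds h)
  obtain ⟨r, hr, h2⟩ := Metric.eventually_nhds_iff.1 h1
  refine ⟨min 1 (r / 2), by positivity, min_le_left _ _, fun r' w hr' hw => (h2 ?_).le⟩
  rw [Prod.dist_eq, max_lt_iff]
  constructor
  · rw [Real.dist_eq, sub_zero]
    have := hr'.trans (min_le_right _ _)
    linarith
  · have : dist w u0 ≤ r / 2 := by
      rw [dist_pi_le_iff (by positivity)]
      intro i
      rw [Real.dist_eq]
      exact (hw i).trans (min_le_right _ _)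
    linarith

theorem continuous_dd_HJ (p : MvPolynomial (Fin n) ℝ) (z : Fin n → ℝ) (m j : ℕ) (v : Fin n → ℝ) :
    Continuous (fun q : ℝ × (Fin n → ℝ) => dd (HJ p z m j q.1) q.2 v) := by
  simp only [dd_HJ]
  refine continuous_finsetSum _ fun i _ => ?_
  exact (continuous_const.mul (continuous_fst.pow _)).mul
    ((continuous_dd (part p z (m + i)) v).comp continuous_snd)

theorem continuous_eval_HJ (p : MvPolynomial (Fin n) ℝ) (z : Fin n → ℝ) (m j : ℕ) :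
    Continuous (fun q : ℝ × (Fin n → ℝ) => MvPolynomial.eval q.2 (HJ p z m j q.1)) := by
  simp only [eval_HJ]
  refine continuous_finsetSum _ fun i _ => ?_
  exact (continuous_const.mul (continuous_fst.pow _)).mul
    ((continuous_eval (part p z (m + i))).comp continuous_snd)

theorem sum_zero_pow_HJ (N : ℕ) (j : ℕ) (f : ℕ → ℝ) :
    ∑ i ∈ Finset.range N, ((i.choose j : ℝ) * (0 : ℝ) ^ (i - j)) * f i =
      if j < N then f j else 0 := by
  split_ifs with hj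
  · rw [Finset.sum_eq_single j]
    · simp
    · intro i _ hi
      rcases lt_or_gt_of_ne hi with h | h
      · rw [Nat.choose_eq_zero_of_lt h]; simp
      · have : i - j ≠ 0 := by omega
        rw [zero_pow this]; simp
    · intro h
      exact absurd (Finset.mem_range.2 hj) h
  · refine Finset.sum_eq_zero fun i hi => ?_
    have h1 := Finset.mem_range.1 hi
    rw [Nat.choose_eq_zero_of_lt (by omega)]; simp

theorem dd_HJ0 (p : MvPolynomial (Fin n) ℝ) (z : Fin n → ℝ) (m : ℕ) (w v : Fin n → ℝ) :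
    dd (HJ p z m 0 0) w v = dd (part p z m) w v := by
  rw [dd_HJ, sum_zero_pow_HJ, if_pos (by unfold NN; omega)]
  rfl

theorem eval_HJ0 (p : MvPolynomial (Fin n) ℝ) (z : Fin n → ℝ) (m : ℕ) (w : Fin n → ℝ) :
    MvPolynomial.eval w (HJ p z m 0 0) = MvPolynomial.eval w (part p z m) := by
  rw [eval_HJ, sum_zero_pow_HJ, if_pos (by unfold NN; omega)]
  rfl

/-- one-dimensional Glaeser inequality -/
theorem glaeser1 {t0 B K : ℝ} (ht0 : 0 < t0) (hB : 0 ≤ B) (hK : 0 ≤ K) :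
    ∃ C : ℝ, 0 ≤ C ∧ ∀ Ψ A : ℝ, 0 ≤ Ψ → Ψ ≤ B →
      (∀ t : ℝ, |t| ≤ t0 → 0 ≤ Ψ + t * A + K * t ^ 2) → |A| ≤ C * Real.sqrt Ψ := by
  set l : ℝ := t0 / (Real.sqrt B + 1) with hl
  have hl0 : 0 < l := by positivity
  refine ⟨1 / l + K * l, by positivity, fun Ψ A h0 hΨ h => ?_⟩
  rcases h0.eq_or_lt with h1 | h1
  · rw [← h1, Real.sqrt_zero, mul_zero]
    refine nonpos_of_le_small (K := K) ht0 hK fun t ht htt => ?_
    have a1 := h t (by rw [abs_of_pos ht]; exact htt)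
    have a2 := h (-t) (by rw [abs_neg, abs_of_pos ht]; exact htt)
    rw [← h1] at a1 a2
    rw [abs_le]
    constructor <;> nlinarith
  · set q := Real.sqrt Ψ with hq
    have hq0 : 0 < q := Real.sqrt_pos.2 h1
    have hq2 : q ^ 2 = Ψ := Real.sq_sqrt h0
    have hqB : q ≤ Real.sqrt B := Real.sqrt_le_sqrt hΨ
    have hlq : l * q ≤ t0 := by
      rw [hl, div_mul_eq_mul_div, div_le_iff₀ (by positivity)]
      nlinarith
    have hlq0 : 0 < l * q := by positivity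
    have a1 := h (l * q) (by rw [abs_of_pos hlq0]; exact hlq)
    have a2 := h (-(l * q)) (by rw [abs_neg, abs_of_pos hlq0]; exact hlq)
    have a3 : (l * q) * |A| ≤ q ^ 2 + K * (l * q) ^ 2 := by
      rcases abs_cases A with ⟨h3, _⟩ | ⟨h3, _⟩ <;> rw [h3] <;> nlinarith
    have a4 : (l * q) * |A| ≤ (l * q) * ((1 / l + K * l) * q) := by
      refine a3.trans (le_of_eq ?_)
      field_simp
    exact le_of_mul_le_mul_left a4 hlq0

/-- the end of the proof of the second estimate -/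
theorem est2_core {p : MvPolynomial (Fin n) ℝ} {z w v e : Fin n → ℝ} {m j : ℕ}
    {r Ce K c1 K2 t0 δ Ca Cb g : ℝ}
    (hCe : 0 ≤ Ce) (hK : 0 ≤ K) (hg : g = - MvPolynomial.eval w (HJ p z m 1 r))
    (hg0 : 0 ≤ g) (hgK : g ≤ K) (hφ : |MvPolynomial.eval w (HJ p z m j r)| ≤ Ce * g)
    (hφK : |MvPolynomial.eval w (HJ p z m j r)| ≤ K)
    (hCa : 0 ≤ Ca) (hga : ∀ Ψ A : ℝ, 0 ≤ Ψ → Ψ ≤ K →
      (∀ t : ℝ, |t| ≤ t0 → 0 ≤ Ψ + t * A + K2 * t ^ 2) → |A| ≤ Ca * Real.sqrt Ψ)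
    (hCb : 0 ≤ Cb) (hgb : ∀ Ψ A : ℝ, 0 ≤ Ψ → Ψ ≤ (Ce + 1) * K →
      (∀ t : ℝ, |t| ≤ t0 → 0 ≤ Ψ + t * A + ((Ce + 1) * K2) * t ^ 2) → |A| ≤ Cb * Real.sqrt Ψ)
    (hc : ∀ t : ℝ, |t| ≤ t0 → ∃ s : ℝ,
      0 ≤ - MvPolynomial.eval (w + t • v + s • e) (HJ p z m 1 r) ∧
      |MvPolynomial.eval (w + t • v + s • e) (HJ p z m j r)| ≤
        Ce * (- MvPolynomial.eval (w + t • v + s • e) (HJ p z m 1 r)) ∧
      |MvPolynomial.eval (w + t • v + s • e) (HJ p z m 1 r) -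
        MvPolynomial.eval w (HJ p z m 1 r) - t * dd (HJ p z m 1 r) w v| ≤ K2 * t ^ 2 ∧
      |MvPolynomial.eval (w + t • v + s • e) (HJ p z m j r) -
        MvPolynomial.eval w (HJ p z m j r) - t * dd (HJ p z m j r) w v| ≤ K2 * t ^ 2) :
    |dd (HJ p z m j r) w v| ≤ (Ce * Ca + Cb * Real.sqrt (2 * Ce)) * Real.sqrt g := by
  rw [abs_le] at hφ hφK
  have hA : |-(dd (HJ p z m 1 r) w v)| ≤ Ca * Real.sqrt g := by
    refine hga g _ hg0 hgK fun t ht => ?_
    obtain ⟨s, h1, h2, h3, h4⟩ := hc t ht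
    rw [abs_le] at h3
    rw [hg]
    linarith [h3.1, h3.2]
  have hB : |-(Ce * dd (HJ p z m 1 r) w v) + dd (HJ p z m j r) w v| ≤
      Cb * Real.sqrt (Ce * g + MvPolynomial.eval w (HJ p z m j r)) := by
    refine hgb _ _ (by linarith [hφ.1]) ?_ fun t ht => ?_
    · have := mul_le_mul_of_nonneg_left hgK hCe
      linarith [hφK.2]
    · obtain ⟨s, h1, h2, h3, h4⟩ := hc t ht
      rw [abs_le] at h2 h3 h4
      have h5 := mul_le_mul_of_nonneg_left h3.1 hCe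
      rw [hg]
      linarith [h2.1, h4.2, h5]
  have hsq : Real.sqrt (Ce * g + MvPolynomial.eval w (HJ p z m j r)) ≤
      Real.sqrt (2 * Ce) * Real.sqrt g := by
    rw [← Real.sqrt_mul (by positivity)]
    exact Real.sqrt_le_sqrt (by linarith [hφ.2])
  have e1 : dd (HJ p z m j r) w v = Ce * dd (HJ p z m 1 r) w v +
      (-(Ce * dd (HJ p z m 1 r) w v) + dd (HJ p z m j r) w v) := by ring
  rw [e1]
  refine (abs_add_le _ _).trans ?_
  rw [abs_mul, abs_of_nonneg hCe]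
  rw [abs_neg] at hA
  calc _ ≤ Ce * (Ca * Real.sqrt g) + Cb * (Real.sqrt (2 * Ce) * Real.sqrt g) :=
        add_le_add (mul_le_mul_of_nonneg_left hA hCe)
          (hB.trans (mul_le_mul_of_nonneg_left hsq hCb))
    _ = _ := by ring

/-- the curve on the zero set through a point in a tangential direction -/
theorem curve_ex {q : MvPolynomial (Fin n) ℝ} {w v e : Fin n → ℝ} {c1 δ t0 K : ℝ}
    (hc1p : 0 < c1) (hK : 0 ≤ K) (ht03 : K * t0 ^ 2 ≤ c1 * δ)
    (hbox : ∀ t s : ℝ, |t| ≤ t0 → |s| ≤ δ → c1 ≤ dd q (w + t • v + s • e) e)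
    (htay : ∀ t : ℝ, |t| ≤ t0 → |MvPolynomial.eval (w + t • v) q| ≤ K * t ^ 2) :
    ∀ t : ℝ, |t| ≤ t0 → ∃ s : ℝ, |s| ≤ δ ∧ |s| ≤ K * t ^ 2 / c1 ∧
      MvPolynomial.eval (w + t • v + s • e) q = 0 := by
  intro t ht
  have h1 := htay t ht
  have h2 : K * t ^ 2 ≤ K * t0 ^ 2 := by
    apply mul_le_mul_of_nonneg_left _ hK
    rw [← sq_abs]
    exact pow_le_pow_left₀ (abs_nonneg _) ht 2
  obtain ⟨s, hs1, hs2⟩ := ift_line (q := q) (x := w + t • v) (e := e) hc1p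
    (δ := δ) (fun s hs' => hbox t s ht hs') (h1.trans (h2.trans ht03))
  have hs3 : |s| ≤ K * t ^ 2 / c1 := hs1.trans (div_le_div_of_nonneg_right h1 hc1p.le)
  refine ⟨s, hs3.trans ?_, hs3, hs2⟩
  rw [div_le_iff₀ hc1p, mul_comm δ]
  exact h2.trans ht03

/-- **Second estimate** near an ordinary singular point. -/
theorem est2 (hp : IsHyperbolic p e) {z : Fin n → ℝ} (hz : z ∈ hypCone p e) {m : ℕ}
    (hm : ∀ k < m + 1, part p z k = 0) {u0 : Fin n → ℝ}
    (hu0 : MvPolynomial.eval u0 (part p z (m + 1)) = 0)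
    (hs : 0 < dd (part p z (m + 1)) u0 e) (V : ℝ) (hV : 0 ≤ V) :
    ∃ ρ : ℝ, 0 < ρ ∧ ∃ C : ℝ, 0 ≤ C ∧ ∀ (r : ℝ) (w : Fin n → ℝ), |r| ≤ ρ →
      (∀ i, |w i - u0 i| ≤ ρ) → MvPolynomial.eval w (HJ p z (m + 1) 0 r) = 0 →
      ∀ v : Fin n → ℝ, (∀ i, |v i| ≤ V) → dd (HJ p z (m + 1) 0 r) w v = 0 → ∀ j,
      |dd (HJ p z (m + 1) j r) w v| ≤
        C * Real.sqrt (- MvPolynomial.eval w (HJ p z (m + 1) 1 r)) := by
  obtain ⟨ρe, hρe, hρe1, Ce, hCe, hest⟩ := est1 hp hz hm hu0 hs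
  set c1 : ℝ := dd (part p z (m + 1)) u0 e / 2 with hc1
  have hc1p : 0 < c1 := by positivity
  obtain ⟨ρ2, hρ2, hρ2', hbox⟩ := near_box2 (continuous_dd_HJ p z (m + 1) 0 e) (u0 := u0)
    (c := c1) (by simp only [dd_HJ0]; rw [hc1]; linarith)
  set R : ℝ := ‖u0‖ + 2 + V with hR
  have hR0 : 0 ≤ R := by positivity
  obtain ⟨K, hK, htay⟩ := HJ_tay p z e (m + 1) R hR0
  set ρ : ℝ := min ρe ρ2 / 2 with hρ
  have hρ0 : 0 < ρ := by rw [hρ]; have := lt_min hρe hρ2; linarith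
  have hρa : 2 * ρ ≤ ρe := by rw [hρ]; linarith [min_le_left ρe ρ2]
  have hρb : 2 * ρ ≤ ρ2 := by rw [hρ]; linarith [min_le_right ρe ρ2]
  have hρ1 : ρ ≤ 1 := by linarith
  set E : ℝ := ‖e‖ + 1 with hE
  have hE1 : 1 ≤ E := by rw [hE]; linarith [norm_nonneg e]
  set δ : ℝ := ρ / (2 * E) with hδ
  have hδ0 : 0 < δ := by positivity
  have hδE : δ * E = ρ / 2 := by rw [hδ]; field_simp
  have hδ1 : δ ≤ 1 := by nlinarith only [hδE, hE1, hδ0, hρ1]
  set t0 : ℝ := min (min 1 (ρ / (2 * (V + 1)))) (c1 * δ / (K + 1)) with ht0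
  have ht0p : 0 < t0 := by
    refine lt_min (lt_min one_pos (by positivity)) (by positivity)
  have ht01 : t0 ≤ 1 := (min_le_left _ _).trans (min_le_left _ _)
  have ht02 : t0 * V ≤ ρ / 2 := by
    have h1 : t0 ≤ ρ / (2 * (V + 1)) := (min_le_left _ _).trans (min_le_right _ _)
    rw [le_div_iff₀ (by positivity)] at h1
    linarith only [h1, ht0p]
  have ht03 : K * t0 ^ 2 ≤ c1 * δ := by
    have h1 : t0 ≤ c1 * δ / (K + 1) := min_le_right _ _
    rw [le_div_iff₀ (by positivity)] at h1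
    have h2 : K * t0 ^ 2 ≤ K * t0 := by
      apply mul_le_mul_of_nonneg_left _ hK
      nlinarith only [ht01, ht0p]
    linarith only [h1, h2, ht0p]
  set K2 : ℝ := K * (1 + K / c1) with hK2
  have hK20 : 0 ≤ K2 := by positivity
  obtain ⟨Ca, hCa, hga⟩ := glaeser1 (B := K) ht0p hK hK20
  obtain ⟨Cb, hCb, hgb⟩ := glaeser1 (B := (Ce + 1) * K) (K := (Ce + 1) * K2) ht0p
    (by positivity) (by positivity)
  refine ⟨ρ, hρ0, Ce * Ca + Cb * Real.sqrt (2 * Ce), by positivity,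
    fun r w hr hw h0 v hv hdv j => ?_⟩
  have hr1 : |r| ≤ 1 := hr.trans hρ1
  have hre : |r| ≤ ρe := hr.trans (by linarith only [hρa, hρ0])
  have hr2 : |r| ≤ ρ2 := hr.trans (by linarith only [hρb, hρ0])
  have hwR : ∀ i, |w i| ≤ R := by
    intro i
    have e1 : w i = u0 i + (w i - u0 i) := by ring
    rw [e1]
    have := abs_add_le (u0 i) (w i - u0 i)
    linarith only [this, hw i, abs_coord_le u0 i, hρ1, hV, hR]
  have hvR : ∀ i, |v i| ≤ R := fun i =>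
    (hv i).trans (by rw [hR]; linarith only [norm_nonneg u0])
  have hEe : ∀ i, |e i| ≤ E := fun i =>
    (abs_coord_le e i).trans (by rw [hE]; linarith only [])
  have hnear : ∀ t s : ℝ, |t| ≤ t0 → |s| ≤ δ → ∀ i, |(w + t • v + s • e) i - u0 i| ≤ 2 * ρ := by
    intro t s ht hs' i
    have e1 : (w + t • v + s • e) i - u0 i = (w i - u0 i) + t * v i + s * e i := by
      simp only [Pi.add_apply, Pi.smul_apply, smul_eq_mul]; ring
    rw [e1]
    have h1 : |s * e i| ≤ ρ / 2 := by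
      rw [abs_mul, ← hδE]
      exact mul_le_mul hs' (hEe i) (abs_nonneg _) hδ0.le
    have h2 : |t * v i| ≤ ρ / 2 := by
      rw [abs_mul]
      exact (mul_le_mul ht (hv i) (abs_nonneg _) ht0p.le).trans ht02
    have := abs_add_three (w i - u0 i) (t * v i) (s * e i)
    linarith only [this, hw i, h1, h2]
  have curve := curve_ex (q := HJ p z (m + 1) 0 r) (w := w) (v := v) (e := e) hc1p hK ht03
    (fun t s ht hs' => hbox r _ hr2 (fun i => (hnear t s ht hs' i).trans hρb))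
    (fun t ht => by
      have := (htay 0 r hr1 w v hwR hvR t 0 (ht.trans ht01) (by simp)).1
      rw [h0, hdv] at this
      simpa using this)
  obtain ⟨hg0, hgj⟩ := hest r w hre (fun i => (hw i).trans (by linarith only [hρa, hρ0])) h0
  have hK1 : ∀ j, |MvPolynomial.eval w (HJ p z (m + 1) j r)| ≤ K := fun j =>
    (htay j r hr1 w v hwR hvR 0 0 (by simp) (by simp)).2.2
  refine est2_core (K := K) (K2 := K2) (t0 := t0) (Ce := Ce) (c1 := c1) (δ := δ) (e := e) hCe hK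
    rfl hg0 ?_ (hgj j) (hK1 j) hCa hga hCb hgb fun t ht => ?_
  · have := hK1 1
    rw [abs_le] at this
    linarith only [this.1]
  · obtain ⟨s, hs1, hs2, hs3⟩ := curve t ht
    obtain ⟨h1, h1'⟩ := hest r (w + t • v + s • e) hre
      (fun i => (hnear t s ht hs1 i).trans hρa) hs3
    have taylor : ∀ j, |MvPolynomial.eval (w + t • v + s • e) (HJ p z (m + 1) j r) -
        MvPolynomial.eval w (HJ p z (m + 1) j r) - t * dd (HJ p z (m + 1) j r) w v| ≤
        K2 * t ^ 2 := by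
      intro j
      refine ((htay j r hr1 w v hwR hvR t s (ht.trans ht01) (hs1.trans hδ1)).1).trans ?_
      rw [hK2]
      calc K * (t ^ 2 + |s|) ≤ K * (t ^ 2 + K * t ^ 2 / c1) := by gcongr
        _ = _ := by ring
    exact ⟨s, h1, h1' j, taylor 1, taylor j⟩

end Vale.Agent.P256.H326
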