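import Vale.Agent.P256.H326.Coef

/-! Diagonalizing frame at a smooth boundary point. -/

set_option linter.all false

namespace Vale.Agent.P256.H326

open Filter Topology Vale.Agent.P256

/-- diagonalization of a real symmetric form -/
theorem spectral_form {n : ℕ} {H : Matrix (Fin n) (Fin n) ℝ} (hH : H.IsHermitian) :
    ∃ (b : Fin n → Fin n → ℝ) (l : Fin n → ℝ),
      (∀ i i', ∑ k, b i k * b i' k = if i = i' then 1 else 0) ∧
      (∀ (v : Fin n → ℝ) j, v j = ∑ i, (∑ k, b i k * v k) * b i j) ∧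
      ∀ v : Fin n → ℝ, ∑ i, ∑ j, H i j * v i * v j = ∑ i, l i * (∑ k, b i k * v k) ^ 2 := by
  classical
  set U : Matrix (Fin n) (Fin n) ℝ := (hH.eigenvectorUnitary : Matrix (Fin n) (Fin n) ℝ) with hU
  have h1 : Matrix.transpose U * U = 1 := by
    have := Unitary.coe_star_mul_self hH.eigenvectorUnitary
    rw [Matrix.star_eq_conjTranspose, Matrix.conjTranspose_eq_transpose_of_trivial] at this
    exact this
  have h2 : U * Matrix.transpose U = 1 := mul_eq_one_comm.1 h1
  have h3 : H = U * Matrix.diagonal hH.eigenvalues * Matrix.transpose U := by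
    have := hH.spectral_theorem
    rw [Unitary.conjStarAlgAut_apply, Matrix.star_eq_conjTranspose,
      Matrix.conjTranspose_eq_transpose_of_trivial] at this
    exact this
  refine ⟨fun i k => U k i, hH.eigenvalues, fun i i' => ?_, fun v j => ?_, fun v => ?_⟩
  · have := congrFun (congrFun h1 i) i'
    rw [Matrix.mul_apply, Matrix.one_apply] at this
    exact this
  · have := fun k => congrFun (congrFun h2 j) k
    simp only [Matrix.mul_apply, Matrix.one_apply, Matrix.transpose_apply] at this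
    simp only [Finset.sum_mul]
    rw [Finset.sum_comm]
    have h4 : ∀ k, ∑ i, U k i * v k * U j i = (if j = k then 1 else 0) * v k := by
      intro k
      rw [← this k, Finset.sum_mul]
      exact Finset.sum_congr rfl fun i _ => by ring
    rw [Finset.sum_congr rfl fun k _ => h4 k]
    simp
  · have h4 : ∀ i j, H i j = ∑ k, U i k * hH.eigenvalues k * U j k := by
      intro i j
      conv_lhs => rw [h3]
      rw [Matrix.mul_apply]
      refine Finset.sum_congr rfl fun k _ => ?_
      rw [Matrix.mul_diagonal, Matrix.transpose_apply]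
    have h5 : ∀ k, hH.eigenvalues k * (∑ j, U j k * v j) ^ 2 =
        ∑ i, ∑ j, (U i k * hH.eigenvalues k * U j k) * v i * v j := by
      intro k
      rw [sq, Finset.sum_mul_sum, Finset.mul_sum]
      refine Finset.sum_congr rfl fun i _ => ?_
      rw [Finset.mul_sum]
      exact Finset.sum_congr rfl fun j _ => by ring
    simp only [h5, h4]
    rw [Finset.sum_comm (s := Finset.univ) (t := Finset.univ)
      (f := fun k i => ∑ j, U i k * hH.eigenvalues k * U j k * v i * v j)]
    refine Finset.sum_congr rfl fun i _ => ?_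
    rw [Finset.sum_comm]
    refine Finset.sum_congr rfl fun j _ => ?_
    rw [Finset.sum_mul, Finset.sum_mul]

variable {n : ℕ} {p : MvPolynomial (Fin n) ℝ} {e : Fin n → ℝ}

/-- the slack normalized by its value at `e` -/
noncomputable def kap (p : MvPolynomial (Fin n) ℝ) (e y v : Fin n → ℝ) : ℝ := dd p y v / dd p y e

/-- the projection to the tangent space along `e` -/
noncomputable def tpr (p : MvPolynomial (Fin n) ℝ) (e y : Fin n → ℝ) :
    (Fin n → ℝ) →ₗ[ℝ] (Fin n → ℝ) where
  toFun v := v - kap p e y v • e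
  map_add' v w := by
    simp only [kap, dd_add, add_div, add_smul]; abel
  map_smul' c v := by
    simp only [kap, dd_smul, mul_div_assoc, mul_smul, RingHom.id_apply, smul_sub]

theorem tpr_apply (y v : Fin n → ℝ) : tpr p e y v = v - kap p e y v • e := rfl

theorem dd_tpr {y : Fin n → ℝ} (hs : 0 < dd p y e) (v : Fin n → ℝ) :
    dd p y (tpr p e y v) = 0 := by
  rw [tpr_apply, dd_sub, dd_smul, kap, div_mul_cancel₀ _ hs.ne', sub_self]

theorem part2_eq (p : MvPolynomial (Fin n) ℝ) (y w : Fin n → ℝ) :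
    dd2 p y w = 2 * MvPolynomial.eval w (part p y 2) := by
  have := eval_DL_pow p y w 2
  rw [dd2_eq_DL, ← Module.End.mul_apply, ← sq, this]
  norm_num [Nat.factorial]

theorem part1_eq (p : MvPolynomial (Fin n) ℝ) (y w : Fin n → ℝ) :
    dd p y w = MvPolynomial.eval w (part p y 1) := by
  have := eval_DL_pow p y w 1
  rw [pow_one, eval_DL] at this
  rw [this]; norm_num [Nat.factorial]

theorem continuous_part (p : MvPolynomial (Fin n) ℝ) (k : ℕ) :
    Continuous (fun z : (Fin n → ℝ) × (Fin n → ℝ) => MvPolynomial.eval z.2 (part p z.1 k)) := by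
  have h1 : ∀ z : (Fin n → ℝ) × (Fin n → ℝ), MvPolynomial.eval z.2 (part p z.1 k) =
      (k.factorial : ℝ)⁻¹ * MvPolynomial.eval (Sum.elim z.1 (fun o => Option.elim o 0 z.2))
        (Fp k p) := by
    intro z
    rw [eval_Fp']
    have e1 : np (Sum.elim z.1 (fun o => Option.elim o 0 z.2)) = z.2 := rfl
    have e2 : zp (Sum.elim z.1 (fun o => Option.elim o 0 z.2)) = z.1 := rfl
    rw [e1, e2, ← mul_assoc, inv_mul_cancel₀ (by positivity), one_mul]
  simp only [h1]
  refine continuous_const.mul (evc (Fp k p) (φ := fun z : (Fin n → ℝ) × (Fin n → ℝ) =>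
    Sum.elim z.1 (fun o => Option.elim o 0 z.2)) ?_)
  refine continuous_pi fun i => ?_
  rcases i with i | _ | i
  · simp only [Sum.elim_inl]; fun_prop
  · simp only [Sum.elim_inr, Option.elim]; fun_prop
  · simp only [Sum.elim_inr, Option.elim]; fun_prop

/-- the matrix of the curvature form -/
noncomputable def curvM (p : MvPolynomial (Fin n) ℝ) (y : Fin n → ℝ)
    (T : (Fin n → ℝ) →ₗ[ℝ] (Fin n → ℝ)) : Matrix (Fin n) (Fin n) ℝ :=
  fun i j => ∑ k, ∑ l, -(1 / 2) * (T (Pi.single i 1) k * T (Pi.single j 1) l) *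
    MvPolynomial.eval y (MvPolynomial.pderiv k (MvPolynomial.pderiv l p))

theorem lin_apply (T : (Fin n → ℝ) →ₗ[ℝ] (Fin n → ℝ)) (v : Fin n → ℝ) (k : Fin n) :
    T v k = ∑ i, v i * T (Pi.single i 1) k := by
  classical
  have hv : v = ∑ j, v j • (Pi.single j (1 : ℝ) : Fin n → ℝ) := by
    ext i
    simp [Finset.sum_apply, Pi.single_apply]
  conv_lhs => rw [hv]
  rw [map_sum, Finset.sum_apply]
  exact Finset.sum_congr rfl fun j _ => by rw [map_smul, Pi.smul_apply, smul_eq_mul]

theorem curvM_form (y : Fin n → ℝ) (T : (Fin n → ℝ) →ₗ[ℝ] (Fin n → ℝ)) (v : Fin n → ℝ) :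
    ∑ i, ∑ j, curvM p y T i j * v i * v j = - (1 / 2) * dd2 p y (T v) := by
  have h1 : dd2 p y (T v) = ∑ k, ∑ l, ∑ i, ∑ j,
      (T (Pi.single i 1) k * T (Pi.single j 1) l) *
        MvPolynomial.eval y (MvPolynomial.pderiv k (MvPolynomial.pderiv l p)) * v i * v j := by
    unfold dd2
    refine Finset.sum_congr rfl fun k _ => Finset.sum_congr rfl fun l _ => ?_
    rw [lin_apply T v k, lin_apply T v l, Finset.sum_mul_sum, Finset.sum_mul]
    refine Finset.sum_congr rfl fun i _ => ?_
    rw [Finset.sum_mul]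
    exact Finset.sum_congr rfl fun j _ => by ring
  have h2 : ∑ i, ∑ j, curvM p y T i j * v i * v j = ∑ i, ∑ j, ∑ k, ∑ l,
      -(1 / 2) * ((T (Pi.single i 1) k * T (Pi.single j 1) l) *
        MvPolynomial.eval y (MvPolynomial.pderiv k (MvPolynomial.pderiv l p)) * v i * v j) := by
    refine Finset.sum_congr rfl fun i _ => Finset.sum_congr rfl fun j _ => ?_
    unfold curvM
    rw [Finset.sum_mul, Finset.sum_mul]
    refine Finset.sum_congr rfl fun k _ => ?_
    rw [Finset.sum_mul, Finset.sum_mul]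
    exact Finset.sum_congr rfl fun l _ => by ring
  rw [h2, h1]
  have h3 : ∀ F : Fin n → Fin n → Fin n → Fin n → ℝ,
      ∑ i, ∑ j, ∑ k, ∑ l, -(1 / 2) * F k l i j = -(1 / 2) * ∑ k, ∑ l, ∑ i, ∑ j, F k l i j := by
    intro F
    simp only [← Finset.mul_sum]
    congr 1
    calc ∑ i, ∑ j, ∑ k, ∑ l, F k l i j = ∑ i, ∑ k, ∑ j, ∑ l, F k l i j :=
          Finset.sum_congr rfl fun i _ => Finset.sum_comm
      _ = ∑ k, ∑ i, ∑ j, ∑ l, F k l i j := Finset.sum_comm
      _ = ∑ k, ∑ i, ∑ l, ∑ j, F k l i j :=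
          Finset.sum_congr rfl fun k _ => Finset.sum_congr rfl fun i _ => Finset.sum_comm
      _ = ∑ k, ∑ l, ∑ i, ∑ j, F k l i j :=
          Finset.sum_congr rfl fun k _ => Finset.sum_comm
  exact h3 fun k l i j => (T (Pi.single i 1) k * T (Pi.single j 1) l) *
        MvPolynomial.eval y (MvPolynomial.pderiv k (MvPolynomial.pderiv l p)) * v i * v j

theorem curvM_herm (y : Fin n → ℝ) (T : (Fin n → ℝ) →ₗ[ℝ] (Fin n → ℝ)) :
    (curvM p y T).IsHermitian := by
  unfold Matrix.IsHermitian
  ext i j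
  rw [Matrix.conjTranspose_apply, star_trivial]
  unfold curvM
  rw [Finset.sum_comm]
  refine Finset.sum_congr rfl fun k _ => Finset.sum_congr rfl fun l _ => ?_
  rw [pderiv_comm' k l]; ring

/-- the frame at a smooth boundary point -/
theorem exists_frame (hp : IsHyperbolic p e) {y : Fin n → ℝ} (hy : y ∈ hypCone p e)
    (hy0 : MvPolynomial.eval y p = 0) (hs : 0 < dd p y e) :
    ∃ (b : Fin n → Fin n → ℝ) (c : Fin n → ℝ), (∀ i, 0 ≤ c i) ∧ (∀ i j, |b i j| ≤ 1) ∧
      (∀ i i', ∑ k, b i k * b i' k = if i = i' then 1 else 0) ∧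
      (∀ (v : Fin n → ℝ) j, v j = ∑ i, (∑ k, b i k * v k) * b i j) ∧
      (∀ v, - MvPolynomial.eval (tpr p e y v) (part p y 2) =
        ∑ i, c i ^ 2 * (∑ k, b i k * v k) ^ 2) ∧
      ∀ i, c i = Real.sqrt (- MvPolynomial.eval (tpr p e y (b i)) (part p y 2)) := by
  obtain ⟨b, l, h1, h2, h3⟩ := spectral_form (curvM_herm (p := p) y (tpr p e y))
  have h4 : ∀ v, ∑ i, l i * (∑ k, b i k * v k) ^ 2 =
      - MvPolynomial.eval (tpr p e y v) (part p y 2) := by
    intro v
    rw [← h3, curvM_form, part2_eq]; ring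
  have hl : ∀ i, l i = - MvPolynomial.eval (tpr p e y (b i)) (part p y 2) := by
    intro i
    rw [← h4]
    have : ∀ i', l i' * (∑ k, b i' k * b i k) ^ 2 = if i' = i then l i else 0 := by
      intro i'
      rw [h1]
      by_cases h : i' = i
      · subst h; simp
      · simp [h]
    rw [Finset.sum_congr rfl fun i' _ => this i']
    simp
  have hl0 : ∀ i, 0 ≤ l i := by
    intro i
    have := (curvature hp hy hy0 hs (dd_tpr hs (b i))).1
    rw [part2_eq] at this
    rw [hl]; linarith
  refine ⟨b, fun i => Real.sqrt (l i), fun i => Real.sqrt_nonneg _, fun i j => ?_, h1, h2,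
    fun v => ?_, fun i => by rw [← hl]⟩
  · have h5 := h1 i i
    rw [if_pos rfl] at h5
    have h6 : b i j * b i j ≤ ∑ k, b i k * b i k :=
      Finset.single_le_sum (f := fun k => b i k * b i k) (fun k _ => mul_self_nonneg _)
        (Finset.mem_univ j)
    rw [h5] at h6
    exact abs_le_one_iff_mul_self_le_one.2 h6
  · rw [← h4]
    exact Finset.sum_congr rfl fun i _ => by rw [Real.sq_sqrt (hl0 i)]

end Vale.Agent.P256.H326
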