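import Vale.Agent.P256.H326.B4Defs

/-! The class `Gen`. -/

namespace Vale.Agent.P256.H326

open MvPolynomial

/-- `Gen p e`: the hyperbolic polynomial `p`, with direction `e`, is obtained in finitely many
steps from hyperbolic polynomials in at most four variables (of any degree and with any
singularities), good cubics, and iterated derivatives of polynomials with ordinary boundary, by
composition with linear maps, products, changes of the polynomial which do not change the cone,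
changes of the direction in the interior of the cone, quadratic extensions, norm extensions,
spectral extensions, and sums `p₁ + p₂` with `D_z p₁ = D_z p₂ = h`, `h` hyperbolic, `D_z h = 0`,
for a common point `z` of the two cones.

Norm extension: `p(x) = q(y(x))` where `q` is even in the coordinates of a set `J`, `y_j(x)` is
the Euclidean norm of a linear map `B_j x` with `B_j e = 0` for `j ∈ J`, and a linear form for
`j ∉ J`.

Spectral extension: `p(x) = q(A x, λ(x))` where `q(u, y)` is invariant under the permutations of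
the coordinates of `y` and `λ(x)` are the eigenvalues of a symmetric matrix `X x`, linear in `x`,
`X e` a multiple of the identity. -/
inductive Gen : ∀ {n : ℕ}, MvPolynomial (Fin n) ℝ → (Fin n → ℝ) → Prop
  | four {n : ℕ} {p : MvPolynomial (Fin n) ℝ} {e : Fin n → ℝ} :
      n ≤ 4 → IsHyperbolic p e → Gen p e
  | cubic {n : ℕ} {p : MvPolynomial (Fin n) ℝ} {e : Fin n → ℝ} : GoodCubic p e → Gen p e
  | deriv {n : ℕ} {p : MvPolynomial (Fin n) ℝ} {e : Fin n → ℝ} (as : List (Fin n → ℝ)) :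
      OrdinaryCone p e → (∀ a ∈ as, a ∈ interior (hypCone p e)) → as.foldr polarDeriv p ≠ 0 →
      Gen (as.foldr polarDeriv p) e
  | comp {n k : ℕ} {p : MvPolynomial (Fin n) ℝ} {q : MvPolynomial (Fin k) ℝ} {e : Fin n → ℝ}
      (A : (Fin n → ℝ) →ₗ[ℝ] (Fin k → ℝ)) :
      (∀ x, eval x p = eval (A x) q) → Gen q (A e) → Gen p e
  | mul {n : ℕ} {p q : MvPolynomial (Fin n) ℝ} {e : Fin n → ℝ} :
      Gen p e → Gen q e → Gen (p * q) e
  | cone {n : ℕ} {p q : MvPolynomial (Fin n) ℝ} {e : Fin n → ℝ} :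
      IsHyperbolic p e → hypCone p e = hypCone q e → Gen q e → Gen p e
  | dir {n : ℕ} {p : MvPolynomial (Fin n) ℝ} {e f : Fin n → ℝ} :
      f ∈ interior (hypCone p e) → Gen p e → Gen p f
  | ext {n k : ℕ} {p : MvPolynomial (Fin n) ℝ} {q : MvPolynomial (Fin k) ℝ} {e : Fin n → ℝ}
      (ρ : (Fin n → ℝ) →ₗ[ℝ] ℝ) (A : (Fin n → ℝ) →ₗ[ℝ] (Fin k → ℝ))
      (B : (Fin n → ℝ) →ₗ[ℝ] (Fin n → ℝ) →ₗ[ℝ] (Fin k → ℝ)) :
      ρ e = 1 → (∀ x, B e x + B x e = 0) → (∀ x, B x x ∈ hypCone q (A e)) →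
      (∀ x, eval x p = eval (ρ x • A x - B x x) q) → Gen q (A e) → Gen p e
  | norm {n k m : ℕ} {p : MvPolynomial (Fin n) ℝ} {q : MvPolynomial (Fin k) ℝ} {e : Fin n → ℝ}
      (J : Finset (Fin k)) (A : (Fin n → ℝ) →ₗ[ℝ] (Fin k → ℝ))
      (B : Fin k → (Fin n → ℝ) →ₗ[ℝ] (Fin m → ℝ)) :
      EvenIn J q → (∀ j ∈ J, A e j = 0) → (∀ j ∈ J, B j e = 0) →
      (∀ x, eval x p = eval (nmap J A B x) q) → Gen q (A e) → Gen p e
  | spec {n a k : ℕ} {p : MvPolynomial (Fin n) ℝ} {q : MvPolynomial (Fin (a + k)) ℝ}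
      {e : Fin n → ℝ} (A : (Fin n → ℝ) →ₗ[ℝ] (Fin a → ℝ))
      (X : (Fin n → ℝ) →ₗ[ℝ] Matrix (Fin k) (Fin k) ℝ) (c : ℝ) :
      SymmLast q → (∀ x, (X x).IsSymm) → X e = c • (1 : Matrix (Fin k) (Fin k) ℝ) →
      (∀ x y, (X x).charpoly = ∏ i, (Polynomial.X - Polynomial.C (y i)) →
        eval x p = eval (Fin.append (A x) y) q) →
      Gen q (Fin.append (A e) fun _ => c) → Gen p e
  | sum {n d : ℕ} {p₁ p₂ : MvPolynomial (Fin n) ℝ} {e : Fin n → ℝ} (z : Fin n → ℝ) :
      p₁.IsHomogeneous d → p₂.IsHomogeneous d → polarDeriv z p₁ = polarDeriv z p₂ →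
      IsHyperbolic (polarDeriv z p₁) e → polarDeriv z (polarDeriv z p₁) = 0 →
      z ∈ hypCone p₁ e → z ∈ hypCone p₂ e → Gen p₁ e → Gen p₂ e → Gen (p₁ + p₂) e

end Vale.Agent.P256.H326
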