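import Vale.Agent.P256.H326.Frame

set_option linter.all false

namespace Vale.Agent.P256.H326

open Filter Topology Vale.Agent.P256

section Germ

variable {L X : Type*} {F : Filter L} {G : Filter X}

theorem GermFR.pow' {h : L → X → ℝ} {c : ℝ} (H : GermFR F G h c) (k : ℕ) :
    GermFR F G (fun l x => h l x ^ k) (c ^ k) := by
  induction k with
  | zero => simpa using (GermFR.const (F := F) (G := G) 1)
  | succ k ih => exact (ih.mul H).congr (fun l x => pow_succ _ _) (pow_succ _ _)

theorem GermFR.prod' {ι : Type*} (s : Finset ι) {h : ι → L → X → ℝ} {c : ι → ℝ}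
    (H : ∀ i ∈ s, GermFR F G (h i) (c i)) :
    GermFR F G (fun l x => ∏ i ∈ s, h i l x) (∏ i ∈ s, c i) := by
  classical
  induction s using Finset.induction_on with
  | empty => simpa using (GermFR.const (F := F) (G := G) 1)
  | insert i s hi ih =>
    have h1 := H i (Finset.mem_insert_self i s)
    have h2 := ih (fun j hj => H j (Finset.mem_insert_of_mem hj))
    refine (h1.mul h2).congr (fun l x => ?_) ?_
    · rw [Finset.prod_insert hi]
    · rw [Finset.prod_insert hi]

theorem GermFR.ite0 {h : L → X → ℝ} (H : GermFR F G h 0) (P : Prop) [Decidable P] :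
    GermFR F G (fun l x => if P then h l x else 0) 0 := by
  by_cases hP : P
  · simpa [hP] using H
  · simpa [hP] using (GermFR.const (F := F) (G := G) 0)

/-- the germ of a form of degree `≥ 3` dominated by `Σ c_i² u_i²` -/
theorem germ_err {n : ℕ} {U : Ultrafilter L} {G : Filter X} {k : ℕ} (hk : 3 ≤ k)
    (Q : L → MvPolynomial (Fin n) ℝ) (hQ : ∀ l, (Q l).IsHomogeneous k) (c : Fin n → L → ℝ)
    (hc0 : ∀ᶠ l in (U : Filter L), ∀ i, 0 ≤ c i l) {B : ℝ} (hB : 0 ≤ B)
    (hQc : ∀ᶠ l in (U : Filter L), ∀ u : Fin n → ℝ, (∀ i, |u i| ≤ 1) →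
      |MvPolynomial.eval u (Q l)| ≤ B * ∑ i, c i l ^ 2 * u i ^ 2)
    (u : Fin n → L → X → ℝ) (hu : ∀ i, GermFR (U : Filter L) G (u i) 0) :
    ∃ E : Fin n → Fin n → L → X → ℝ, (∀ a b, GermFR (U : Filter L) G (E a b) 0) ∧
      ∀ᶠ l in (U : Filter L), ∀ x, MvPolynomial.eval (fun i => u i l x) (Q l) =
        ∑ a, ∑ b, E a b l x * (c a l * u a l x) * (c b l * u b l x) := by
  classical
  obtain ⟨C, hC, hcoef⟩ := coefR n k
  have hsum : ∀ m : {m // m ∈ expo n k}, 2 ≤ ∑ i, m.1 i := by
    intro m
    rw [mem_expo.1 m.2]; omega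
  choose m' a b hm hev using fun m : {m // m ∈ expo n k} => exists_split U c (hsum m)
  set ρ : {m // m ∈ expo n k} → L → ℝ := fun m l =>
    MvPolynomial.coeff m.1 (Q l) / (c (a m) l * c (b m) l) with hρ
  have hbound : ∀ m, ∀ᶠ l in (U : Filter L),
      |MvPolynomial.coeff m.1 (Q l)| ≤ C * B * (c (a m) l * c (b m) l) := by
    intro m
    filter_upwards [hev m, hc0, hQc] with l h1 h2 h3
    have h4 := hcoef (Q l) (hQ l) B (fun i => c i l) hB h2 h3 (m' m) (a m) (b m) h1.1 h1.2
    rw [← hm m] at h4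
    exact h4
  have hρ1 : ∀ m, ∀ᶠ l in (U : Filter L), |ρ m l| ≤ C * B := by
    intro m
    filter_upwards [hbound m, hc0] with l h1 h2
    rw [hρ]
    simp only
    rw [abs_div, abs_of_nonneg (mul_nonneg (h2 (a m)) (h2 (b m)))]
    exact div_le_of_le_mul₀ (mul_nonneg (h2 (a m)) (h2 (b m))) (by positivity) h1
  have hρ2 : ∀ m, ∀ᶠ l in (U : Filter L),
      MvPolynomial.coeff m.1 (Q l) = ρ m l * (c (a m) l * c (b m) l) := by
    intro m
    filter_upwards [hbound m, hc0] with l h1 h2
    by_cases h0 : c (a m) l * c (b m) l = 0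
    · rw [h0, mul_zero] at h1 ⊢
      exact abs_nonpos_iff.1 h1
    · rw [hρ]; simp only
      rw [div_mul_cancel₀ _ h0]
  choose ρ0 _ hρt using fun m => exists_tendsto U (hρ1 m)
  have hterm : ∀ m, GermFR (U : Filter L) G (fun l x => ρ m l * ∏ i, u i l x ^ (m' m) i) 0 := by
    intro m
    have h1 : GermFR (U : Filter L) G (fun l x => ∏ i, u i l x ^ (m' m) i)
        (∏ i, (0 : ℝ) ^ (m' m) i) := GermFR.prod' _ fun i _ => GermFR.pow' (hu i) _
    have h2 : ∏ i, (0 : ℝ) ^ (m' m) i = 0 := by
      have h3 : ∑ i, (m' m) i ≠ 0 := by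
        have h4 := mem_expo.1 m.2
        rw [hm m] at h4
        simp only [Finsupp.add_apply, Finset.sum_add_distrib, Finsupp.single_apply] at h4
        simp at h4
        omega
      obtain ⟨i, _, hi⟩ := Finset.exists_ne_zero_of_sum_ne_zero h3
      exact Finset.prod_eq_zero (Finset.mem_univ i) (zero_pow hi)
    exact ((GermFR.left (hρt m)).mul h1).congr (fun l x => rfl) (by rw [h2, mul_zero])
  refine ⟨fun a' b' l x => ∑ m, if a m = a' ∧ b m = b' then ρ m l * ∏ i, u i l x ^ (m' m) i else 0,
    fun a' b' => ?_, ?_⟩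
  · refine (GermFR.sum Finset.univ (c := fun _ => 0) fun m _ => GermFR.ite0 (hterm m) _).congr
      (fun l x => rfl) (by simp)
  · have h1 : ∀ᶠ l in (U : Filter L), ∀ m, MvPolynomial.coeff m.1 (Q l) =
        ρ m l * (c (a m) l * c (b m) l) := eventually_all.2 hρ2
    filter_upwards [h1] with l hl x
    rw [eval_homog (hQ l), ← Finset.sum_coe_sort]
    have h2 : ∀ m : {m // m ∈ expo n k}, MvPolynomial.coeff m.1 (Q l) * ∏ i, u i l x ^ m.1 i =
        ∑ a', ∑ b', (if a m = a' ∧ b m = b' then ρ m l * ∏ i, u i l x ^ (m' m) i else 0) *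
          (c a' l * u a' l x) * (c b' l * u b' l x) := by
      intro m
      rw [Finset.sum_eq_single (a m), Finset.sum_eq_single (b m)]
      · rw [if_pos ⟨rfl, rfl⟩, hl m]
        have h3 : ∏ i, u i l x ^ m.1 i =
            (∏ i, u i l x ^ (m' m) i) * u (b m) l x * u (a m) l x := by
          conv_lhs => rw [hm m]
          simp only [Finsupp.add_apply, pow_add, Finset.prod_mul_distrib]
          congr 1
          · congr 1
            rw [Finset.prod_eq_single (b m)]
            · simp
            · intro i _ hi; simp [Finsupp.single_apply, Ne.symm hi]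
            · simp
          · rw [Finset.prod_eq_single (a m)]
            · simp
            · intro i _ hi; simp [Finsupp.single_apply, Ne.symm hi]
            · simp
        rw [h3]; ring
      · intro b' _ hb'
        rw [if_neg (fun h => hb' h.2.symm)]; ring
      · simp
      · intro a' _ ha'
        refine Finset.sum_eq_zero fun b' _ => ?_
        rw [if_neg (fun h => ha' h.1.symm)]; ring
      · simp
    rw [Finset.sum_congr rfl fun m _ => h2 m, Finset.sum_comm]
    refine Finset.sum_congr rfl fun a' _ => ?_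
    rw [Finset.sum_comm]
    refine Finset.sum_congr rfl fun b' _ => ?_
    rw [Finset.sum_mul, Finset.sum_mul]

end Germ

end Vale.Agent.P256.H326
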