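import Vale.Agent.P256.H721.Lift
import Vale.Agent.P256.H326.B4Defs

/-! Norm extension: `p(x) = q(y(x))` where each coordinate of `y` is a linear form or a Euclidean
norm of a linear map vanishing at `e`, and `q` is even in the norm coordinates. -/

namespace Vale.Agent.P256.H326

open MvPolynomial Matrix

variable {n k m : ℕ}

theorem EvenIn.abs {J : Finset (Fin k)} {q : MvPolynomial (Fin k) ℝ} (h : EvenIn J q)
    {y y' : Fin k → ℝ} (h1 : ∀ j ∈ J, y j = y' j ∨ y j = -y' j) (h2 : ∀ j ∉ J, y j = y' j) :
    eval y q = eval y' q := by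
  classical
  -- change the coordinates one at a time
  have key : ∀ S : Finset (Fin k), S ⊆ J →
      eval (fun j => if j ∈ S then y j else y' j) q = eval y' q := by
    intro S
    induction S using Finset.induction_on with
    | empty => intro _; simp
    | insert a S ha ih =>
      intro hS
      have haJ : a ∈ J := hS (Finset.mem_insert_self _ _)
      have hSJ : S ⊆ J := fun b hb => hS (Finset.mem_insert_of_mem hb)
      rw [← ih hSJ]
      set u : Fin k → ℝ := fun j => if j ∈ S then y j else y' j with hu
      have hua : u a = y' a := by simp [hu, ha]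
      rcases h1 a haJ with h3 | h3
      · have h4 : (fun j => if j ∈ insert a S then y j else y' j) = u := by
          funext j
          by_cases hj : j = a
          · subst hj; simp [hu, ha, h3]
          · simp [hu, hj, Finset.mem_insert]
        rw [h4]
      · rw [← h a haJ u]
        have h4 : (fun j => if j ∈ insert a S then y j else y' j) = Function.update u a (-u a) := by
          funext j
          by_cases hj : j = a
          · subst hj; simp [hua, h3]
          · simp [hu, hj, Finset.mem_insert]
        rw [h4]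
  have h3 := key J (Finset.Subset.refl _)
  rw [← h3]
  congr 1
  congr 1
  funext j
  by_cases hj : j ∈ J
  · simp [hj]
  · simp [hj, h2 j hj]

variable {p : MvPolynomial (Fin n) ℝ} {q : MvPolynomial (Fin k) ℝ} {e : Fin n → ℝ}
  {J : Finset (Fin k)} {A : (Fin n → ℝ) →ₗ[ℝ] (Fin k → ℝ)}
  {B : Fin k → (Fin n → ℝ) →ₗ[ℝ] (Fin m → ℝ)}

theorem nmap_line (hq : EvenIn J q) (hA : ∀ j ∈ J, A e j = 0) (hB : ∀ j ∈ J, B j e = 0)
    (x : Fin n → ℝ) (t : ℝ) :
    eval (nmap J A B (t • e - x)) q = eval (t • A e - nmap J A B x) q := by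
  refine hq.abs (fun j hj => ?_) fun j hj => ?_
  · right
    simp [nmap, hj, hA j hj, hB j hj]
  · simp [nmap, hj]

theorem nmap_smul (hq : EvenIn J q) {d : ℕ} (hd : q.IsHomogeneous d) (x : Fin n → ℝ) (c : ℝ) :
    eval (nmap J A B (c • x)) q = c ^ d * eval (nmap J A B x) q := by
  rw [← eval_smul' hd]
  refine hq.abs (fun j hj => ?_) fun j hj => ?_
  · have h1 : ∑ i, (B j (c • x) i) ^ 2 = c ^ 2 * ∑ i, (B j x i) ^ 2 := by
      rw [Finset.mul_sum]
      refine Finset.sum_congr rfl fun i _ => ?_
      rw [map_smul, Pi.smul_apply, smul_eq_mul, mul_pow]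
    have h2 : Real.sqrt (∑ i, (B j (c • x) i) ^ 2) = |c| * Real.sqrt (∑ i, (B j x i) ^ 2) := by
      rw [h1, Real.sqrt_mul (sq_nonneg c), Real.sqrt_sq_eq_abs]
    rcases abs_choice c with h3 | h3
    · left
      simp only [nmap, hj, if_true, h2, h3, Pi.smul_apply, smul_eq_mul]
    · right
      simp only [nmap, hj, if_true, h2, h3, Pi.smul_apply, smul_eq_mul]
      ring
  · simp [nmap, hj]

/-- homogeneity from the functional equation -/
theorem homog_of_smul {d : ℕ} (h : ∀ (x : Fin n → ℝ) (c : ℝ), eval (c • x) p = c ^ d * eval x p) :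
    p.IsHomogeneous d := by
  classical
  have h0 : ∀ j, j ≠ d → homogeneousComponent j p = 0 := by
    intro j hj
    apply MvPolynomial.funext
    intro x
    rw [map_zero]
    set N := max (p.totalDegree + 1) (max (d + 1) (j + 1)) with hN
    have h1 : ∀ c : ℝ, ∑ i ∈ Finset.range N, c ^ i * eval x (homogeneousComponent i p) =
        c ^ d * eval x p := by
      intro c
      rw [← h x c]
      have h2 : p = ∑ i ∈ Finset.range N, homogeneousComponent i p := by
        conv_lhs => rw [← sum_homogeneousComponent p]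
        refine Finset.sum_subset ?_ fun i _ hi => ?_
        · intro i hi
          rw [Finset.mem_range] at hi ⊢
          exact lt_of_lt_of_le hi (le_max_left _ _)
        · rw [Finset.mem_range, not_lt] at hi
          exact homogeneousComponent_eq_zero _ _ (by omega)
      conv_rhs => rw [h2]
      rw [map_sum]
      refine Finset.sum_congr rfl fun i _ => ?_
      rw [eval_smul' (homogeneousComponent_isHomogeneous i p)]
    have h3 : (∑ i ∈ Finset.range N, Polynomial.monomial i (eval x (homogeneousComponent i p)) :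
        Polynomial ℝ) = Polynomial.monomial d (eval x p) := by
      apply Polynomial.funext
      intro c
      rw [Polynomial.eval_finsetSum, Polynomial.eval_monomial, mul_comm (eval x p), ← h1 c]
      refine Finset.sum_congr rfl fun i _ => ?_
      rw [Polynomial.eval_monomial, mul_comm]
    have h4 := congrArg (fun f : Polynomial ℝ => f.coeff j) h3
    simp only [Polynomial.finsetSum_coeff, Polynomial.coeff_monomial] at h4
    rw [if_neg (fun h => hj h.symm), Finset.sum_ite_eq' (Finset.range N) j, if_pos] at h4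
    · exact h4
    · rw [Finset.mem_range, hN]
      omega
  have h1 : p = homogeneousComponent d p := by
    conv_lhs => rw [← sum_homogeneousComponent p]
    by_cases hd : d ∈ Finset.range (p.totalDegree + 1)
    · exact Finset.sum_eq_single_of_mem d hd fun j _ hj => h0 j hj
    · rw [Finset.mem_range, not_lt] at hd
      rw [homogeneousComponent_eq_zero d p (by omega)]
      refine Finset.sum_eq_zero fun j hj => h0 j ?_
      rintro rfl
      rw [Finset.mem_range] at hj
      omega
  rw [h1]
  exact homogeneousComponent_isHomogeneous d p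

theorem norm_hyp (hq : IsHyperbolic q (A e)) (hev : EvenIn J q) (hA : ∀ j ∈ J, A e j = 0)
    (hB : ∀ j ∈ J, B j e = 0) (hp : ∀ x, eval x p = eval (nmap J A B x) q) :
    IsHyperbolic p e := by
  obtain ⟨d, hd⟩ := hq.1
  have he : nmap J A B e = A e := by
    funext j
    by_cases hj : j ∈ J
    · simp [nmap, hj, hA j hj, hB j hj]
    · simp [nmap, hj]
  refine ⟨⟨d, homog_of_smul fun x c => by rw [hp, hp, nmap_smul hev hd]⟩, ?_, fun x t ht => ?_⟩
  · rw [hp, he]
    exact hq.2.1
  · have h1 : line p (-x) e = line q (-nmap J A B x) (A e) := by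
      apply Polynomial.funext
      intro s
      rw [eval_line, eval_line, hp]
      have h2 : -x + s • e = s • e - x := by abel
      have h3 : -nmap J A B x + s • A e = s • A e - nmap J A B x := by abel
      rw [h2, h3]
      exact nmap_line hev hA hB x s
    have h2 := aeval_line p (-x) e t
    have h3 := aeval_line q (-nmap J A B x) (A e) t
    rw [h1, h3] at h2
    refine hq.2.2 (nmap J A B x) t ?_
    have h4 : (fun i => t * ((A e) i : ℂ) - ((nmap J A B x) i : ℂ)) =
        fun i => (((-nmap J A B x) i : ℝ) : ℂ) + t * ((A e) i : ℂ) := by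
      funext i
      simp only [Pi.neg_apply, Complex.ofReal_neg]
      ring
    have h5 : (fun i => t * (e i : ℂ) - (x i : ℂ)) =
        fun i => (((-x) i : ℝ) : ℂ) + t * (e i : ℂ) := by
      funext i
      simp only [Pi.neg_apply, Complex.ofReal_neg]
      ring
    rw [h4, h2, ← h5]
    exact ht

theorem mem_norm (hev : EvenIn J q) (hA : ∀ j ∈ J, A e j = 0)
    (hB : ∀ j ∈ J, B j e = 0) (hp : ∀ x, eval x p = eval (nmap J A B x) q) (x : Fin n → ℝ) :
    x ∈ hypCone p e ↔ nmap J A B x ∈ hypCone q (A e) := by
  simp only [hypCone, Set.mem_ofPred_eq]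
  refine forall_congr' fun t => ?_
  rw [hp, nmap_line hev hA hB]

/-- the cone is symmetric, hence monotone, in the coordinates of `J` -/
theorem cone_flip (hev : EvenIn J q) {f : Fin k → ℝ} (hf : ∀ j ∈ J, f j = 0) {y : Fin k → ℝ}
    (hy : y ∈ hypCone q f) {j : Fin k} (hj : j ∈ J) :
    Function.update y j (-y j) ∈ hypCone q f := by
  intro t ht
  refine hy t ?_
  rw [← ht]
  refine hev.abs (fun i hi => ?_) fun i hi => ?_
  · by_cases hij : i = j
    · subst hij
      right
      simp [hf i hi]
    · left
      simp [Function.update_of_ne hij]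
  · have hij : i ≠ j := fun h => hi (h ▸ hj)
    simp [Function.update_of_ne hij]

theorem cone_shrink {f : Fin k → ℝ} (hq : IsHyperbolic q f) (hev : EvenIn J q) (hf : ∀ j ∈ J, f j = 0)
    {y : Fin k → ℝ} (hy : y ∈ hypCone q f) {j : Fin k} (hj : j ∈ J) {r : ℝ} (hr : |r| ≤ |y j|) :
    Function.update y j r ∈ hypCone q f := by
  by_cases h0 : y j = 0
  · have h1 : r = y j := by
      rw [h0, abs_zero] at hr
      rw [h0]
      exact abs_nonpos_iff.1 hr
    rw [h1, Function.update_eq_self]
    exact hy
  · have h1 : -1 ≤ r / y j ∧ r / y j ≤ 1 := by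
      rw [← abs_le, abs_div]
      exact div_le_one_of_le₀ hr (abs_nonneg _)
    have h2 : Function.update y j r =
        ((1 + r / y j) / 2) • y + ((1 - r / y j) / 2) • Function.update y j (-y j) := by
      funext i
      by_cases hij : i = j
      · subst hij
        simp only [Function.update_self, Pi.add_apply, Pi.smul_apply, smul_eq_mul]
        field_simp
        ring
      · simp only [Function.update_of_ne hij, Pi.add_apply, Pi.smul_apply, smul_eq_mul]
        ring
    rw [h2]
    exact K_add hq (K_smul hq hy (by linarith [h1.1]))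
      (K_smul hq (cone_flip hev hf hy hj) (by linarith [h1.2]))

theorem cone_shrink_all {f : Fin k → ℝ} (hq : IsHyperbolic q f) (hev : EvenIn J q) (hf : ∀ j ∈ J, f j = 0)
    {y y' : Fin k → ℝ} (hy : y ∈ hypCone q f) (h1 : ∀ j ∈ J, |y' j| ≤ |y j|)
    (h2 : ∀ j ∉ J, y' j = y j) : y' ∈ hypCone q f := by
  classical
  have key : ∀ S : Finset (Fin k), S ⊆ J → (fun j => if j ∈ S then y' j else y j) ∈ hypCone q f := by
    intro S
    induction S using Finset.induction_on with
    | empty => intro _; simpa using hy
    | insert a S ha ih =>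
      intro hS
      have haJ : a ∈ J := hS (Finset.mem_insert_self _ _)
      have hSJ : S ⊆ J := fun b hb => hS (Finset.mem_insert_of_mem hb)
      have h3 := cone_shrink hq hev hf (ih hSJ) haJ (r := y' a) (by simpa [ha] using h1 a haJ)
      have h4 : (fun j => if j ∈ insert a S then y' j else y j) =
          Function.update (fun j => if j ∈ S then y' j else y j) a (y' a) := by
        funext j
        by_cases hj : j = a
        · subst hj; simp
        · simp [hj]
      rw [h4]
      exact h3
  have h3 := key J (Finset.Subset.refl _)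
  have h4 : (fun j => if j ∈ J then y' j else y j) = y' := by
    funext j
    by_cases hj : j ∈ J
    · simp [hj]
    · simp [hj, h2 j hj]
  rwa [h4] at h3


/-! ### The lift -/

/-- arrow matrices in block form, linear part in `x` -/
def arr₁ (J : Finset (Fin k)) (B : Fin k → (Fin n → ℝ) →ₗ[ℝ] (Fin m → ℝ)) :
    (Fin n → ℝ) →ₗ[ℝ] Matrix (Fin k × Option (Fin m)) (Fin k × Option (Fin m)) ℝ where
  toFun x := Matrix.of fun a b => if a.1 = b.1 ∧ a.1 ∈ J then
    (match a.2, b.2 with
    | none, some i => B a.1 x i
    | some i, none => B a.1 x i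
    | _, _ => 0) else 0
  map_add' x y := by
    ext ⟨j, a⟩ ⟨j', b⟩
    by_cases h : j = j' ∧ j ∈ J
    · obtain ⟨rfl, h⟩ := h
      rcases a with _ | a <;> rcases b with _ | b <;> simp [h]
    · simp [h]
  map_smul' c x := by
    ext ⟨j, a⟩ ⟨j', b⟩
    by_cases h : j = j' ∧ j ∈ J
    · obtain ⟨rfl, h⟩ := h
      rcases a with _ | a <;> rcases b with _ | b <;> simp [h]
    · simp [h]

/-- arrow matrices in block form, diagonal part -/
def arr₂ (J : Finset (Fin k)) : (Fin k → ℝ) →ₗ[ℝ] Matrix (Fin k × Option (Fin m))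
    (Fin k × Option (Fin m)) ℝ where
  toFun r := Matrix.diagonal fun a => if a.1 ∈ J then r a.1 else 0
  map_add' r s := by
    ext ⟨j, a⟩ ⟨j', b⟩
    by_cases h : (j, a) = (j', b)
    · simp only [h, Matrix.diagonal_apply_eq, Matrix.add_apply, Pi.add_apply]
      split_ifs <;> simp
    · simp [Matrix.diagonal_apply_ne _ h]
  map_smul' c s := by
    ext ⟨j, a⟩ ⟨j', b⟩
    by_cases h : (j, a) = (j', b)
    · simp only [h, Matrix.diagonal_apply_eq, Matrix.smul_apply, Pi.smul_apply]
      split_ifs <;> simp
    · simp [Matrix.diagonal_apply_ne _ h]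

theorem arr_form (x : Fin n → ℝ) (r : Fin k → ℝ) (v : Fin k × Option (Fin m) → ℝ) :
    v ⬝ᵥ ((arr₁ J B x + arr₂ J r) *ᵥ v) = ∑ j ∈ J, (r j * v (j, none) ^ 2 +
      2 * v (j, none) * ∑ i, B j x i * v (j, some i) + r j * ∑ i, v (j, some i) ^ 2) := by
  classical
  rw [Matrix.add_mulVec, dotProduct_add]
  have h1 : v ⬝ᵥ (arr₂ J r *ᵥ v) = ∑ j ∈ J, (r j * v (j, none) ^ 2 +
      r j * ∑ i, v (j, some i) ^ 2) := by
    have h2 : v ⬝ᵥ (arr₂ J r *ᵥ v) = ∑ j, ∑ a, (if j ∈ J then r j * v (j, a) ^ 2 else 0) := by
      rw [dotProduct, Fintype.sum_prod_type]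
      refine Finset.sum_congr rfl fun j _ => Finset.sum_congr rfl fun a _ => ?_
      show v (j, a) * (Matrix.diagonal _ *ᵥ v) (j, a) = _
      rw [Matrix.mulVec_diagonal]
      split_ifs <;> ring
    rw [h2, ← Finset.sum_filter_add_sum_filter_not Finset.univ (fun j => j ∈ J)]
    have h3 : ∑ j ∈ Finset.univ.filter (fun j => ¬ j ∈ J),
        ∑ a, (if j ∈ J then r j * v (j, a) ^ 2 else 0) = 0 := by
      refine Finset.sum_eq_zero fun j hj => ?_
      rw [Finset.mem_filter] at hj
      exact Finset.sum_eq_zero fun a _ => if_neg hj.2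
    rw [h3, add_zero]
    have h4 : Finset.univ.filter (fun j => j ∈ J) = J := by ext j; simp
    rw [h4]
    refine Finset.sum_congr rfl fun j hj => ?_
    simp only [if_pos hj]
    rw [Fintype.sum_option, Finset.mul_sum]
  have h2 : v ⬝ᵥ (arr₁ J B x *ᵥ v) = ∑ j ∈ J,
      (2 * v (j, none) * ∑ i, B j x i * v (j, some i)) := by
    have h2 : v ⬝ᵥ (arr₁ J B x *ᵥ v) = ∑ j, (if j ∈ J then
        (2 * v (j, none) * ∑ i, B j x i * v (j, some i)) else 0) := by
      rw [dotProduct, Fintype.sum_prod_type]
      refine Finset.sum_congr rfl fun j _ => ?_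
      by_cases hj : j ∈ J
      · rw [if_pos hj, Fintype.sum_option]
        have h3 : ∀ a, (arr₁ J B x *ᵥ v) (j, a) = ∑ b, (match a, b with
            | none, some i => B j x i
            | some i, none => B j x i
            | _, _ => (0 : ℝ)) * v (j, b) := by
          intro a
          rw [Matrix.mulVec, dotProduct, Fintype.sum_prod_type, Finset.sum_eq_single j]
          · refine Finset.sum_congr rfl fun b _ => ?_
            simp [arr₁, hj]
          · intro j' _ hj'
            refine Finset.sum_eq_zero fun b _ => ?_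
            simp [arr₁, Ne.symm hj']
          · simp
        have h4 : (arr₁ J B x *ᵥ v) (j, none) = ∑ i, B j x i * v (j, some i) := by
          rw [h3, Fintype.sum_option]
          simp
        have h5 : ∀ i, (arr₁ J B x *ᵥ v) (j, some i) = B j x i * v (j, none) := by
          intro i
          rw [h3, Fintype.sum_option]
          simp
        rw [h4]
        simp only [h5]
        have h6 : ∑ i, v (j, some i) * (B j x i * v (j, none)) =
            v (j, none) * ∑ i, B j x i * v (j, some i) := by
          rw [Finset.mul_sum]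
          exact Finset.sum_congr rfl fun i _ => by ring
        rw [h6]
        ring
      · rw [if_neg hj]
        refine Finset.sum_eq_zero fun a _ => ?_
        have h3 : (arr₁ J B x *ᵥ v) (j, a) = 0 := by
          rw [Matrix.mulVec, dotProduct]
          refine Finset.sum_eq_zero fun b _ => ?_
          simp [arr₁, hj]
        rw [h3, mul_zero]
    rw [h2, ← Finset.sum_filter]
    congr 1
    ext j
    simp
  rw [h1, h2, ← Finset.sum_add_distrib]
  refine Finset.sum_congr rfl fun j _ => ?_
  ring


theorem arr_symm₁ (x : Fin n → ℝ) : (arr₁ J B x).IsSymm := by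
  ext ⟨j, a⟩ ⟨j', b⟩
  by_cases h : j = j'
  · subst h
    rcases a with _ | a <;> rcases b with _ | b <;> simp [arr₁, Matrix.transpose_apply]
  · simp [arr₁, Matrix.transpose_apply, h, Ne.symm h]

theorem arr_symm₂ (r : Fin k → ℝ) : (arr₂ (m := m) J r).IsSymm := by
  show (Matrix.diagonal _).IsSymm
  exact Matrix.isSymm_diagonal _

/-- the arrow matrix is psd iff the norms are bounded -/
theorem arr_psd (x : Fin n → ℝ) (r : Fin k → ℝ) :
    (arr₁ J B x + arr₂ J r).PosSemidef ↔
      ∀ j ∈ J, Real.sqrt (∑ i, (B j x i) ^ 2) ≤ r j := by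
  classical
  rw [posSemidef_iff_dotProduct_mulVec]
  constructor
  · rintro ⟨-, h⟩ j hj
    set s : ℝ := ∑ i, (B j x i) ^ 2 with hs
    have hs0 : 0 ≤ s := Finset.sum_nonneg fun i _ => sq_nonneg _
    set c : ℝ := Real.sqrt s with hc
    have hcc : c * c = s := Real.mul_self_sqrt hs0
    have hc0 : 0 ≤ c := Real.sqrt_nonneg _
    have key : ∀ (t : ℝ) (w : Fin m → ℝ), 0 ≤ r j * t ^ 2 + 2 * t * ∑ i, B j x i * w i +
        r j * ∑ i, w i ^ 2 := by
      intro t w
      have h1 := h (fun a => if a.1 = j then (match a.2 with | none => t | some i => w i) else 0)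
      rw [star_trivial, arr_form, Finset.sum_eq_single j] at h1
      · simpa using h1
      · intro b _ hb
        simp [hb]
      · intro h2
        exact absurd hj h2
    have h1 := key c (fun i => -(B j x i))
    have h2 : ∑ i, B j x i * -(B j x i) = -s := by
      rw [hs, ← Finset.sum_neg_distrib]
      exact Finset.sum_congr rfl fun i _ => by ring
    have h3 : ∑ i, (-(B j x i)) ^ 2 = s := by
      rw [hs]
      exact Finset.sum_congr rfl fun i _ => by ring
    rw [h2, h3, ← hcc] at h1
    have h4 := key 1 0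
    simp only [Pi.zero_apply, mul_zero, Finset.sum_const_zero, add_zero, one_pow, mul_one, ne_eq,
      OfNat.ofNat_ne_zero, not_false_eq_true, zero_pow] at h4
    rcases hc0.lt_or_eq with h5 | h5
    · have h6 : 0 ≤ 2 * c ^ 2 * (r j - c) := by
        have : r j * c ^ 2 + 2 * c * -(c * c) + r j * (c * c) = 2 * c ^ 2 * (r j - c) := by ring
        rwa [this] at h1
      have h7 : 0 < 2 * c ^ 2 := by positivity
      linarith [nonneg_of_mul_nonneg_right h6 h7]
    · rw [← h5]
      exact h4
  · intro h
    refine ⟨?_, fun v => ?_⟩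
    · rw [Matrix.IsHermitian, Matrix.conjTranspose_eq_transpose_of_trivial, Matrix.transpose_add,
        (arr_symm₁ x).eq, (arr_symm₂ r).eq]
    · rw [star_trivial, arr_form]
      refine Finset.sum_nonneg fun j hj => ?_
      have h1 := h j hj
      set s : ℝ := ∑ i, (B j x i) ^ 2 with hs
      have hs0 : 0 ≤ s := Finset.sum_nonneg fun i _ => sq_nonneg _
      set w : ℝ := ∑ i, v (j, some i) ^ 2 with hw
      have hw0 : 0 ≤ w := Finset.sum_nonneg fun i _ => sq_nonneg _
      set c : ℝ := ∑ i, B j x i * v (j, some i) with hc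
      have h2 : c ^ 2 ≤ s * w := Finset.sum_mul_sq_le_sq_mul_sq _ _ _
      have h3 : |c| ≤ r j * Real.sqrt w := by
        have h4 : |c| ≤ Real.sqrt (s * w) := Real.abs_le_sqrt h2
        rw [Real.sqrt_mul hs0] at h4
        exact h4.trans (mul_le_mul_of_nonneg_right h1 (Real.sqrt_nonneg _))
      have h5 : Real.sqrt w ^ 2 = w := Real.sq_sqrt hw0
      have hr : 0 ≤ r j := (Real.sqrt_nonneg _).trans h1
      have h6 : -(|v (j, none)| * |c|) ≤ v (j, none) * c := by
        rw [← abs_mul]
        exact neg_abs_le _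
      have h7 : |v (j, none)| * |c| ≤ |v (j, none)| * (r j * Real.sqrt w) :=
        mul_le_mul_of_nonneg_left h3 (abs_nonneg _)
      have h8 : 0 ≤ r j * (|v (j, none)| - Real.sqrt w) ^ 2 := mul_nonneg hr (sq_nonneg _)
      have h9 : |v (j, none)| ^ 2 = v (j, none) ^ 2 := sq_abs _
      nlinarith

/-- off-`J` coordinates of a linear map -/
def offJ (J : Finset (Fin k)) (A : (Fin n → ℝ) →ₗ[ℝ] (Fin k → ℝ)) :
    (Fin n → ℝ) →ₗ[ℝ] (Fin k → ℝ) where
  toFun x j := if j ∈ J then 0 else A x j
  map_add' x y := by
    funext j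
    by_cases h : j ∈ J <;> simp [h]
  map_smul' c x := by
    funext j
    by_cases h : j ∈ J <;> simp [h]

/-- coordinates of `J` -/
def onJ (J : Finset (Fin k)) : (Fin k → ℝ) →ₗ[ℝ] (Fin k → ℝ) where
  toFun r j := if j ∈ J then r j else 0
  map_add' x y := by
    funext j
    by_cases h : j ∈ J <;> simp [h]
  map_smul' c x := by
    funext j
    by_cases h : j ∈ J <;> simp [h]

/-- **Norm extension.** -/
theorem norm_ext (hq : IsHyperbolic q (A e)) (hS : GShad (hypCone q (A e))) (hev : EvenIn J q)
    (hA : ∀ j ∈ J, A e j = 0) (hB : ∀ j ∈ J, B j e = 0)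
    (hp : ∀ x, eval x p = eval (nmap J A B x) q) :
    IsHyperbolic p e ∧ GShad (hypCone p e) := by
  refine ⟨norm_hyp hq hev hA hB hp, ?_⟩
  have h1 := hS.exists_lmi (arr₁ J B) (arr₂ (m := m) J) arr_symm₁ arr_symm₂ (offJ J A) (onJ J)
  have h2 : hypCone p e = {x | ∃ z : Fin k → ℝ, (arr₁ J B x + arr₂ J z).PosSemidef ∧
      offJ J A x + onJ J z ∈ hypCone q (A e)} := by
    ext x
    rw [mem_norm hev hA hB hp, Set.mem_ofPred_eq]
    constructor
    · intro hx
      refine ⟨nmap J A B x, ?_, ?_⟩
      · rw [arr_psd]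
        intro j hj
        simp [nmap, hj]
      · have h3 : offJ J A x + onJ J (nmap J A B x) = nmap J A B x := by
          funext j
          by_cases hj : j ∈ J <;> simp [offJ, onJ, nmap, hj]
        rw [h3]
        exact hx
    · rintro ⟨z, hz, hz2⟩
      rw [arr_psd] at hz
      refine cone_shrink_all hq hev hA hz2 (fun j hj => ?_) fun j hj => ?_
      · have h3 := hz j hj
        have h4 := Real.sqrt_nonneg (∑ i, (B j x i) ^ 2)
        have h5 : (offJ J A x + onJ J z) j = z j := by simp [offJ, onJ, hj]
        have h6 : nmap J A B x j = Real.sqrt (∑ i, (B j x i) ^ 2) := by simp [nmap, hj]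
        rw [h5, h6, abs_of_nonneg h4]
        exact h3.trans (le_abs_self _)
      · simp [offJ, onJ, nmap, hj]
  rw [h2]
  exact h1

end Vale.Agent.P256.H326
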