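import Vale.Agent.P256.H326.ConicAbs

/-! Polar expansion near an ordinary singular boundary point. -/

set_option linter.all false

namespace Vale.Agent.P256.H326

open Filter Topology Vale.Agent.P256

variable {n : ℕ} {p : MvPolynomial (Fin n) ℝ} {e : Fin n → ℝ}

theorem line_HJ (p : MvPolynomial (Fin n) ℝ) (z : Fin n → ℝ) (m j : ℕ) (r : ℝ)
    (w v : Fin n → ℝ) : line (HJ p z m j r) w v = ∑ i ∈ Finset.range (NN p z),
      Polynomial.C ((i.choose j : ℝ) * r ^ (i - j)) * line (part p z (m + i)) w v := by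
  apply Polynomial.funext
  intro t
  rw [eval_line, eval_HJ, Polynomial.eval_finsetSum]
  exact Finset.sum_congr rfl fun i _ => by
    rw [Polynomial.eval_mul, Polynomial.eval_C, eval_line]

theorem natDegree_line_HJ (p : MvPolynomial (Fin n) ℝ) (z : Fin n → ℝ) (m j : ℕ) (r : ℝ)
    (w v : Fin n → ℝ) : (line (HJ p z m j r) w v).natDegree ≤ m + NN p z := by
  rw [line_HJ]
  refine Polynomial.natDegree_sum_le_of_forall_le _ _ fun i hi => ?_
  refine (Polynomial.natDegree_C_mul_le _ _).trans ?_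
  refine (line_top (part_homog p z (m + i)) w v).1.trans ?_
  have := Finset.mem_range.1 hi
  omega

theorem part_HJ (p : MvPolynomial (Fin n) ℝ) (z : Fin n → ℝ) (m j : ℕ) (r : ℝ)
    (w v : Fin n → ℝ) (k : ℕ) : MvPolynomial.eval v (part (HJ p z m j r) w k) =
      ∑ i ∈ Finset.range (NN p z), ((i.choose j : ℝ) * r ^ (i - j)) *
        MvPolynomial.eval v (part (part p z (m + i)) w k) := by
  rw [← coeff_line, line_HJ, Polynomial.finsetSum_coeff]
  exact Finset.sum_congr rfl fun i _ => by rw [Polynomial.coeff_C_mul, coeff_line]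

theorem continuous_part_HJ (p : MvPolynomial (Fin n) ℝ) (z : Fin n → ℝ) (m j k : ℕ) :
    Continuous (fun q : (ℝ × (Fin n → ℝ)) × (Fin n → ℝ) =>
      MvPolynomial.eval q.2 (part (HJ p z m j q.1.1) q.1.2 k)) := by
  have h4 : ∀ i, Continuous (fun q : (ℝ × (Fin n → ℝ)) × (Fin n → ℝ) =>
      ((i.choose j : ℝ) * q.1.1 ^ (i - j)) *
        MvPolynomial.eval q.2 (part (part p z (m + i)) q.1.2 k)) := by
    intro i
    have h2 : Continuous (fun q : (ℝ × (Fin n → ℝ)) × (Fin n → ℝ) =>
        (i.choose j : ℝ) * q.1.1 ^ (i - j)) := by fun_prop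
    have h3 : Continuous (fun q : (ℝ × (Fin n → ℝ)) × (Fin n → ℝ) => (q.1.2, q.2)) := by fun_prop
    have h5 := (continuous_part (part p z (m + i)) k).comp h3
    exact h2.mul h5
  have h6 := continuous_finsetSum (Finset.range (NN p z)) fun i _ => h4 i
  refine h6.congr fun q => ?_
  exact (part_HJ p z m j q.1.1 q.1.2 q.2 k).symm

/-- Taylor expansion in the radius -/
theorem taylor_HJ (p : MvPolynomial (Fin n) ℝ) (z : Fin n → ℝ) (m : ℕ) (r δ : ℝ)
    (w : Fin n → ℝ) : MvPolynomial.eval w (HJ p z m 0 (r + δ)) =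
      ∑ j ∈ Finset.range (NN p z), δ ^ j * MvPolynomial.eval w (HJ p z m j r) := by
  simp only [eval_HJ, Finset.mul_sum]
  rw [Finset.sum_comm]
  refine Finset.sum_congr rfl fun i hi => ?_
  have hi' := Finset.mem_range.1 hi
  have h1 : (r + δ) ^ i = ∑ j ∈ Finset.range (NN p z), δ ^ j * ((i.choose j : ℝ) * r ^ (i - j)) := by
    rw [add_comm, add_pow]
    have h2 : ∑ j ∈ Finset.range (i + 1), δ ^ j * r ^ (i - j) * (i.choose j : ℝ) =
        ∑ j ∈ Finset.range (NN p z), δ ^ j * r ^ (i - j) * (i.choose j : ℝ) := by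
      apply Finset.sum_subset
      · intro k hk
        rw [Finset.mem_range] at *
        omega
      · intro k _ hk
        rw [Finset.mem_range, not_lt] at hk
        rw [Nat.choose_eq_zero_of_lt (by omega)]; simp
    rw [h2]
    exact Finset.sum_congr rfl fun j _ => by ring
  simp only [Nat.choose_zero_right, Nat.cast_one, one_mul, Nat.sub_zero]
  rw [h1, Finset.sum_mul]
  exact Finset.sum_congr rfl fun j _ => by ring

theorem expand_gen {q : MvPolynomial (Fin n) ℝ} {K : ℕ} {y w : Fin n → ℝ}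
    (hK : (line q y w).natDegree < K) (t : ℝ) :
    MvPolynomial.eval (y + t • w) q = ∑ k ∈ Finset.range K, t ^ k *
      MvPolynomial.eval w (part q y k) := by
  rw [← eval_line, Polynomial.eval_eq_sum_range' hK]
  exact Finset.sum_congr rfl fun k _ => by rw [coeff_line]; ring

/-- degree bound used for the direction expansions -/
noncomputable def KK (p : MvPolynomial (Fin n) ℝ) (z : Fin n → ℝ) (m : ℕ) : ℕ := m + NN p z

theorem expand_HJ (p : MvPolynomial (Fin n) ℝ) (z : Fin n → ℝ) (m j : ℕ) (r : ℝ)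
    (y w : Fin n → ℝ) (t : ℝ) : MvPolynomial.eval (y + t • w) (HJ p z m j r) =
      MvPolynomial.eval y (HJ p z m j r) + t * dd (HJ p z m j r) y w +
      t ^ 2 * ∑ k ∈ Finset.range (KK p z m), t ^ k *
        MvPolynomial.eval w (part (HJ p z m j r) y (k + 2)) := by
  rw [expand_gen (K := KK p z m + 1 + 1) (lt_of_le_of_lt (natDegree_line_HJ p z m j r y w)
    (by unfold KK; omega)) t, Finset.sum_range_succ', Finset.sum_range_succ', Finset.mul_sum]
  simp only [zero_add, pow_zero, pow_one, one_mul]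
  rw [part0_eq, ← part1_eq]
  have : ∀ k ∈ Finset.range (KK p z m), t ^ (k + 1 + 1) *
      MvPolynomial.eval w (part (HJ p z m j r) y (k + 1 + 1)) =
      t ^ 2 * (t ^ k * MvPolynomial.eval w (part (HJ p z m j r) y (k + 2))) := fun k _ => by ring
  rw [Finset.sum_congr rfl this]; ring

/-- the expansion of the blown-up polynomial around the two points -/
theorem polar_identity {z : Fin n → ℝ} {m : ℕ} {ry rx : ℝ} {wy wx : Fin n → ℝ}
    (hy : MvPolynomial.eval wy (HJ p z m 0 ry) = 0) (hx : MvPolynomial.eval wx (HJ p z m 0 rx) = 0)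
    (hs : 0 < dd (HJ p z m 0 ry) wy e) :
    dd (HJ p z m 0 rx) wx e * kap (HJ p z m 0 ry) e wy (wx - wy) =
      - MvPolynomial.eval wy (HJ p z m 1 ry) * (rx - ry)
      - ∑ j ∈ Finset.range (pdeg p z), (rx - ry) ^ (j + 2) *
          MvPolynomial.eval wy (HJ p z m (j + 2) ry)
      - ∑ j ∈ Finset.range (pdeg p z + 1), (rx - ry) ^ (j + 1) *
          dd (HJ p z m (j + 1) ry) wy (tpr (HJ p z m 0 ry) e wy (wx - wy))
      - ∑ j ∈ Finset.range (NN p z), ∑ k ∈ Finset.range (KK p z m), (rx - ry) ^ j *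
          MvPolynomial.eval (tpr (HJ p z m 0 ry) e wy (wx - wy)) (part (HJ p z m j ry) wy (k + 2))
      + kap (HJ p z m 0 ry) e wy (wx - wy) ^ 2 * ∑ k ∈ Finset.range (KK p z m),
          (- kap (HJ p z m 0 ry) e wy (wx - wy)) ^ k *
            MvPolynomial.eval e (part (HJ p z m 0 rx) wx (k + 2)) := by
  set κ := kap (HJ p z m 0 ry) e wy (wx - wy) with hκ
  set v := tpr (HJ p z m 0 ry) e wy (wx - wy) with hv
  have h1 : wx + (-κ) • e = wy + (1 : ℝ) • v := by
    rw [hv, tpr_apply, one_smul, ← hκ, neg_smul]; abel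
  have e1 := expand_HJ p z m 0 rx wx e (-κ)
  rw [h1, hx] at e1
  have e2 := taylor_HJ p z m ry (rx - ry) (wy + (1 : ℝ) • v)
  rw [add_sub_cancel] at e2
  rw [e2] at e1
  have e3 : ∀ j ∈ Finset.range (NN p z), (rx - ry) ^ j *
      MvPolynomial.eval (wy + (1 : ℝ) • v) (HJ p z m j ry) =
      (rx - ry) ^ j * MvPolynomial.eval wy (HJ p z m j ry) +
      (rx - ry) ^ j * dd (HJ p z m j ry) wy v +
      ∑ k ∈ Finset.range (KK p z m), (rx - ry) ^ j *
        MvPolynomial.eval v (part (HJ p z m j ry) wy (k + 2)) := by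
    intro j _
    rw [expand_HJ]
    simp only [one_pow, one_mul]
    rw [mul_add, mul_add, Finset.mul_sum]
  rw [Finset.sum_congr rfl e3, Finset.sum_add_distrib, Finset.sum_add_distrib] at e1
  have e4 : ∑ j ∈ Finset.range (NN p z), (rx - ry) ^ j * MvPolynomial.eval wy (HJ p z m j ry) =
      MvPolynomial.eval wy (HJ p z m 1 ry) * (rx - ry) +
      ∑ j ∈ Finset.range (pdeg p z), (rx - ry) ^ (j + 2) *
          MvPolynomial.eval wy (HJ p z m (j + 2) ry) := by
    unfold NN
    rw [Finset.sum_range_succ', Finset.sum_range_succ', hy]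
    simp only [zero_add, pow_zero, pow_one, one_mul]
    have : ∑ k ∈ Finset.range (pdeg p z), (rx - ry) ^ (k + 1 + 1) *
        MvPolynomial.eval wy (HJ p z m (k + 1 + 1) ry) =
        ∑ j ∈ Finset.range (pdeg p z), (rx - ry) ^ (j + 2) *
          MvPolynomial.eval wy (HJ p z m (j + 2) ry) := rfl
    rw [this]; ring
  have e5 : ∑ j ∈ Finset.range (NN p z), (rx - ry) ^ j * dd (HJ p z m j ry) wy v =
      ∑ j ∈ Finset.range (pdeg p z + 1), (rx - ry) ^ (j + 1) * dd (HJ p z m (j + 1) ry) wy v := by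
    unfold NN
    rw [Finset.sum_range_succ']
    rw [hv, dd_tpr hs]
    simp
  rw [e4, e5] at e1
  linear_combination e1

end Vale.Agent.P256.H326
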