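import Vale.Agent.P256.H326.Germ

/-! The slack kernel is a sum of squares near every smooth boundary point (arbitrary flats). -/

set_option linter.all false

namespace Vale.Agent.P256.H326

open Filter Topology Vale.Agent.P256

variable {n : ℕ} {p : MvPolynomial (Fin n) ℝ} {e : Fin n → ℝ}

/-- the form `u ↦ q(Σ u_i W_i)` -/
noncomputable def fform (q : MvPolynomial (Fin n) ℝ) (W : Fin n → Fin n → ℝ) :
    MvPolynomial (Fin n) ℝ :=
  MvPolynomial.aeval (fun j => ∑ i, MvPolynomial.C (W i j) * MvPolynomial.X i) q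

theorem eval_fform (q : MvPolynomial (Fin n) ℝ) (W : Fin n → Fin n → ℝ) (u : Fin n → ℝ) :
    MvPolynomial.eval u (fform q W) = MvPolynomial.eval (∑ i, u i • W i) q := by
  unfold fform
  induction q using MvPolynomial.induction_on with
  | C a => simp
  | add p q hp hq => simp only [map_add, hp, hq]
  | mul_X p i hp =>
    simp only [map_mul, hp, MvPolynomial.aeval_X, MvPolynomial.eval_X, map_sum,
      MvPolynomial.eval_C, Finset.sum_apply, Pi.smul_apply, smul_eq_mul]
    congr 1
    exact Finset.sum_congr rfl fun j _ => mul_comm _ _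

theorem homog_fform {q : MvPolynomial (Fin n) ℝ} {k : ℕ} (hq : q.IsHomogeneous k)
    (W : Fin n → Fin n → ℝ) : (fform q W).IsHomogeneous k := by
  have := hq.aeval (n := 1) (fun j => ∑ i, MvPolynomial.C (W i j) * MvPolynomial.X i)
    (fun j => MvPolynomial.IsHomogeneous.sum _ _ _ fun i _ =>
      MvPolynomial.isHomogeneous_C_mul_X _ _)
  rw [one_mul] at this
  exact this

theorem eval_add_parts {d N : ℕ} (hd : p.IsHomogeneous d) (hN : d < N) (y w : Fin n → ℝ) (t : ℝ) :
    MvPolynomial.eval (y + t • w) p =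
      ∑ k ∈ Finset.range N, t ^ k * MvPolynomial.eval w (part p y k) := by
  rw [← eval_line, Polynomial.eval_eq_sum_range' (lt_of_le_of_lt (line_top hd y w).1 hN)]
  refine Finset.sum_congr rfl fun k _ => ?_
  rw [coeff_line, mul_comm]

theorem part0_eq (p : MvPolynomial (Fin n) ℝ) (y w : Fin n → ℝ) :
    MvPolynomial.eval w (part p y 0) = MvPolynomial.eval y p := by
  have := eval_DL_pow p y w 0
  rw [pow_zero] at this
  simpa using this.symm

theorem continuousAt_kap {z0 : Fin n → ℝ} (hs : 0 < dd p z0 e) (i : Fin n) :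
    ContinuousAt (fun y => MvPolynomial.eval y (MvPolynomial.pderiv i p) / dd p y e) z0 :=
  (continuous_eval _).continuousAt.div (continuous_dd p e).continuousAt hs.ne'

theorem kap_eq (y v : Fin n → ℝ) : kap p e y v =
    ∑ i, (MvPolynomial.eval y (MvPolynomial.pderiv i p) / dd p y e) * v i := by
  unfold kap
  rw [dd_eq, Finset.sum_div]
  exact Finset.sum_congr rfl fun i _ => by ring

/-- the projection is uniformly bounded -/
theorem tpr_bdd {z0 : Fin n → ℝ} (hs : 0 < dd p z0 e) :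
    ∃ K : ℝ, 1 ≤ K ∧ ∀ᶠ y in 𝓝 z0, ∀ v : Fin n → ℝ, (∀ i, |v i| ≤ 1) →
      ∀ i, |tpr p e y v i| ≤ K := by
  set s : (Fin n → ℝ) → ℝ := fun y =>
    ∑ i, |MvPolynomial.eval y (MvPolynomial.pderiv i p) / dd p y e| with hsdef
  have hsc : ContinuousAt s z0 := by
    refine tendsto_finset_sum _ fun i _ => ?_
    exact (continuousAt_kap hs i).abs
  have h1 : ∀ᶠ y in 𝓝 z0, s y < s z0 + 1 :=
    hsc.eventually (gt_mem_nhds (by linarith))
  have hs0 : 0 ≤ s z0 := Finset.sum_nonneg fun _ _ => abs_nonneg _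
  refine ⟨1 + (s z0 + 1) * ‖e‖, by nlinarith [norm_nonneg e], ?_⟩
  filter_upwards [h1] with y hy v hv i
  have h2 : |kap p e y v| ≤ s y := by
    rw [kap_eq]
    refine (Finset.abs_sum_le_sum_abs _ _).trans (Finset.sum_le_sum fun j _ => ?_)
    rw [abs_mul]
    exact mul_le_of_le_one_right (abs_nonneg _) (hv j)
  rw [tpr_apply, Pi.sub_apply, Pi.smul_apply, smul_eq_mul]
  have h3 := abs_sub (v i) (kap p e y v * e i)
  have h4 : |e i| ≤ ‖e‖ := by
    have := norm_le_pi_norm e i
    rwa [Real.norm_eq_abs] at this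
  have h5 : |kap p e y v * e i| ≤ (s z0 + 1) * ‖e‖ := by
    rw [abs_mul]
    exact mul_le_mul (h2.trans hy.le) h4 (abs_nonneg _) (by linarith)
  linarith [hv i]

/-- properties of the frame -/
structure IsFrame (p : MvPolynomial (Fin n) ℝ) (e y : Fin n → ℝ) (b : Fin n → Fin n → ℝ)
    (c : Fin n → ℝ) : Prop where
  nonneg : ∀ i, 0 ≤ c i
  le_one : ∀ i j, |b i j| ≤ 1
  orth : ∀ i i', ∑ k, b i k * b i' k = if i = i' then 1 else 0
  expand : ∀ (v : Fin n → ℝ) j, v j = ∑ i, (∑ k, b i k * v k) * b i j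
  quad : ∀ v, - MvPolynomial.eval (tpr p e y v) (part p y 2) =
        ∑ i, c i ^ 2 * (∑ k, b i k * v k) ^ 2
  sqrt : ∀ i, c i = Real.sqrt (- MvPolynomial.eval (tpr p e y (b i)) (part p y 2))

theorem exists_isFrame (hp : IsHyperbolic p e) {y : Fin n → ℝ} (hy : y ∈ hypCone p e)
    (hy0 : MvPolynomial.eval y p = 0) (hs : 0 < dd p y e) :
    ∃ (b : Fin n → Fin n → ℝ) (c : Fin n → ℝ), IsFrame p e y b c := by
  obtain ⟨b, c, h1, h2, h3, h4, h5, h6⟩ := exists_frame hp hy hy0 hs
  exact ⟨b, c, h1, h2, h3, h4, h5, h6⟩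

/-- uniform quadraticity in the frame -/
theorem uq_frame (hp : IsHyperbolic p e) {z0 : Fin n → ℝ} (hs : 0 < dd p z0 e) (k : ℕ) :
    ∃ B : ℝ, 0 ≤ B ∧ ∀ᶠ y in 𝓝 z0, y ∈ hypCone p e → MvPolynomial.eval y p = 0 → 0 < dd p y e →
      ∀ b c, IsFrame p e y b c → ∀ u : Fin n → ℝ, (∀ i, |u i| ≤ 1) →
        |MvPolynomial.eval u (fform (part p y k) (fun i => tpr p e y (b i)))| ≤
          B * ∑ i, c i ^ 2 * u i ^ 2 := by
  obtain ⟨U0, hU0, C, hC, hq⟩ := uq hp hs
  obtain ⟨K, hK, hKe⟩ := tpr_bdd hs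
  set K' : ℝ := (n + 1) * K with hK'
  have hK'0 : 0 < K' := by positivity
  refine ⟨K' ^ k * (C * (2 * (K'⁻¹) ^ 2)), by positivity, ?_⟩
  filter_upwards [hU0, hKe] with y hyU hyK hy hy0 hsy b c hF u hu
  set v : Fin n → ℝ := ∑ i, u i • b i with hv
  have hvb : ∀ j, |v j| ≤ n + 1 := by
    intro j
    rw [hv, Finset.sum_apply]
    refine (Finset.abs_sum_le_sum_abs _ _).trans ?_
    have : ∀ i ∈ (Finset.univ : Finset (Fin n)), |(u i • b i) j| ≤ 1 := by
      intro i _
      rw [Pi.smul_apply, smul_eq_mul, abs_mul]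
      exact mul_le_one₀ (hu i) (abs_nonneg _) (hF.le_one i j)
    refine (Finset.sum_le_sum this).trans ?_
    simp
  set w : Fin n → ℝ := tpr p e y v with hw
  have hw1 : ∑ i, u i • tpr p e y (b i) = w := by
    rw [hw, hv, map_sum]
    exact Finset.sum_congr rfl fun i _ => by rw [map_smul]
  have hw2 : ∀ i, |(K'⁻¹ • w) i| ≤ 1 := by
    intro i
    have h1 : w = (n + 1 : ℝ) • tpr p e y ((n + 1 : ℝ)⁻¹ • v) := by
      rw [map_smul, smul_smul, mul_inv_cancel₀ (by positivity), one_smul]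
    have h2 := hyK ((n + 1 : ℝ)⁻¹ • v) (fun j => by
      rw [Pi.smul_apply, smul_eq_mul, abs_mul, abs_of_pos (by positivity), inv_mul_le_iff₀
        (by positivity), mul_one]
      exact hvb j) i
    rw [h1, Pi.smul_apply, Pi.smul_apply, smul_eq_mul, smul_eq_mul, abs_mul, abs_mul,
      abs_of_pos (inv_pos.2 hK'0), abs_of_pos (by positivity : (0 : ℝ) < n + 1),
      inv_mul_le_iff₀ hK'0, mul_one, hK']
    exact mul_le_mul_of_nonneg_left h2 (by positivity)
  have hdw : dd p y (K'⁻¹ • w) = 0 := by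
    rw [dd_smul, hw, dd_tpr hsy, mul_zero]
  obtain ⟨-, h3⟩ := hq y hyU hy hy0 (K'⁻¹ • w) hw2 hdw
  have h4 := h3 k
  have hev : ∀ j, MvPolynomial.eval (K'⁻¹ • w) (part p y j) =
      (K'⁻¹) ^ j * MvPolynomial.eval w (part p y j) := by
    intro j
    exact eval_smul' (part_homog p y j) K'⁻¹ w
  rw [part2_eq, hev 2, hev k, abs_mul, abs_of_pos (by positivity)] at h4
  have h5 : - MvPolynomial.eval w (part p y 2) = ∑ i, c i ^ 2 * u i ^ 2 := by
    rw [hw, hF.quad]
    refine Finset.sum_congr rfl fun i _ => ?_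
    have : ∑ k, b i k * v k = u i := by
      rw [hv]
      simp only [Finset.sum_apply, Pi.smul_apply, smul_eq_mul, Finset.mul_sum]
      rw [Finset.sum_comm]
      have h6 : ∀ i', ∑ k, b i k * (u i' * b i' k) = if i = i' then u i' else 0 := by
        intro i'
        have := hF.orth i i'
        calc ∑ k, b i k * (u i' * b i' k) = u i' * ∑ k, b i k * b i' k := by
              rw [Finset.mul_sum]
              exact Finset.sum_congr rfl fun k _ => by ring
          _ = if i = i' then u i' else 0 := by rw [this]; split_ifs <;> simp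
      rw [Finset.sum_congr rfl fun i' _ => h6 i']
      simp
    rw [this]
  rw [eval_fform, hw1, ← h5]
  have h7 : |MvPolynomial.eval w (part p y k)| =
      K' ^ k * ((K'⁻¹) ^ k * |MvPolynomial.eval w (part p y k)|) := by
    rw [← mul_assoc, ← mul_pow, mul_inv_cancel₀ hK'0.ne', one_pow, one_mul]
  rw [h7]
  calc K' ^ k * ((K'⁻¹) ^ k * |MvPolynomial.eval w (part p y k)|)
      ≤ K' ^ k * (C * -(2 * ((K'⁻¹) ^ 2 * MvPolynomial.eval w (part p y 2)))) :=
        mul_le_mul_of_nonneg_left h4 (by positivity)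
    _ = _ := by ring


theorem _root_.Vale.Agent.P256.GermFR.fr {L X : Type*} {F : Filter L} {G : Filter X}
    {h : L → X → ℝ} {c : ℝ} (H : GermFR F G h c) : FR h := by
  obtain ⟨n, a, f, _, _, _, _, hh, _⟩ := H
  exact ⟨n, a, f, hh⟩

/-- abstract end of the proof: `κ D = κ² β + Σ g_i² - Σ E_ij g_i g_j` -/
theorem sosF_of_identity {L X : Type*} {F : Filter L} {G : Filter X} {n : ℕ}
    {κ β : L → X → ℝ} {D : X → ℝ} {β0 D0 : ℝ} (hκ : GermFR F G κ 0) (hβ : GermFR F G β β0)
    (hD : Tendsto D G (𝓝 D0)) (hD0 : 0 < D0) {g : Fin n → L → X → ℝ}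
    (hg : ∀ i, GermFR F G (g i) 0) {E : Fin n → Fin n → L → X → ℝ}
    (hE : ∀ a b, GermFR F G (E a b) 0)
    (hid : EqF F G (fun l x => κ l x * D x) (fun l x => β l x * κ l x * κ l x +
      ∑ i, g i l x * g i l x - ∑ a, ∑ b, E a b l x * g a l x * g b l x)) :
    SosF F G κ := by
  classical
  -- the kernel `κ D`
  set f : Option (Fin n) → L → X → ℝ := fun o => Option.elim o κ g with hf
  set M : Option (Fin n) → Option (Fin n) → L → X → ℝ := fun o o' =>
    Option.elim o (Option.elim o' β (fun _ _ _ => 0))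
      (fun a => Option.elim o' (fun _ _ => 0) (fun b l x => (if a = b then 1 else 0) - E a b l x))
    with hM
  set C : Option (Fin n) → Option (Fin n) → ℝ := fun o o' =>
    Option.elim o (Option.elim o' β0 (fun _ => 0))
      (fun a => Option.elim o' 0 (fun b => (if a = b then 1 else 0))) with hC
  set R : Unit → Option (Fin n) → L → X → ℝ := fun _ o =>
    Option.elim o (fun l x => D x - κ l x * β l x)
      (fun b l x => - ∑ a, ((if a = b then 1 else 0) - E a b l x) * g a l x) with hR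
  set ρ : Unit → Option (Fin n) → ℝ := fun _ o => Option.elim o D0 (fun _ => 0) with hρ
  have hfg : ∀ o, GermFR F G (f o) 0 := by
    intro o; cases o with
    | none => exact hκ
    | some i => exact hg i
  have hMg : ∀ a b, GermFR F G (M (some a) (some b)) (C (some a) (some b)) := by
    intro a b
    exact ((GermFR.const (if a = b then 1 else 0)).sub (hE a b)).congr (fun l x => rfl) (by
      simp [hC])
  have key : SosF F G (fun l x => ∑ i, ∑ j, M i j l x * f i l x * f j l x) := by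
    refine sosF_of_syzygy (C := C) (fun o => (hfg o).fr) (fun o o' => ?_) (R := R) (ρ := ρ)
      (fun _ o => ?_) (fun _ => ?_) (fun w hw hw0 => ?_)
    · cases o with
      | none =>
        cases o' with
        | none => exact hβ
        | some b => exact GermFR.const 0
      | some a =>
        cases o' with
        | none => exact GermFR.const 0
        | some b => exact hMg a b
    · cases o with
      | none =>
        exact ((GermFR.right hD).sub (hκ.mul hβ)).congr (fun l x => rfl) (by simp [hρ])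
      | some b =>
        refine (GermFR.neg (GermFR.sum Finset.univ (c := fun a => C (some a) (some b) * 0)
          fun a _ => (hMg a b).mul (hg a))).congr (fun l x => rfl) (by simp [hρ])
    · obtain ⟨A, hA, B, hB, e1⟩ := hid
      refine ⟨A, hA, B, hB, fun l hl x hx => ?_⟩
      have e2 := e1 l hl x hx
      simp only [] at e2
      show ∑ j, R () j l x * f j l x = 0
      rw [Fintype.sum_option]
      simp only [hR, hf, Option.elim]
      have e3 : ∑ b, (- ∑ a, ((if a = b then 1 else 0) - E a b l x) * g a l x) * g b l x =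
          - (∑ i, g i l x * g i l x) + ∑ a, ∑ b, E a b l x * g a l x * g b l x := by
        rw [Finset.sum_comm (s := Finset.univ) (t := Finset.univ)
          (f := fun a b => E a b l x * g a l x * g b l x), ← Finset.sum_neg_distrib,
          ← Finset.sum_add_distrib]
        refine Finset.sum_congr rfl fun b _ => ?_
        have e4 : ∑ a, ((if a = b then 1 else 0) - E a b l x) * g a l x =
            g b l x - ∑ a, E a b l x * g a l x := by
          simp only [sub_mul, Finset.sum_sub_distrib, ite_mul, one_mul, zero_mul]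
          simp
        have e5 : ∑ a, E a b l x * g a l x * g b l x = (∑ a, E a b l x * g a l x) * g b l x := by
          rw [Finset.sum_mul]
        rw [e4, e5]; ring
      rw [e3]
      linear_combination e2
    · have h0 : w none = 0 := by
        have := hw0 ()
        rw [Fintype.sum_option] at this
        simp only [hρ, Option.elim, zero_mul, Finset.sum_const_zero, add_zero] at this
        exact (mul_eq_zero.1 this).resolve_left hD0.ne'
      have h1 : ∃ a, w (some a) ≠ 0 := by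
        by_contra h
        push Not at h
        apply hw
        funext o
        cases o with
        | none => exact h0
        | some a => exact h a
      obtain ⟨a, ha⟩ := h1
      rw [Fintype.sum_option]
      simp only [Fintype.sum_option, hC, Option.elim, h0, mul_zero, zero_mul,
        Finset.sum_const_zero, add_zero, zero_add, ite_mul, one_mul, Finset.sum_ite_eq,
        Finset.mem_univ, if_true]
      have h2 : w (some a) * w (some a) ≤ ∑ x, w (some x) * w (some x) :=
        Finset.single_le_sum (f := fun x => w (some x) * w (some x))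
          (fun k _ => mul_self_nonneg _) (Finset.mem_univ a)
      have h3 : 0 < w (some a) * w (some a) := mul_self_pos.2 ha
      exact lt_of_lt_of_le h3 h2
  have key2 : SosF F G (fun l x => κ l x * D x) := by
    refine key.congr (hid.trans ⟨Set.univ, univ_mem, Set.univ, univ_mem, fun l _ x _ => ?_⟩)
    simp only [Fintype.sum_option, hM, hf, Option.elim, zero_mul, Finset.sum_const_zero, add_zero,
      zero_add, sub_mul, Finset.sum_sub_distrib, ite_mul, one_mul, Finset.sum_ite_eq,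
      Finset.mem_univ, if_true]
    ring
  have hD1 : ∀ᶠ x in G, 0 < D x := hD.eventually (lt_mem_nhds hD0)
  have key3 := key2.mul (SosF.right (F := F) (f := fun x => (D x)⁻¹) (by
    filter_upwards [hD1] with x hx
    exact (inv_pos.2 hx).le))
  refine key3.congr (EqF.of_eventually (fun _ => True) (fun x => 0 < D x)
    (Eventually.of_forall fun _ => trivial) hD1 fun l x _ hx => ?_)
  rw [mul_assoc, mul_inv_cancel₀ hx.ne', mul_one]


/-- continuity of the normalized slack as a germ -/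
theorem germ_kap {z0 : Fin n → ℝ} (hs : 0 < dd p z0 e) (hz : MvPolynomial.eval z0 p = 0)
    {d : ℕ} (hd : p.IsHomogeneous d) {F G : Filter (Fin n → ℝ)} (hF : F ≤ 𝓝 z0) (hG : G ≤ 𝓝 z0) :
    GermFR F G (kap p e) 0 := by
  refine (GermFR.of_fintype
    (fun i y => MvPolynomial.eval y (MvPolynomial.pderiv i p) / dd p y e)
    (fun i x => x i) (fun i => MvPolynomial.eval z0 (MvPolynomial.pderiv i p) / dd p z0 e)
    (fun i => z0 i) (fun i => (continuousAt_kap hs i).tendsto.mono_left hF)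
    (fun i => ((continuous_apply i).tendsto z0).mono_left hG)).congr
    (fun y x => kap_eq y x) ?_
  rw [← kap_eq, kap, dd_euler hd, hz]; simp

/-- the expansion of `p` around the two points -/
theorem main_identity {d : ℕ} (hd : p.IsHomogeneous d) {y x : Fin n → ℝ}
    (hy : MvPolynomial.eval y p = 0) (hx : MvPolynomial.eval x p = 0) (hs : 0 < dd p y e) :
    kap p e y x * dd p x e =
      (∑ k ∈ Finset.range (d + 1), (- kap p e y x) ^ k * MvPolynomial.eval e (part p x (k + 2))) *
        kap p e y x * kap p e y x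
      + (- MvPolynomial.eval (tpr p e y (x - y)) (part p y 2))
      - ∑ k ∈ Finset.range d, MvPolynomial.eval (tpr p e y (x - y)) (part p y (k + 3)) := by
  have hyy : tpr p e y y = y := by
    rw [tpr_apply, kap, dd_euler hd, hy]; simp
  have h1 : x + (- kap p e y x) • e = y + (1 : ℝ) • tpr p e y (x - y) := by
    rw [map_sub, hyy, tpr_apply, one_smul, neg_smul]; abel
  have e1 := eval_add_parts (p := p) hd (show d < d + 3 by omega) x e (- kap p e y x)
  have e2 := eval_add_parts (p := p) hd (show d < d + 3 by omega) y (tpr p e y (x - y)) 1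
  rw [h1] at e1
  rw [e1] at e2
  simp only [one_pow, one_mul] at e2
  rw [show d + 3 = (d + 1) + 1 + 1 from rfl, Finset.sum_range_succ', Finset.sum_range_succ'] at e2
  rw [show d + 1 + 1 + 1 = (d + 1 + 1) + 1 from rfl, Finset.sum_range_succ'
    (fun k => MvPolynomial.eval (tpr p e y (x - y)) (part p y k)), Finset.sum_range_succ'
    (fun k => MvPolynomial.eval (tpr p e y (x - y)) (part p y (k + 1))), Finset.sum_range_succ'
    (fun k => MvPolynomial.eval (tpr p e y (x - y)) (part p y (k + 1 + 1)))] at e2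
  simp only [zero_add, pow_zero, pow_one, one_mul] at e2
  rw [part0_eq, part0_eq, ← part1_eq, ← part1_eq, hx, hy, dd_tpr hs] at e2
  have e3 : ∑ k ∈ Finset.range (d + 1), (- kap p e y x) ^ (k + 1 + 1) *
      MvPolynomial.eval e (part p x (k + 1 + 1)) =
      (∑ k ∈ Finset.range (d + 1), (- kap p e y x) ^ k * MvPolynomial.eval e (part p x (k + 2))) *
        kap p e y x * kap p e y x := by
    rw [Finset.sum_mul, Finset.sum_mul]
    exact Finset.sum_congr rfl fun k _ => by ring
  rw [e3] at e2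
  have e4 : ∑ k ∈ Finset.range d, MvPolynomial.eval (tpr p e y (x - y)) (part p y (k + 1 + 1 + 1)) =
    ∑ k ∈ Finset.range d, MvPolynomial.eval (tpr p e y (x - y)) (part p y (k + 3)) := rfl
  rw [e4] at e2
  linear_combination (-1 : ℝ) * e2

theorem tendsto_part {Z : Type*} {F : Filter Z} (k : ℕ) (z0 w0 : Fin n → ℝ)
    {f : Z → (Fin n → ℝ) × (Fin n → ℝ)} (hf : Tendsto f F (𝓝 (z0, w0))) :
    Tendsto (fun z => MvPolynomial.eval (f z).2 (part p (f z).1 k)) F
      (𝓝 (MvPolynomial.eval w0 (part p z0 k))) :=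
  ((continuous_part p k).tendsto (z0, w0)).comp hf

/-- coordinates of `x - y` in a frame -/
def uco (b : (Fin n → ℝ) → Fin n → Fin n → ℝ) (i : Fin n) (y x : Fin n → ℝ) : ℝ :=
  ∑ k, b y i k * (x k - y k)

theorem germ_uco {b : (Fin n → ℝ) → Fin n → Fin n → ℝ} {b0 : Fin n → Fin n → ℝ}
    {z0 : Fin n → ℝ} {F G : Filter (Fin n → ℝ)} (hF : F ≤ 𝓝 z0) (hG : G ≤ 𝓝 z0)
    (hbt : ∀ i j, Tendsto (fun y => b y i j) F (𝓝 (b0 i j))) (i : Fin n) :
    GermFR F G (uco b i) 0 := by
  have h1 : ∀ k, GermFR F G (fun y x => b y i k * (x k - y k)) (b0 i k * (z0 k - z0 k)) := by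
    intro k
    exact (GermFR.left (hbt i k)).mul
      ((GermFR.right (((continuous_apply k).tendsto z0).mono_left hG)).sub
        (GermFR.left (((continuous_apply k).tendsto z0).mono_left hF)))
  exact (GermFR.sum Finset.univ fun k _ => h1 k).congr (fun y x => rfl) (by simp)

theorem tendsto_tpr {z0 : Fin n → ℝ} (hs : 0 < dd p z0 e) {F : Filter (Fin n → ℝ)}
    (hF : F ≤ 𝓝 z0) {g : (Fin n → ℝ) → Fin n → ℝ} {g0 : Fin n → ℝ}
    (hg : ∀ j, Tendsto (fun y => g y j) F (𝓝 (g0 j))) :
    Tendsto (fun y => tpr p e y (g y)) F (𝓝 (tpr p e z0 g0)) := by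
  have hk : Tendsto (fun y => kap p e y (g y)) F (𝓝 (kap p e z0 g0)) := by
    simp only [kap_eq]
    exact tendsto_finset_sum _ fun j _ =>
      ((continuousAt_kap hs j).tendsto.mono_left hF).mul (hg j)
  rw [tendsto_pi_nhds]
  intro j
  simp only [tpr_apply, Pi.sub_apply, Pi.smul_apply, smul_eq_mul]
  exact (hg j).sub (hk.mul_const _)

theorem tendsto_curv {z0 : Fin n → ℝ} (hs : 0 < dd p z0 e) {F : Filter (Fin n → ℝ)}
    (hF : F ≤ 𝓝 z0) {g : (Fin n → ℝ) → Fin n → ℝ} {g0 : Fin n → ℝ}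
    (hg : ∀ j, Tendsto (fun y => g y j) F (𝓝 (g0 j))) :
    ∃ s0, Tendsto (fun y => Real.sqrt (- MvPolynomial.eval (tpr p e y (g y)) (part p y 2))) F
      (𝓝 s0) := by
  have h0 : Tendsto (fun y => (y, tpr p e y (g y))) F (𝓝 (z0, tpr p e z0 g0)) :=
    Tendsto.prodMk_nhds hF (tendsto_tpr hs hF hg)
  have h2 := tendsto_part (p := p) 2 z0 (tpr p e z0 g0) h0
  exact ⟨_, (Real.continuous_sqrt.tendsto _).comp h2.neg⟩

theorem choose_frame (hp : IsHyperbolic p e) :
    ∃ (b : (Fin n → ℝ) → Fin n → Fin n → ℝ) (c : (Fin n → ℝ) → Fin n → ℝ), ∀ y,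
      y ∈ hypCone p e → MvPolynomial.eval y p = 0 → 0 < dd p y e → IsFrame p e y (b y) (c y) := by
  classical
  have hfr : ∀ y, ∃ (b : Fin n → Fin n → ℝ) (c : Fin n → ℝ), y ∈ hypCone p e →
      MvPolynomial.eval y p = 0 → 0 < dd p y e → IsFrame p e y b c := by
    intro y
    by_cases h : y ∈ hypCone p e ∧ MvPolynomial.eval y p = 0 ∧ 0 < dd p y e
    · obtain ⟨b, c, hF⟩ := exists_isFrame hp h.1 h.2.1 h.2.2
      exact ⟨b, c, fun _ _ _ => hF⟩
    · exact ⟨0, 0, fun h1 h2 h3 => absurd ⟨h1, h2, h3⟩ h⟩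
  choose b c hbc using hfr
  exact ⟨b, c, hbc⟩

/-- the frames converge along an ultrafilter -/
theorem frame_data (hp : IsHyperbolic p e) {z0 : Fin n → ℝ}
    (hs : 0 < dd p z0 e) (U : Ultrafilter (Fin n → ℝ))
    (hU : (U : Filter (Fin n → ℝ)) ≤ 𝓝 z0)
    (hUT : ∀ᶠ y in (U : Filter (Fin n → ℝ)), y ∈ hypCone p e ∧ MvPolynomial.eval y p = 0) :
    ∃ (b : (Fin n → ℝ) → Fin n → Fin n → ℝ) (c : (Fin n → ℝ) → Fin n → ℝ)
      (b0 : Fin n → Fin n → ℝ) (c0 : Fin n → ℝ),
      (∀ᶠ y in (U : Filter (Fin n → ℝ)), IsFrame p e y (b y) (c y)) ∧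
      (∀ i j, Tendsto (fun y => b y i j) U (𝓝 (b0 i j))) ∧
      ∀ i, Tendsto (fun y => c y i) U (𝓝 (c0 i)) := by
  have hDU : ∀ᶠ y in (U : Filter (Fin n → ℝ)), 0 < dd p y e :=
    hU ((continuous_dd p e).continuousAt.eventually (lt_mem_nhds hs))
  obtain ⟨b, c, hbc⟩ := choose_frame hp
  have hF : ∀ᶠ y in (U : Filter (Fin n → ℝ)), IsFrame p e y (b y) (c y) := by
    filter_upwards [hUT, hDU] with y h1 h2
    exact hbc y h1.1 h1.2 h2
  have hb : ∀ i j, ∃ b0, |b0| ≤ 1 ∧ Tendsto (fun y => b y i j) U (𝓝 b0) := fun i j =>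
    exists_tendsto U (by filter_upwards [hF] with y hy; exact hy.le_one i j)
  choose b0 _ hbt using hb
  have hc : ∀ i, ∃ c0, Tendsto (fun y => c y i) U (𝓝 c0) := by
    intro i
    obtain ⟨c0, h1⟩ := tendsto_curv (p := p) hs hU (hbt i)
    refine ⟨c0, h1.congr' ?_⟩
    filter_upwards [hF] with y hy
    exact (hy.sqrt i).symm
  choose c0 hct using hc
  exact ⟨b, c, b0, c0, hF, hbt, hct⟩

/-- the error terms in the frame -/
theorem frame_err (hp : IsHyperbolic p e) {z0 : Fin n → ℝ}
    (hs : 0 < dd p z0 e) (U : Ultrafilter (Fin n → ℝ)) {G : Filter (Fin n → ℝ)}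
    (hU : (U : Filter (Fin n → ℝ)) ≤ 𝓝 z0) (hG : G ≤ 𝓝 z0)
    (hUT : ∀ᶠ y in (U : Filter (Fin n → ℝ)), y ∈ hypCone p e ∧ MvPolynomial.eval y p = 0)
    {b : (Fin n → ℝ) → Fin n → Fin n → ℝ} {c : (Fin n → ℝ) → Fin n → ℝ}
    {b0 : Fin n → Fin n → ℝ}
    (hF : ∀ᶠ y in (U : Filter (Fin n → ℝ)), IsFrame p e y (b y) (c y))
    (hbt : ∀ i j, Tendsto (fun y => b y i j) U (𝓝 (b0 i j))) (k : ℕ) :
    ∃ E : Fin n → Fin n → (Fin n → ℝ) → (Fin n → ℝ) → ℝ,
      (∀ a b, GermFR (U : Filter (Fin n → ℝ)) G (E a b) 0) ∧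
      ∀ᶠ y in (U : Filter (Fin n → ℝ)), ∀ x,
        MvPolynomial.eval (tpr p e y (x - y)) (part p y (k + 3)) =
        ∑ i, ∑ j, E i j y x * (c y i * uco b i y x) * (c y j * uco b j y x) := by
  have hDU : ∀ᶠ y in (U : Filter (Fin n → ℝ)), 0 < dd p y e :=
    hU ((continuous_dd p e).continuousAt.eventually (lt_mem_nhds hs))
  obtain ⟨B, hB, hev⟩ := uq_frame hp hs (k + 3)
  obtain ⟨E, hE, hEe⟩ := germ_err (U := U) (G := G) (k := k + 3) (by omega)
    (fun y => fform (part p y (k + 3)) (fun i => tpr p e y (b y i)))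
    (fun y => homog_fform (part_homog p y (k + 3)) _) (fun i y => c y i)
    (by filter_upwards [hF] with y hy; exact hy.nonneg) hB
    (by
      filter_upwards [hF, hU hev, hUT, hDU] with y h1 h2 h3 h4
      exact h2 h3.1 h3.2 h4 (b y) (c y) h1) (uco b) (germ_uco hU hG hbt)
  refine ⟨E, hE, ?_⟩
  filter_upwards [hF, hEe] with y h hy x
  rw [← hy x, eval_fform]
  congr 2
  have h1 : x - y = ∑ i, uco b i y x • b y i := by
    funext j
    rw [h.expand (x - y) j, Finset.sum_apply]
    exact Finset.sum_congr rfl fun i _ => rfl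
  conv_lhs => rw [h1]
  rw [map_sum]
  exact Finset.sum_congr rfl fun i _ => by rw [map_smul]

theorem germ_beta {z0 : Fin n → ℝ} {F G : Filter (Fin n → ℝ)} (hG : G ≤ 𝓝 z0)
    (hκ : GermFR F G (kap p e) 0) (N : ℕ) :
    ∃ β0, GermFR F G (fun y x => ∑ k ∈ Finset.range N,
      (- kap p e y x) ^ k * MvPolynomial.eval e (part p x (k + 2))) β0 := by
  refine ⟨_, GermFR.sum _ fun k _ => (GermFR.pow' hκ.neg k).mul (GermFR.right
    (f0 := MvPolynomial.eval e (part p z0 (k + 2))) ?_)⟩
  exact (((continuous_part p (k + 2)).comp (Continuous.prodMk continuous_id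
    (continuous_const (y := e)))).tendsto z0).mono_left hG

/-- **The smooth point theorem**, normalized slack. -/
theorem smooth_kap (hp : IsHyperbolic p e) {z0 : Fin n → ℝ} (hz0 : MvPolynomial.eval z0 p = 0)
    (hs : 0 < dd p z0 e) (U : Ultrafilter (Fin n → ℝ)) {G : Filter (Fin n → ℝ)}
    (hU : (U : Filter (Fin n → ℝ)) ≤ 𝓝 z0) (hG : G ≤ 𝓝 z0)
    (hUT : ∀ᶠ y in (U : Filter (Fin n → ℝ)), y ∈ hypCone p e ∧ MvPolynomial.eval y p = 0)
    (hGT : ∀ᶠ x in G, MvPolynomial.eval x p = 0) :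
    SosF (U : Filter (Fin n → ℝ)) G (kap p e) := by
  classical
  obtain ⟨d, hd⟩ := hp.1
  have hDU : ∀ᶠ y in (U : Filter (Fin n → ℝ)), 0 < dd p y e :=
    hU ((continuous_dd p e).continuousAt.eventually (lt_mem_nhds hs))
  obtain ⟨b, c, b0, c0, hF, hbt, hct⟩ := frame_data hp hs U hU hUT
  choose E hE hEe using fun k => frame_err hp hs U hU hG hUT hF hbt k
  have hκ : GermFR (U : Filter (Fin n → ℝ)) G (kap p e) 0 := germ_kap hs hz0 hd hU hG
  obtain ⟨β0, hβ⟩ := germ_beta hG hκ (d + 1)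
  have hD : Tendsto (fun x => dd p x e) G (𝓝 (dd p z0 e)) :=
    ((continuous_dd p e).tendsto z0).mono_left hG
  have hgg : ∀ i, GermFR (U : Filter (Fin n → ℝ)) G (fun y x => c y i * uco b i y x) 0 :=
    fun i => ((GermFR.left (hct i)).mul (germ_uco hU hG hbt i)).congr (fun y x => rfl) (by simp)
  have hEs : ∀ i j, GermFR (U : Filter (Fin n → ℝ)) G
      (fun y x => ∑ k ∈ Finset.range d, E k i j y x) 0 := fun i j =>
    (GermFR.sum _ (c := fun _ => 0) fun k _ => hE k i j).congr (fun y x => rfl) (by simp)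
  refine sosF_of_identity (D := fun x => dd p x e) hκ hβ hD hs hgg hEs ?_
  refine EqF.of_eventually (fun y => IsFrame p e y (b y) (c y) ∧ 0 < dd p y e ∧
    MvPolynomial.eval y p = 0 ∧ ∀ k ∈ Finset.range d, ∀ x,
      MvPolynomial.eval (tpr p e y (x - y)) (part p y (k + 3)) =
        ∑ i, ∑ j, E k i j y x * (c y i * uco b i y x) * (c y j * uco b j y x))
    (fun x => MvPolynomial.eval x p = 0) ?_ hGT fun y x hy hx => ?_
  · filter_upwards [hF, hDU, hUT, (Finset.range d).eventually_all.2 fun k _ => hEe k]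
      with y h1 h2 h3 h4
    exact ⟨h1, h2, h3.2, h4⟩
  · obtain ⟨h1, h2, h3, h4⟩ := hy
    rw [main_identity hd h3 hx h2, h1.quad]
    congr 1
    · congr 1
      refine Finset.sum_congr rfl fun i _ => ?_
      show c y i ^ 2 * (uco b i y x) ^ 2 = _
      ring
    · rw [Finset.sum_congr rfl fun k hk => h4 k hk x, Finset.sum_comm]
      refine Finset.sum_congr rfl fun i _ => ?_
      rw [Finset.sum_comm]
      refine Finset.sum_congr rfl fun j _ => ?_
      rw [Finset.sum_mul, Finset.sum_mul]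

/-- **The smooth point theorem.** -/
theorem smooth_sosF (hp : IsHyperbolic p e) {z0 : Fin n → ℝ} (hz0 : MvPolynomial.eval z0 p = 0)
    (hs : 0 < dd p z0 e) (U : Ultrafilter (Fin n → ℝ)) {G : Filter (Fin n → ℝ)}
    (hU : (U : Filter (Fin n → ℝ)) ≤ 𝓝 z0) (hG : G ≤ 𝓝 z0)
    (hUT : ∀ᶠ y in (U : Filter (Fin n → ℝ)), y ∈ hypCone p e ∧ MvPolynomial.eval y p = 0)
    (hGT : ∀ᶠ x in G, MvPolynomial.eval x p = 0) :
    SosF (U : Filter (Fin n → ℝ)) G (fun y x => dd p y x) := by
  have hDU : ∀ᶠ y in (U : Filter (Fin n → ℝ)), 0 < dd p y e :=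
    hU ((continuous_dd p e).continuousAt.eventually (lt_mem_nhds hs))
  refine ((SosF.left (G := G) (a := fun y => dd p y e) (by
    filter_upwards [hDU] with y hy
    exact hy.le)).mul (smooth_kap hp hz0 hs U hU hG hUT hGT)).congr
    (EqF.of_eventually (fun y => 0 < dd p y e) (fun _ => True) hDU
    (Eventually.of_forall fun _ => trivial) fun y x hy _ => ?_)
  rw [kap, mul_div_cancel₀ _ hy.ne']

/-- **The smooth point theorem**, local form. -/
theorem smooth_local_sos (hp : IsHyperbolic p e) {z0 : Fin n → ℝ}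
    (hz0 : MvPolynomial.eval z0 p = 0) (hs : 0 < dd p z0 e) :
    ∃ W ∈ 𝓝 z0, SosOn (W ∩ bdT p e) (W ∩ bdT p e) (fun z' x => dd p z' x) := by
  obtain ⟨A, hA, B, hB, h⟩ := sosOn_of_ultra_filter (E := 𝓝 z0) (E' := 𝓝 z0) (S := bdT p e)
    (T := bdT p e) (h := fun z' x => dd p z' x) (fun U V hU hUS hV hVT =>
      smooth_sosF hp hz0 hs U hU hV
        (by filter_upwards [hUS] with y hy; exact ⟨hy.1, hy.2.1⟩)
        (by filter_upwards [hVT] with x hx; exact hx.2.1))
  exact ⟨A ∩ B, inter_mem hA hB, h.mono (Set.inter_subset_inter_left _ Set.inter_subset_left)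
    (Set.inter_subset_inter_left _ Set.inter_subset_right)⟩

end Vale.Agent.P256.H326
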