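import Mathlib

/-! Sums of the largest eigenvalues of a symmetric matrix, Abel summation. -/

namespace Vale.Agent.P256.H326

open Matrix

variable {k : ℕ}

/-- the sum of the coordinates with index at most `j` -/
def psum (y : Fin k → ℝ) (j : Fin k) : ℝ := ∑ i, if i ≤ j then y i else 0

theorem psum_nonneg {y : Fin k → ℝ} (h : ∀ i, 0 ≤ y i) (j : Fin k) : 0 ≤ psum y j :=
  Finset.sum_nonneg fun i _ => by split_ifs; exacts [h i, le_rfl]

theorem psum_le_sum {y : Fin k → ℝ} (h : ∀ i, 0 ≤ y i) (j : Fin k) : psum y j ≤ ∑ i, y i :=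
  Finset.sum_le_sum fun i _ => by split_ifs; exacts [le_rfl, h i]

theorem psum_mono {y y' : Fin k → ℝ} (h : ∀ i, y i ≤ y' i) (j : Fin k) : psum y j ≤ psum y' j :=
  Finset.sum_le_sum fun i _ => by split_ifs; exacts [h i, le_rfl]

theorem psum_add (y y' : Fin k → ℝ) (j : Fin k) : psum (y + y') j = psum y j + psum y' j := by
  unfold psum
  rw [← Finset.sum_add_distrib]
  refine Finset.sum_congr rfl fun i _ => ?_
  split_ifs <;> simp

theorem psum_smul (c : ℝ) (y : Fin k → ℝ) (j : Fin k) : psum (c • y) j = c * psum y j := by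
  unfold psum
  rw [Finset.mul_sum]
  refine Finset.sum_congr rfl fun i _ => ?_
  split_ifs <;> simp

theorem psum_const (c : ℝ) (j : Fin k) : psum (fun _ => c) j = (j + 1 : ℝ) * c := by
  unfold psum
  rw [← Finset.sum_filter, Finset.sum_const, nsmul_eq_mul]
  congr 1
  have h : Finset.univ.filter (fun i : Fin k => i ≤ j) = Finset.Iic j := by
    ext i
    simp
  rw [h, Fin.card_Iic]
  push_cast
  ring

theorem abel_le : ∀ {k : ℕ} (b D : Fin k → ℝ) (M : ℝ), Monotone b → (∀ i, b i ≤ M) →
    (∀ j, 0 ≤ psum D j) → ∑ i, b i * D i ≤ M * ∑ i, D i := by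
  intro k
  induction k with
  | zero => intro b D M _ _ _; simp
  | succ k ih =>
    intro b D M hb hM hD
    have h1 : ∀ j : Fin k, psum D j.castSucc = psum (fun i => D i.castSucc) j := by
      intro j
      unfold psum
      rw [Fin.sum_univ_castSucc]
      have h2 : ¬ Fin.last k ≤ j.castSucc := by
        rw [not_le]
        exact Fin.castSucc_lt_last j
      rw [if_neg h2, add_zero]
      refine Finset.sum_congr rfl fun i _ => ?_
      simp only [Fin.castSucc_le_castSucc_iff]
    have h2 := ih (fun i => b i.castSucc) (fun i => D i.castSucc) (b (Fin.last k))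
      (fun i j hij => hb (Fin.castSucc_le_castSucc_iff.2 hij)) (fun i => hb (Fin.le_last _))
      (fun j => by rw [← h1]; exact hD _)
    have h3 : 0 ≤ ∑ i, D i := by
      have h4 := hD (Fin.last k)
      unfold psum at h4
      simpa [Fin.le_last] using h4
    have h4 : ∑ i, b i * D i ≤ b (Fin.last k) * ∑ i, D i := by
      rw [Fin.sum_univ_castSucc, Fin.sum_univ_castSucc (f := D), mul_add]
      linarith
    exact h4.trans (mul_le_mul_of_nonneg_right (hM _) h3)

theorem abel_nonpos (b D : Fin k → ℝ) (hb : Monotone b) (hD : ∀ j, 0 ≤ psum D j)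
    (h0 : ∑ i, D i ≤ 0) : ∑ i, b i * D i ≤ 0 := by
  obtain ⟨M, hM0, hM⟩ : ∃ M : ℝ, 0 ≤ M ∧ ∀ i, b i ≤ M :=
    ⟨∑ i, |b i|, Finset.sum_nonneg fun i _ => abs_nonneg _, fun i => (le_abs_self _).trans
      (Finset.single_le_sum (f := fun i => |b i|) (fun i _ => abs_nonneg _) (Finset.mem_univ i))⟩
  exact (abel_le b D M hb hM hD).trans (mul_nonpos_of_nonneg_of_nonpos hM0 h0)

theorem exists_sorted_diag {X : Matrix (Fin k) (Fin k) ℝ} (hX : X.IsSymm) :
    ∃ (U : Matrix (Fin k) (Fin k) ℝ) (l : Fin k → ℝ), Uᵀ * U = 1 ∧ U * Uᵀ = 1 ∧ Antitone l ∧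
      X = U * diagonal l * Uᵀ := by
  have hH : X.IsHermitian := by
    rw [Matrix.IsHermitian, Matrix.conjTranspose_eq_transpose_of_trivial, hX.eq]
  set V : Matrix (Fin k) (Fin k) ℝ := (hH.eigenvectorUnitary : Matrix (Fin k) (Fin k) ℝ) with hV
  set l0 := hH.eigenvalues with hl0
  have h1 : X = V * diagonal l0 * Vᵀ := by
    have h2 := hH.spectral_theorem
    rw [Unitary.conjStarAlgAut_apply] at h2
    have h3 : (diagonal (RCLike.ofReal ∘ l0) : Matrix (Fin k) (Fin k) ℝ) = diagonal l0 := by
      congr 1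
    rw [← hl0, h3] at h2
    rw [← Matrix.conjTranspose_eq_transpose_of_trivial]
    exact h2
  have h4 : V * Vᵀ = 1 := by
    have := (Matrix.mem_unitaryGroup_iff).1 hH.eigenvectorUnitary.2
    rwa [Matrix.star_eq_conjTranspose, Matrix.conjTranspose_eq_transpose_of_trivial] at this
  have h5 : Vᵀ * V = 1 := mul_eq_one_comm.1 h4
  let σ : Equiv.Perm (Fin k) := Tuple.sort fun i => - l0 i
  have h6 : Monotone ((fun i => - l0 i) ∘ σ) := Tuple.monotone_sort _
  have h7 : (V.submatrix id σ)ᵀ = Vᵀ.submatrix σ id := rfl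
  refine ⟨V.submatrix id σ, l0 ∘ σ, ?_, ?_, ?_, ?_⟩
  · rw [h7, ← Matrix.submatrix_mul Vᵀ V σ id σ Function.bijective_id, h5, Matrix.submatrix_one_equiv]
  · rw [h7, Matrix.submatrix_mul_equiv, h4, Matrix.submatrix_id_id]
  · intro i j hij
    have := h6 hij
    simp only [Function.comp_apply] at this ⊢
    linarith
  · have h8 : diagonal (l0 ∘ σ) = (diagonal l0).submatrix σ σ := by
      rw [Matrix.submatrix_diagonal_equiv]
    rw [h7, h8, Matrix.submatrix_mul_equiv, Matrix.submatrix_mul_equiv, ← h1,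
      Matrix.submatrix_id_id]

theorem charpoly_of_diag {U : Matrix (Fin k) (Fin k) ℝ} {l : Fin k → ℝ} (hU : Uᵀ * U = 1) :
    (U * diagonal l * Uᵀ).charpoly = ∏ i, (Polynomial.X - Polynomial.C (l i)) := by
  rw [Matrix.charpoly_mul_comm, ← Matrix.mul_assoc, hU, Matrix.one_mul, Matrix.charpoly_diagonal]

theorem diag_psd {U : Matrix (Fin k) (Fin k) ℝ} {l : Fin k → ℝ} (hl : ∀ i, 0 ≤ l i) :
    (U * diagonal l * Uᵀ).PosSemidef := by
  have h1 : (diagonal l).PosSemidef := Matrix.PosSemidef.diagonal hl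
  have h2 := h1.mul_mul_conjTranspose_same U
  rwa [Matrix.conjTranspose_eq_transpose_of_trivial] at h2

/-- the sum of the `j + 1` largest eigenvalues is at most `s` -/
theorem psum_le_iff {U X : Matrix (Fin k) (Fin k) ℝ} {l : Fin k → ℝ} (hU : Uᵀ * U = 1)
    (hU' : U * Uᵀ = 1) (hl : Antitone l) (hX : X = U * diagonal l * Uᵀ) (j : Fin k) (s : ℝ) :
    (∃ Z : Matrix (Fin k) (Fin k) ℝ, Z.PosSemidef ∧
      (Z + ((s - Z.trace) / (j + 1 : ℝ)) • (1 : Matrix (Fin k) (Fin k) ℝ) - X).PosSemidef) ↔
      psum l j ≤ s := by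
  have hj : (0 : ℝ) < (j + 1 : ℝ) := by positivity
  constructor
  · rintro ⟨Z, hZ, hZX⟩
    set c : ℝ := (s - Z.trace) / (j + 1 : ℝ) with hc
    have h1 : (Uᵀ * Z * U).PosSemidef := by
      have := hZ.mul_mul_conjTranspose_same Uᵀ
      rwa [Matrix.conjTranspose_eq_transpose_of_trivial, Matrix.transpose_transpose] at this
    have h2 : (Uᵀ * (Z + c • (1 : Matrix (Fin k) (Fin k) ℝ) - X) * U).PosSemidef := by
      have := hZX.mul_mul_conjTranspose_same Uᵀ
      rwa [Matrix.conjTranspose_eq_transpose_of_trivial, Matrix.transpose_transpose] at this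
    have h3 : Uᵀ * (Z + c • (1 : Matrix (Fin k) (Fin k) ℝ) - X) * U =
        Uᵀ * Z * U + c • (1 : Matrix (Fin k) (Fin k) ℝ) - diagonal l := by
      have h4 : Uᵀ * X * U = diagonal l := by
        rw [hX]
        calc Uᵀ * (U * diagonal l * Uᵀ) * U = (Uᵀ * U) * diagonal l * (Uᵀ * U) := by
              simp only [Matrix.mul_assoc]
          _ = diagonal l := by rw [hU, Matrix.one_mul, Matrix.mul_one]
      rw [Matrix.mul_sub, Matrix.mul_add, Matrix.sub_mul, Matrix.add_mul, h4, Matrix.mul_smul,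
        Matrix.smul_mul, Matrix.mul_one, hU]
    set d : Fin k → ℝ := fun i => (Uᵀ * Z * U) i i with hd
    have h4 : ∀ i, 0 ≤ d i := fun i => h1.diag_nonneg
    have h5 : ∀ i, l i ≤ d i + c := by
      intro i
      have h6 := h2.diag_nonneg (i := i)
      rw [h3] at h6
      simp only [Matrix.sub_apply, Matrix.add_apply, Matrix.smul_apply, Matrix.one_apply_eq,
        smul_eq_mul, mul_one, Matrix.diagonal_apply_eq] at h6
      simp only [hd]
      linarith
    have h6 : ∑ i, d i = Z.trace := by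
      have : ∑ i, d i = (Uᵀ * Z * U).trace := rfl
      rw [this, Matrix.trace_mul_comm, ← Matrix.mul_assoc, hU', Matrix.one_mul]
    calc psum l j ≤ psum (d + fun _ => c) j := psum_mono (fun i => h5 i) j
      _ = psum d j + (j + 1 : ℝ) * c := by rw [psum_add, psum_const]
      _ ≤ Z.trace + (j + 1 : ℝ) * c := by
          rw [← h6]
          linarith [psum_le_sum h4 j]
      _ = s := by
          rw [hc]
          field_simp
          ring
  · intro hs
    set m : Fin k → ℝ := fun i => max (l i - l j) 0 with hm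
    have h1 : (U * diagonal m * Uᵀ).trace = psum l j - (j + 1 : ℝ) * l j := by
      rw [Matrix.trace_mul_comm, ← Matrix.mul_assoc, hU, Matrix.one_mul, Matrix.trace_diagonal,
        ← psum_const, sub_eq_add_neg, ← neg_one_mul, ← psum_smul, ← psum_add]
      unfold psum
      refine Finset.sum_congr rfl fun i _ => ?_
      split_ifs with h
      · have : l j ≤ l i := hl h
        simp only [hm, Pi.add_apply, Pi.smul_apply, smul_eq_mul]
        rw [max_eq_left (by linarith)]
        ring
      · have : l i ≤ l j := hl (not_le.1 h).le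
        simp only [hm]
        rw [max_eq_right (by linarith)]
    refine ⟨U * diagonal m * Uᵀ, diag_psd fun i => le_max_right _ _, ?_⟩
    set c : ℝ := (s - (U * diagonal m * Uᵀ).trace) / (j + 1 : ℝ) with hc
    have h2 : l j ≤ c := by
      rw [hc, le_div_iff₀ hj, h1]
      linarith
    have h3 : U * diagonal m * Uᵀ + c • (1 : Matrix (Fin k) (Fin k) ℝ) - X =
        U * diagonal (fun i => m i + c - l i) * Uᵀ := by
      have h4 : diagonal (fun i => m i + c - l i) =
          diagonal m + c • (1 : Matrix (Fin k) (Fin k) ℝ) - diagonal l := by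
        ext i i'
        by_cases h : i = i'
        · subst h
          simp
        · simp [h]
      rw [h4, hX, Matrix.mul_sub, Matrix.mul_add, Matrix.sub_mul, Matrix.add_mul, Matrix.mul_smul,
        Matrix.smul_mul, Matrix.mul_one, hU']
    rw [h3]
    refine diag_psd fun i => ?_
    have := le_max_left (l i - l j) 0
    simp only [hm]
    linarith

end Vale.Agent.P256.H326
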