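import Vale.Agent.P256.H721.Lift
import Vale.Agent.P256.H326.B4Defs
import Vale.Agent.P256.H326.Norm
import Vale.Agent.P256.H326.SpecA

/-! Spectral extension: `p(x) = q(A x, λ(x))` where `q(u, y)` is invariant under the permutations
of the coordinates of `y` and `λ(x)` are the eigenvalues of a symmetric linear pencil `X x`. -/

namespace Vale.Agent.P256.H326

open MvPolynomial Matrix

/-- hyperbolicity and the cone are determined by the restrictions to the lines of direction `e` -/
theorem hyp_of_match {n N d : ℕ} {p : MvPolynomial (Fin n) ℝ} {q : MvPolynomial (Fin N) ℝ}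
    {e : Fin n → ℝ} {f : Fin N → ℝ} (hd : p.IsHomogeneous d) (h0 : eval e p = eval f q)
    (hq : IsHyperbolic q f)
    (h : ∀ x, ∃ y : Fin N → ℝ, ∀ t : ℝ, eval (t • e - x) p = eval (t • f - y) q) :
    IsHyperbolic p e := by
  refine ⟨⟨d, hd⟩, ?_, fun x t ht => ?_⟩
  · rw [h0]
    exact hq.2.1
  · obtain ⟨y, hy⟩ := h x
    have h1 : line p (-x) e = line q (-y) f := by
      apply Polynomial.funext
      intro s
      rw [eval_line, eval_line]
      have h2 : -x + s • e = s • e - x := by abel
      have h3 : -y + s • f = s • f - y := by abel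
      rw [h2, h3]
      exact hy s
    have h2 := aeval_line p (-x) e t
    have h3 := aeval_line q (-y) f t
    rw [h1, h3] at h2
    refine hq.2.2 y t ?_
    have h4 : (fun i => t * (f i : ℂ) - (y i : ℂ)) =
        fun i => (((-y) i : ℝ) : ℂ) + t * (f i : ℂ) := by
      funext i
      simp only [Pi.neg_apply, Complex.ofReal_neg]
      ring
    have h5 : (fun i => t * (e i : ℂ) - (x i : ℂ)) =
        fun i => (((-x) i : ℝ) : ℂ) + t * (e i : ℂ) := by
      funext i
      simp only [Pi.neg_apply, Complex.ofReal_neg]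
      ring
    rw [h4, h2, ← h5]
    exact ht

variable {n a k : ℕ}

theorem append_add (u u' : Fin a → ℝ) (y y' : Fin k → ℝ) :
    Fin.append (u + u') (y + y') = Fin.append u y + Fin.append u' y' := by
  funext i
  refine Fin.addCases (fun i => ?_) (fun i => ?_) i <;> simp

theorem append_smul (c : ℝ) (u : Fin a → ℝ) (y : Fin k → ℝ) :
    Fin.append (c • u) (c • y) = c • Fin.append u y := by
  funext i
  refine Fin.addCases (fun i => ?_) (fun i => ?_) i <;> simp

theorem append_sub (u u' : Fin a → ℝ) (y y' : Fin k → ℝ) :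
    Fin.append (u - u') (y - y') = Fin.append u y - Fin.append u' y' := by
  funext i
  refine Fin.addCases (fun i => ?_) (fun i => ?_) i <;> simp

variable {q : MvPolynomial (Fin (a + k)) ℝ} {v : Fin a → ℝ} {c : ℝ}

/-- the cone of a symmetric polynomial is symmetric -/
theorem cone_perm (hs : SymmLast q) {u : Fin a → ℝ} {y : Fin k → ℝ} (σ : Equiv.Perm (Fin k))
    (h : Fin.append u y ∈ hypCone q (Fin.append v fun _ => c)) :
    Fin.append u (y ∘ σ) ∈ hypCone q (Fin.append v fun _ => c) := by
  intro t ht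
  refine h t ?_
  rw [← ht]
  have h1 : t • Fin.append v (fun _ : Fin k => c) - Fin.append u y =
      Fin.append (t • v - u) ((t • fun _ : Fin k => c) - y) := by
    rw [append_sub, append_smul]
  have h2 : t • Fin.append v (fun _ : Fin k => c) - Fin.append u (y ∘ σ) =
      Fin.append (t • v - u) (((t • fun _ : Fin k => c) - y) ∘ σ) := by
    have : ((t • fun _ : Fin k => c) - y) ∘ σ = (t • fun _ : Fin k => c) - y ∘ σ := by
      funext i
      simp
    rw [this, append_sub, append_smul]
  rw [h1, h2, hs]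

/-- **Majorization.** -/
theorem major_mem (hq : IsHyperbolic q (Fin.append v fun _ => c)) (hs : SymmLast q)
    {u : Fin a → ℝ} {y l : Fin k → ℝ} (hl : Antitone l) (h1 : ∀ j, psum l j ≤ psum y j)
    (h2 : ∑ i, y i ≤ ∑ i, l i)
    (hy : Fin.append u y ∈ hypCone q (Fin.append v fun _ => c)) :
    Fin.append u l ∈ hypCone q (Fin.append v fun _ => c) := by
  by_contra hcon
  have hconv : Convex ℝ (hypCone q (Fin.append v fun _ => c)) := by
    intro x hx z hz s t hs0 ht0 _
    exact K_add hq (K_smul hq hx hs0) (K_smul hq hz ht0)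
  obtain ⟨f, m, hf1, hf2⟩ := geometric_hahn_banach_closed_point hconv (isClosed_K hq) hcon
  have hm : 0 < m := by
    have := hf1 0 (K_zero hq)
    rwa [map_zero] at this
  have hf3 : ∀ x ∈ hypCone q (Fin.append v fun _ => c), f x ≤ 0 := by
    intro x hx
    by_contra hx0
    rw [not_le] at hx0
    have h3 := hf1 ((m / f x) • x) (K_smul hq hx (by positivity))
    rw [map_smul, smul_eq_mul, div_mul_cancel₀ _ hx0.ne'] at h3
    exact lt_irrefl _ h3
  set α : ℝ := -f (Fin.append u 0) with hα
  set β : Fin k → ℝ := fun i => -f (Fin.append 0 (Pi.single i 1)) with hβ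
  have hval : ∀ z : Fin k → ℝ, f (Fin.append u z) = -(α + ∑ i, β i * z i) := by
    intro z
    have h4 : Fin.append u z = Fin.append u 0 + ∑ i, z i • Fin.append (0 : Fin a → ℝ)
        (Pi.single i (1 : ℝ) : Fin k → ℝ) := by
      funext j
      refine Fin.addCases (fun j => ?_) (fun j => ?_) j
      · simp
      · simp only [Fin.append_right, Pi.add_apply, Pi.zero_apply, zero_add, Finset.sum_apply,
          Pi.smul_apply, smul_eq_mul]
        rw [Finset.sum_eq_single j]
        · simp
        · intro b _ hb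
          simp [Ne.symm hb]
        · simp
    rw [h4, map_add, map_sum, hα, neg_add, neg_neg, ← Finset.sum_neg_distrib]
    congr 1
    refine Finset.sum_congr rfl fun i _ => ?_
    rw [map_smul, smul_eq_mul]
    simp only [hβ]
    ring
  let σ : Equiv.Perm (Fin k) := Tuple.sort β
  have hσ : Monotone (β ∘ σ) := Tuple.monotone_sort _
  -- the reordered functional is negative at `l`
  have h5 : α + ∑ i, β (σ i) * l i < 0 := by
    have h6 : Antivary (β ∘ σ) l := by
      intro i j hij
      have h7 : j < i := by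
        by_contra h8
        exact absurd (hl (not_lt.1 h8)) (not_le.2 hij)
      exact hσ h7.le
    have h7 := h6.sum_mul_le_sum_mul_comp_perm (σ := σ)
    have h8 : ∑ i, (β ∘ σ) i * l (σ i) = ∑ i, β i * l i :=
      Equiv.sum_comp σ fun i => β i * l i
    rw [h8] at h7
    have h9 := hval l
    simp only [Function.comp_apply] at h7
    linarith
  -- and nonnegative at `y`
  have h6 : 0 ≤ α + ∑ i, β (σ i) * y i := by
    have h7 := hf3 _ (cone_perm hs σ.symm hy)
    rw [hval] at h7
    have h8 : ∑ i, β i * (y ∘ σ.symm) i = ∑ i, β (σ i) * y i := by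
      rw [← Equiv.sum_comp σ fun i => β i * (y ∘ σ.symm) i]
      refine Finset.sum_congr rfl fun i _ => ?_
      simp
    rw [h8] at h7
    linarith
  have h7 := abel_nonpos (β ∘ σ) (fun i => y i - l i) hσ (fun j => by
    have h8 : (fun i => y i - l i) = y + (-1 : ℝ) • l := by
      funext i
      simp [sub_eq_add_neg]
    rw [h8, psum_add, psum_smul]
    linarith [h1 j]) (by
    rw [Finset.sum_sub_distrib]
    linarith)
  have h8 : ∑ i, (β ∘ σ) i * (y i - l i) = ∑ i, β (σ i) * y i - ∑ i, β (σ i) * l i := by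
    rw [← Finset.sum_sub_distrib]
    refine Finset.sum_congr rfl fun i _ => ?_
    simp only [Function.comp_apply]
    ring
  rw [h8] at h7
  linarith

variable {p : MvPolynomial (Fin n) ℝ} {e : Fin n → ℝ} {A : (Fin n → ℝ) →ₗ[ℝ] (Fin a → ℝ)}
  {X : (Fin n → ℝ) →ₗ[ℝ] Matrix (Fin k) (Fin k) ℝ}

theorem spec_line (hXe : X e = c • (1 : Matrix (Fin k) (Fin k) ℝ))
    (hp : ∀ x y, (X x).charpoly = ∏ i, (Polynomial.X - Polynomial.C (y i)) →
      eval x p = eval (Fin.append (A x) y) q) {x : Fin n → ℝ} {U : Matrix (Fin k) (Fin k) ℝ}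
    {l : Fin k → ℝ} (hU : Uᵀ * U = 1) (hU' : U * Uᵀ = 1) (hX : X x = U * diagonal l * Uᵀ) (t : ℝ) :
    eval (t • e - x) p =
      eval (t • Fin.append (A e) (fun _ : Fin k => c) - Fin.append (A x) l) q := by
  have h1 : X (t • e - x) = U * diagonal (fun i => t * c - l i) * Uᵀ := by
    have h2 : diagonal (fun i => t * c - l i) =
        (t * c) • (1 : Matrix (Fin k) (Fin k) ℝ) - diagonal l := by
      ext i i'
      by_cases h : i = i'
      · subst h
        simp
      · simp [h]
    rw [h2, Matrix.mul_sub, Matrix.sub_mul, Matrix.mul_smul, Matrix.smul_mul, Matrix.mul_one, hU',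
      ← hX, map_sub, map_smul, hXe, smul_smul]
  rw [hp _ (fun i => t * c - l i) (by rw [h1, charpoly_of_diag hU]), map_sub, map_smul]
  congr 2
  rw [← append_smul, ← append_sub]
  congr 1

theorem spec_hyp (hq : IsHyperbolic q (Fin.append (A e) fun _ => c))
    (hsym : ∀ x, (X x).IsSymm) (hXe : X e = c • (1 : Matrix (Fin k) (Fin k) ℝ))
    (hp : ∀ x y, (X x).charpoly = ∏ i, (Polynomial.X - Polynomial.C (y i)) →
      eval x p = eval (Fin.append (A x) y) q) : IsHyperbolic p e := by
  obtain ⟨d, hd⟩ := hq.1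
  refine hyp_of_match (d := d) (homog_of_smul fun x s => ?_) ?_ hq fun x => ?_
  · obtain ⟨U, l, hU, hU', -, hX⟩ := exists_sorted_diag (hsym x)
    have h1 : X (s • x) = U * diagonal (fun i => s * l i) * Uᵀ := by
      have h2 : diagonal (fun i => s * l i) = s • diagonal l := by
        ext i i'
        by_cases h : i = i'
        · subst h
          simp
        · simp [h]
      rw [h2, Matrix.mul_smul, Matrix.smul_mul, ← hX, map_smul]
    rw [hp _ (fun i => s * l i) (by rw [h1, charpoly_of_diag hU]),
      hp x l (by rw [hX, charpoly_of_diag hU]), ← eval_smul' hd, ← append_smul, map_smul]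
    congr 1
  · refine hp e (fun _ => c) ?_
    have h1 : X e = 1 * diagonal (fun _ : Fin k => c) * (1 : Matrix (Fin k) (Fin k) ℝ)ᵀ := by
      rw [hXe, Matrix.transpose_one, Matrix.one_mul, Matrix.mul_one]
      ext i i'
      by_cases h : i = i'
      · subst h
        simp
      · simp [h]
    rw [h1, charpoly_of_diag (by rw [Matrix.transpose_one, Matrix.one_mul])]
  · obtain ⟨U, l, hU, hU', -, hX⟩ := exists_sorted_diag (hsym x)
    exact ⟨Fin.append (A x) l, fun t => spec_line hXe hp hU hU' hX t⟩

theorem mem_spec (hXe : X e = c • (1 : Matrix (Fin k) (Fin k) ℝ))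
    (hp : ∀ x y, (X x).charpoly = ∏ i, (Polynomial.X - Polynomial.C (y i)) →
      eval x p = eval (Fin.append (A x) y) q) {x : Fin n → ℝ} {U : Matrix (Fin k) (Fin k) ℝ}
    {l : Fin k → ℝ} (hU : Uᵀ * U = 1) (hU' : U * Uᵀ = 1) (hX : X x = U * diagonal l * Uᵀ) :
    x ∈ hypCone p e ↔ Fin.append (A x) l ∈ hypCone q (Fin.append (A e) fun _ => c) := by
  simp only [hypCone, Set.mem_ofPred_eq]
  refine forall_congr' fun t => ?_
  rw [spec_line hXe hp hU hU' hX]

end Vale.Agent.P256.H326
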