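import Vale.Agent.P256.H326.Ultra

/-! Uniform quadraticity of a hyperbolic polynomial at smooth boundary points. -/

set_option linter.all false

namespace Vale.Agent.P256.H326

open Filter Topology Vale.Agent.P256 Polynomial

/-! ### Coefficient bounds -/

/-- the coefficients of a real polynomial of bounded degree are bounded by its maximum on
`[-1, 1]` -/
theorem coeff_bound (N : ℕ) : ∃ C : ℝ, 0 < C ∧ ∀ f : ℝ[X], f.natDegree ≤ N → ∀ B : ℝ,
    (∀ t : ℝ, |t| ≤ 1 → |f.eval t| ≤ B) → ∀ k, |f.coeff k| ≤ C * B := by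
  classical
  have hind : ∀ (v : Fin (N + 1) → ℝ), v ≠ 0 →
      (∀ t ∈ {t : ℝ | |t| ≤ 1}, ∑ k, v k * t ^ (k : ℕ) = 0) → False := by
    intro v hv hz
    apply hv
    set f : ℝ[X] := ∑ k : Fin (N + 1), C (v k) * X ^ (k : ℕ) with hf
    have hev : ∀ t, f.eval t = ∑ k, v k * t ^ (k : ℕ) := by
      intro t
      rw [hf, eval_finsetSum]
      exact Finset.sum_congr rfl fun k _ => by simp
    have hf0 : f = 0 := by
      apply eq_zero_of_infinite_isRoot
      have hinf : Set.Infinite (Set.Icc (-1 : ℝ) 1) := Set.Icc_infinite (by norm_num)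
      refine hinf.mono ?_
      intro t ht
      show f.eval t = 0
      rw [hev]
      exact hz t (abs_le.2 ht)
    funext k
    have h1 : f.coeff k = v k := by
      rw [hf, finsetSum_coeff]
      simp only [coeff_C_mul, coeff_X_pow]
      rw [Finset.sum_eq_single k]
      · simp
      · intro j _ hj
        have : (k : ℕ) ≠ (j : ℕ) := fun h => hj (Fin.ext h.symm)
        simp [this]
      · simp
    rw [← h1, hf0]; simp
  have hsep := fun k : Fin (N + 1) =>
    separate {t : ℝ | |t| ≤ 1} (fun (k : Fin (N + 1)) (t : ℝ) => t ^ (k : ℕ)) hind k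
  choose m w z hz hw using hsep
  refine ⟨1 + ∑ k, ∑ i, |w k i|, ?_, fun f hf B hB k => ?_⟩
  · have : 0 ≤ ∑ k, ∑ i, |w k i| :=
      Finset.sum_nonneg fun _ _ => Finset.sum_nonneg fun _ _ => abs_nonneg _
    linarith
  · have hB0 : 0 ≤ B := (abs_nonneg _).trans (hB 0 (by simp))
    have hS0 : 0 ≤ ∑ k, ∑ i, |w k i| :=
      Finset.sum_nonneg fun _ _ => Finset.sum_nonneg fun _ _ => abs_nonneg _
    by_cases hk : k < N + 1
    · set k' : Fin (N + 1) := ⟨k, hk⟩ with hk'
      have hev : ∀ t, f.eval t = ∑ j : Fin (N + 1), f.coeff j * t ^ (j : ℕ) := by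
        intro t
        rw [eval_eq_sum_range' (Nat.lt_succ_of_le hf)]
        exact (Fin.sum_univ_eq_sum_range (fun j => f.coeff j * t ^ j) (N + 1)).symm
      have h1 : f.coeff k = ∑ i, w k' i * f.eval (z k' i) := by
        simp only [hev, Finset.mul_sum]
        rw [Finset.sum_comm]
        have : ∀ j : Fin (N + 1), ∑ i, w k' i * (f.coeff j * (z k' i) ^ (j : ℕ)) =
            f.coeff j * (if j = k' then 1 else 0) := by
          intro j
          rw [← hw k' j, Finset.mul_sum]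
          exact Finset.sum_congr rfl fun i _ => by ring
        simp only [this]
        simp [hk']
      rw [h1]
      have h2 : |∑ i, w k' i * f.eval (z k' i)| ≤ ∑ i, |w k' i| * B := by
        refine (Finset.abs_sum_le_sum_abs _ _).trans (Finset.sum_le_sum fun i _ => ?_)
        rw [abs_mul]
        exact mul_le_mul_of_nonneg_left (hB _ (hz k' i)) (abs_nonneg _)
      refine h2.trans ?_
      rw [← Finset.sum_mul]
      refine mul_le_mul_of_nonneg_right ?_ hB0
      have h3 : ∑ i, |w k' i| ≤ ∑ k, ∑ i, |w k i| :=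
        Finset.single_le_sum (f := fun k => ∑ i, |w k i|)
          (fun _ _ => Finset.sum_nonneg fun _ _ => abs_nonneg _) (Finset.mem_univ k')
      linarith
    · rw [coeff_eq_zero_of_natDegree_lt (by omega), abs_zero]
      positivity

/-- polynomials are Lipschitz on balls -/
theorem poly_lip {n : ℕ} (q : MvPolynomial (Fin n) ℝ) (R : ℝ) (hR : 0 ≤ R) :
    ∃ C : ℝ, 0 ≤ C ∧ (∀ x : Fin n → ℝ, (∀ i, |x i| ≤ R) → |MvPolynomial.eval x q| ≤ C) ∧
      ∀ (x y : Fin n → ℝ) (δ : ℝ), 0 ≤ δ → (∀ i, |x i| ≤ R) → (∀ i, |y i| ≤ R) →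
        (∀ i, |x i - y i| ≤ δ) →
        |MvPolynomial.eval x q - MvPolynomial.eval y q| ≤ C * δ := by
  induction q using MvPolynomial.induction_on with
  | C a =>
    refine ⟨|a|, abs_nonneg _, fun x _ => by simp, fun x y δ h0 _ _ hδ => ?_⟩
    simp only [MvPolynomial.eval_C, sub_self, abs_zero]
    exact mul_nonneg (abs_nonneg _) h0
  | add p q hp hq =>
    obtain ⟨C1, h1, h2, h3⟩ := hp
    obtain ⟨C2, k1, k2, k3⟩ := hq
    refine ⟨C1 + C2, by positivity, fun x hx => ?_, fun x y δ h0 hx hy hd => ?_⟩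
    · rw [map_add]
      exact (abs_add_le _ _).trans (add_le_add (h2 x hx) (k2 x hx))
    · rw [map_add, map_add, add_sub_add_comm, add_mul]
      exact (abs_add_le _ _).trans (add_le_add (h3 x y δ h0 hx hy hd) (k3 x y δ h0 hx hy hd))
  | mul_X p i hp =>
    obtain ⟨C1, h1, h2, h3⟩ := hp
    refine ⟨C1 * (R + 1), by positivity, fun x hx => ?_, fun x y δ h0 hx hy hd => ?_⟩
    · rw [map_mul, MvPolynomial.eval_X, abs_mul]
      refine (mul_le_mul (h2 x hx) (hx i) (abs_nonneg _) h1).trans ?_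
      nlinarith
    · rw [map_mul, map_mul, MvPolynomial.eval_X, MvPolynomial.eval_X]
      have e : MvPolynomial.eval x p * x i - MvPolynomial.eval y p * y i =
          (MvPolynomial.eval x p - MvPolynomial.eval y p) * x i +
            MvPolynomial.eval y p * (x i - y i) := by ring
      rw [e]
      refine (abs_add_le _ _).trans ?_
      rw [abs_mul, abs_mul]
      have a1 := h3 x y δ h0 hx hy hd
      have a2 := h2 y hy
      have a3 := hx i
      have a4 := hd i
      have b1 : |MvPolynomial.eval x p - MvPolynomial.eval y p| * |x i| ≤ (C1 * δ) * R :=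
        mul_le_mul a1 a3 (abs_nonneg _) ((abs_nonneg _).trans a1)
      have b2 : |MvPolynomial.eval y p| * |x i - y i| ≤ C1 * δ :=
        mul_le_mul a2 a4 (abs_nonneg _) h1
      nlinarith


/-- univariate core of the uniform quadraticity -/
theorem split_bound {G : ℝ[X]} (hG : G.Splits) {d : ℕ} (hdeg : G.natDegree ≤ d)
    {c0 Cup C1 C2 σ : ℝ} (hc0 : 0 < c0) (hCup : 0 ≤ Cup) (hC1 : 0 ≤ C1) (hC2 : 0 ≤ C2)
    (hσ : 0 < σ) (glow : c0 * σ ≤ G.eval 0) (gup : G.eval 0 ≤ Cup * σ)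
    (gd1 : |(derivative G).eval 0| ≤ C1 * σ)
    (gd2 : -(C2 * σ) ≤ (derivative (derivative G)).eval 0) {t : ℝ} (ht : |t| ≤ 1) :
    |G.eval t| ≤ (Cup * σ) * (1 + Real.sqrt ((C1 ^ 2 + Cup * C2) / c0 ^ 2)) ^ d := by
  set M : ℝ := Real.sqrt ((C1 ^ 2 + Cup * C2) / c0 ^ 2) with hM
  have hM0 : 0 ≤ M := Real.sqrt_nonneg _
  have hM2 : M ^ 2 * c0 ^ 2 = C1 ^ 2 + Cup * C2 := by
    rw [hM, Real.sq_sqrt (by positivity)]
    field_simp
  have gpos : 0 < G.eval 0 := lt_of_lt_of_le (by positivity) glow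
  have key := (eval_sq_nonneg hG gpos.ne').2 M hM0 (by
    have h5 : (derivative G).eval 0 ^ 2 ≤ (C1 * σ) ^ 2 := by
      rw [← sq_abs]
      exact pow_le_pow_left₀ (abs_nonneg _) gd1 2
    have h6 : -(G.eval 0 * (derivative (derivative G)).eval 0) ≤ (Cup * σ) * (C2 * σ) := by
      have h8 : 0 ≤ C2 * σ := by positivity
      calc -(G.eval 0 * (derivative (derivative G)).eval 0)
          = G.eval 0 * (-(derivative (derivative G)).eval 0) := by ring
        _ ≤ G.eval 0 * (C2 * σ) :=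
            mul_le_mul_of_nonneg_left (by linarith only [gd2]) gpos.le
        _ ≤ (Cup * σ) * (C2 * σ) := mul_le_mul_of_nonneg_right gup h8
    have h9 : (c0 * σ) ^ 2 ≤ G.eval 0 ^ 2 := pow_le_pow_left₀ (by positivity) glow 2
    have h10 : M ^ 2 * (c0 * σ) ^ 2 ≤ M ^ 2 * G.eval 0 ^ 2 :=
      mul_le_mul_of_nonneg_left h9 (sq_nonneg _)
    have h11 : M ^ 2 * (c0 * σ) ^ 2 = (C1 ^ 2 + Cup * C2) * σ ^ 2 := by
      rw [mul_pow, ← mul_assoc, hM2]
    nlinarith only [h5, h6, h10, h11]) t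
  refine key.trans ?_
  rw [abs_of_pos gpos]
  refine mul_le_mul gup ?_ (by positivity) (by positivity)
  calc (1 + M * |t|) ^ G.natDegree ≤ (1 + M) ^ G.natDegree := by
        refine pow_le_pow_left₀ (by positivity) ?_ _
        nlinarith only [ht, hM0]
    _ ≤ (1 + M) ^ d := pow_le_pow_right₀ (by linarith only [hM0]) hdeg

variable {n : ℕ} {p : MvPolynomial (Fin n) ℝ} {e : Fin n → ℝ}

theorem dd_lip (p : MvPolynomial (Fin n) ℝ) (R : ℝ) (hR : 0 ≤ R) :
    ∃ C : ℝ, 0 ≤ C ∧ ∀ (x y w : Fin n → ℝ) (δ : ℝ), 0 ≤ δ → (∀ i, |x i| ≤ R) →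
      (∀ i, |y i| ≤ R) → (∀ i, |x i - y i| ≤ δ) → (∀ i, |w i| ≤ 1) →
      |dd p x w - dd p y w| ≤ C * δ := by
  have l1 := fun i => poly_lip (MvPolynomial.pderiv i p) R hR
  choose Ci hCi bi1 bi2 using l1
  refine ⟨∑ i, Ci i, Finset.sum_nonneg fun i _ => hCi i, ?_⟩
  intro x y w δ h0 hx hy hxy hw
  unfold dd
  rw [← Finset.sum_sub_distrib, Finset.sum_mul]
  refine (Finset.abs_sum_le_sum_abs _ _).trans (Finset.sum_le_sum fun i _ => ?_)
  rw [← mul_sub, abs_mul]
  have := bi2 i x y δ h0 hx hy hxy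
  calc |w i| * |MvPolynomial.eval x (MvPolynomial.pderiv i p) -
        MvPolynomial.eval y (MvPolynomial.pderiv i p)| ≤ 1 * (Ci i * δ) :=
        mul_le_mul (hw i) this (abs_nonneg _) zero_le_one
    _ = Ci i * δ := one_mul _

theorem dd2_lip (p : MvPolynomial (Fin n) ℝ) (R : ℝ) (hR : 0 ≤ R) :
    ∃ C : ℝ, 0 ≤ C ∧ ∀ (x y w : Fin n → ℝ) (δ : ℝ), 0 ≤ δ → (∀ i, |x i| ≤ R) →
      (∀ i, |y i| ≤ R) → (∀ i, |x i - y i| ≤ δ) → (∀ i, |w i| ≤ 1) →
      |dd2 p x w - dd2 p y w| ≤ C * δ := by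
  have l2 := fun i j => poly_lip (MvPolynomial.pderiv i (MvPolynomial.pderiv j p)) R hR
  choose Cij hCij bij1 bij2 using l2
  refine ⟨∑ i, ∑ j, Cij i j, Finset.sum_nonneg fun i _ => Finset.sum_nonneg
    fun j _ => hCij i j, ?_⟩
  intro x y w δ h0 hx hy hxy hw
  unfold dd2
  rw [← Finset.sum_sub_distrib, Finset.sum_mul]
  refine (Finset.abs_sum_le_sum_abs _ _).trans (Finset.sum_le_sum fun i _ => ?_)
  rw [← Finset.sum_sub_distrib, Finset.sum_mul]
  refine (Finset.abs_sum_le_sum_abs _ _).trans (Finset.sum_le_sum fun j _ => ?_)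
  rw [← mul_sub, abs_mul, abs_mul]
  have := bij2 i j x y δ h0 hx hy hxy
  have hw2 : |w i| * |w j| ≤ 1 := by
    have := mul_le_mul (hw i) (hw j) (abs_nonneg _) zero_le_one
    simpa using this
  calc |w i| * |w j| * |_| ≤ 1 * (Cij i j * δ) :=
        mul_le_mul hw2 this (abs_nonneg _) zero_le_one
    _ = Cij i j * δ := one_mul _

theorem abs_smul_le {c R : ℝ} {v : Fin n → ℝ} (hc : |c| ≤ 1) (hv : ∀ i, |v i| ≤ R) (i : Fin n) :
    |c * v i| ≤ R := by
  rw [abs_mul]
  have := mul_le_mul hc (hv i) (abs_nonneg _) zero_le_one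
  linarith only [this]

/-- The main estimate with a parameter `σ`. -/
theorem uq_main (hp : IsHyperbolic p e) {d : ℕ} (hd : p.IsHomogeneous d) {R c0 : ℝ} (hR : 0 ≤ R)
    (hc0 : 0 < c0) : ∃ C : ℝ, 0 < C ∧ ∀ (y w : Fin n → ℝ) (σ : ℝ), 0 < σ → σ ≤ 1 →
      y ∈ hypCone p e → MvPolynomial.eval y p = 0 → (∀ i, |y i| + |e i| + 1 ≤ R) →
      (∀ s, 0 ≤ s → s ≤ σ → c0 ≤ dd p (y + s • e) e) → (∀ i, |w i| ≤ 1) → dd p y w = 0 →
      - dd2 p y w ≤ σ → ∀ t : ℝ, |t| ≤ 1 → |MvPolynomial.eval (y + t • w) p| ≤ C * σ := by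
  obtain ⟨Cp, hCp, bp1, bp2⟩ := poly_lip p R hR
  obtain ⟨D1, hD1, bd1⟩ := dd_lip p R hR
  obtain ⟨D2, hD2, bd2⟩ := dd2_lip p R hR
  set C1 : ℝ := D1 * ‖e‖ with hC1
  set C2 : ℝ := D2 * ‖e‖ with hC2
  set Cup : ℝ := Cp * ‖e‖ with hCup
  have hC1' : 0 ≤ C1 := by positivity
  have hC2' : 0 ≤ C2 := by positivity
  have hCup' : 0 ≤ Cup := by positivity
  set K : ℝ := (1 + Real.sqrt ((C1 ^ 2 + Cup * (1 + C2)) / c0 ^ 2)) ^ d with hK
  have hK0 : 0 ≤ K := by positivity
  refine ⟨Cup * K + Cup + 1, by positivity, ?_⟩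
  intro y w σ hσ0 hσ1 hyK hy0 hyR hD hw hwt hασ t ht
  have hei : ∀ i, |e i| ≤ ‖e‖ := fun i => by
    have := norm_le_pi_norm e i
    rwa [Real.norm_eq_abs] at this
  have hyR' : ∀ i, |y i| ≤ R := fun i => by
    have := hyR i
    have := abs_nonneg (e i)
    linarith only [this, hyR i]
  have hσe : ∀ i, |σ * e i| ≤ |e i| := fun i => by
    rw [abs_mul, abs_of_pos hσ0]
    exact mul_le_of_le_one_left (abs_nonneg _) hσ1
  have htw : ∀ i, |t * w i| ≤ 1 := abs_smul_le ht hw
  have hyσR : ∀ i, |(y + σ • e) i| ≤ R := by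
    intro i
    rw [Pi.add_apply, Pi.smul_apply, smul_eq_mul]
    have a4 := abs_add_le (y i) (σ * e i)
    linarith only [a4, hσe i, hyR i]
  have hywR : ∀ i, |(y + t • w) i| ≤ R := by
    intro i
    rw [Pi.add_apply, Pi.smul_apply, smul_eq_mul]
    have a4 := abs_add_le (y i) (t * w i)
    have := abs_nonneg (e i)
    linarith only [a4, htw i, hyR i, this]
  have hyσwR : ∀ i, |(y + σ • e + t • w) i| ≤ R := by
    intro i
    rw [Pi.add_apply, Pi.add_apply, Pi.smul_apply, smul_eq_mul, Pi.smul_apply, smul_eq_mul]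
    have a4 := abs_add_le (y i + σ * e i) (t * w i)
    have a6 := abs_add_le (y i) (σ * e i)
    linarith only [a4, a6, hσe i, htw i, hyR i]
  have hσdist : ∀ (x : Fin n → ℝ) i, |(x + σ • e) i - x i| ≤ ‖e‖ * σ := by
    intro x i
    rw [Pi.add_apply, Pi.smul_apply, smul_eq_mul, add_sub_cancel_left, abs_mul, abs_of_pos hσ0,
      mul_comm]
    exact mul_le_mul_of_nonneg_right (hei i) hσ0.le
  have hop : InOpen p e (y + σ • e) := (mem_K_iff hp y).1 hyK σ hσ0
  have hsp := splits_line_open hp hop w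
  set G := line p (y + σ • e) w with hG
  have g0 : G.eval 0 = MvPolynomial.eval (y + σ • e) p := by rw [hG, eval_line]; simp
  have g1 : (derivative G).eval 0 = dd p (y + σ • e) w := by
    rw [hG, eval_derivative_line]; simp
  have g2 : (derivative (derivative G)).eval 0 = dd2 p (y + σ • e) w := by
    rw [hG, eval_derivative2_line, dd2_eq_eval]; simp
  have glow : c0 * σ ≤ G.eval 0 := by
    rw [g0]
    obtain ⟨ξ, hξ, hξ'⟩ := exists_deriv_eq_slope (fun s => (line p y e).eval s) hσ0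
      (line p y e).continuous.continuousOn (line p y e).differentiable.differentiableOn
    rw [Polynomial.deriv, eval_derivative_line, eval_line, eval_line] at hξ'
    simp only [zero_smul, add_zero, hy0, sub_zero] at hξ'
    have := hD ξ hξ.1.le hξ.2.le
    rw [hξ', le_div_iff₀ hσ0] at this
    exact this
  have gup : G.eval 0 ≤ Cup * σ := by
    rw [g0]
    have := bp2 (y + σ • e) y (‖e‖ * σ) (by positivity) hyσR hyR' (hσdist y)
    rw [hy0, sub_zero] at this
    rw [hCup, mul_assoc]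
    exact (le_abs_self _).trans this
  have gd1 : |(derivative G).eval 0| ≤ C1 * σ := by
    rw [g1]
    have := bd1 (y + σ • e) y w (‖e‖ * σ) (by positivity) hyσR hyR' (hσdist y) hw
    rw [hwt, sub_zero] at this
    rw [hC1, mul_assoc]; exact this
  have gd2 : -((1 + C2) * σ) ≤ (derivative (derivative G)).eval 0 := by
    rw [g2]
    have := bd2 (y + σ • e) y w (‖e‖ * σ) (by positivity) hyσR hyR' (hσdist y) hw
    have h5 := (abs_le.1 this).1
    rw [hC2]
    nlinarith only [h5, hασ]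
  have k1 := split_bound hsp (line_top hd _ _).1 hc0 hCup' hC1' (by positivity) hσ0 glow gup gd1
    gd2 ht
  rw [← hK, eval_line] at k1
  have k2 := bp2 (y + σ • e + t • w) (y + t • w) (‖e‖ * σ) (by positivity)
    hyσwR hywR (fun i => by
      have h5 := hσdist (y + t • w) i
      have h6 : (y + σ • e + t • w) i = (y + t • w + σ • e) i := by
        simp only [Pi.add_apply, Pi.smul_apply, smul_eq_mul]; ring
      rw [h6]; exact h5)
  have k3 : |MvPolynomial.eval (y + t • w) p| ≤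
      |MvPolynomial.eval (y + σ • e + t • w) p| + Cp * (‖e‖ * σ) := by
    have := abs_sub_abs_le_abs_sub (MvPolynomial.eval (y + t • w) p)
      (MvPolynomial.eval (y + σ • e + t • w) p)
    rw [abs_sub_comm] at this
    linarith only [this, k2]
  have k4 : Cp * (‖e‖ * σ) = Cup * σ := by rw [hCup]; ring
  rw [k4] at k3
  calc |MvPolynomial.eval (y + t • w) p| ≤ _ := k3
    _ ≤ Cup * σ * K + Cup * σ := by linarith only [k1]
    _ ≤ (Cup * K + Cup + 1) * σ := by nlinarith only [hσ0]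

/-- **Uniform quadraticity.**  Near a smooth boundary point all Taylor coefficients of `p` in a
tangent direction are bounded by the second one, with a uniform constant. -/
theorem uq (hp : IsHyperbolic p e) {z0 : Fin n → ℝ} (hs : 0 < dd p z0 e) :
    ∃ U ∈ 𝓝 z0, ∃ C : ℝ, 0 < C ∧ ∀ y ∈ U, y ∈ hypCone p e → MvPolynomial.eval y p = 0 →
      ∀ w : Fin n → ℝ, (∀ i, |w i| ≤ 1) → dd p y w = 0 →
        dd2 p y w ≤ 0 ∧ ∀ k, |MvPolynomial.eval w (part p y k)| ≤ C * (- dd2 p y w) := by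
  classical
  obtain ⟨d, hd⟩ := hp.1
  obtain ⟨C4, hC4, hcoef⟩ := coeff_bound d
  set R : ℝ := ‖z0‖ + ‖e‖ + 2 with hR
  have hR0 : 0 ≤ R := by positivity
  obtain ⟨Cp, hCp, bp1, bp2⟩ := poly_lip p R hR0
  set c0 : ℝ := dd p z0 e / 2 with hc0
  have hc0' : 0 < c0 := by positivity
  obtain ⟨C3, hC3, hmain⟩ := uq_main hp hd hR0 hc0'
  have hopen : {x | c0 < dd p x e} ∈ 𝓝 z0 := by
    refine (continuous_dd p e).continuousAt.eventually (lt_mem_nhds ?_)
    rw [hc0]; linarith only [hs]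
  obtain ⟨r, hr, hball⟩ := Metric.mem_nhds_iff.1 hopen
  set σ1 : ℝ := min 1 (r / (2 * (‖e‖ + 1))) with hσ1
  have hσ1' : 0 < σ1 := lt_min one_pos (by positivity)
  have hσ1le : σ1 ≤ 1 := min_le_left _ _
  have hσe : ∀ σ : ℝ, 0 ≤ σ → σ ≤ σ1 → ‖σ • e‖ ≤ r / 2 := by
    intro σ h1 h2
    rw [norm_smul, Real.norm_of_nonneg h1]
    have h3 : σ1 ≤ r / (2 * (‖e‖ + 1)) := min_le_right _ _
    have h4 : σ * (2 * (‖e‖ + 1)) ≤ r := by
      have := h2.trans h3
      rwa [le_div_iff₀ (by positivity)] at this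
    nlinarith only [h4, h1, norm_nonneg e]
  refine ⟨Metric.ball z0 (min 1 (r / 2)), Metric.ball_mem_nhds _ (lt_min one_pos (by positivity)),
    C4 * C3 + C4 * Cp / σ1 + 1, by positivity, fun y hyU hyK hy0 w hw hwt => ?_⟩
  have hyz : dist y z0 < 1 := (Metric.mem_ball.1 hyU).trans_le (min_le_left _ _)
  have hyz2 : dist y z0 < r / 2 := (Metric.mem_ball.1 hyU).trans_le (min_le_right _ _)
  have hDy : ∀ σ : ℝ, 0 ≤ σ → σ ≤ σ1 → c0 ≤ dd p (y + σ • e) e := by
    intro σ h1 h2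
    refine le_of_lt (hball ?_)
    rw [Metric.mem_ball, dist_eq_norm]
    have h3 : y + σ • e - z0 = (y - z0) + σ • e := by abel
    rw [h3]
    have h4 := norm_add_le (y - z0) (σ • e)
    rw [dist_eq_norm] at hyz2
    linarith only [h4, hyz2, hσe σ h1 h2]
  have hyn : ‖y‖ ≤ ‖z0‖ + 1 := by
    have := norm_le_norm_add_norm_sub' y z0
    rw [dist_eq_norm] at hyz
    linarith only [this, hyz]
  have hyR : ∀ i, |y i| + |e i| + 1 ≤ R := fun i => by
    have h1 := norm_le_pi_norm y i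
    have h2 := norm_le_pi_norm e i
    rw [Real.norm_eq_abs] at h1 h2
    linarith only [h1, h2, hyn]
  have hywR : ∀ t : ℝ, |t| ≤ 1 → ∀ i, |(y + t • w) i| ≤ R := by
    intro t ht i
    rw [Pi.add_apply, Pi.smul_apply, smul_eq_mul]
    have a4 := abs_add_le (y i) (t * w i)
    have := abs_nonneg (e i)
    linarith only [a4, abs_smul_le ht hw i, hyR i, this]
  have hsy : 0 < dd p y e := by
    have := hDy 0 le_rfl hσ1'.le
    rw [zero_smul, add_zero] at this
    linarith only [this, hc0']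
  obtain ⟨hcurv, -⟩ := curvature hp hyK hy0 hsy hwt
  set α : ℝ := - dd2 p y w with hα
  have hα0 : 0 ≤ α := by rw [hα]; linarith only [hcurv]
  have main : ∀ σ : ℝ, 0 < σ → σ ≤ σ1 → α ≤ σ → ∀ k,
      |MvPolynomial.eval w (part p y k)| ≤ C4 * (C3 * σ) := by
    intro σ hσ0 hσ1 hασ k
    rw [← coeff_line]
    refine hcoef _ (line_top hd _ _).1 _ (fun t ht => ?_) k
    rw [eval_line]
    exact hmain y w σ hσ0 (hσ1.trans hσ1le) hyK hy0 hyR
      (fun s hs1 hs2 => hDy s hs1 (hs2.trans hσ1)) hw hwt hασ t ht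
  refine ⟨hcurv, fun k => ?_⟩
  by_cases hα1 : α ≤ σ1
  · have h1 : |MvPolynomial.eval w (part p y k)| ≤ C4 * (C3 * α) := by
      rcases hα0.eq_or_lt with h | h
      · refine le_of_forall_pos_le_add fun ε hε => ?_
        have hs2 : 0 < min σ1 (ε / (C4 * C3 + 1)) := lt_min hσ1' (by positivity)
        have h2 := main (min σ1 (ε / (C4 * C3 + 1))) hs2 (min_le_left _ _)
          (by rw [← h]; exact hs2.le) k
        have h3 : min σ1 (ε / (C4 * C3 + 1)) ≤ ε / (C4 * C3 + 1) := min_le_right _ _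
        have h4 : min σ1 (ε / (C4 * C3 + 1)) * (C4 * C3 + 1) ≤ ε := by
          rwa [le_div_iff₀ (by positivity)] at h3
        rw [← h]
        nlinarith only [h2, h4, hs2]
      · exact main α h hα1 le_rfl k
    refine h1.trans ?_
    have : 0 ≤ C4 * Cp / σ1 := by positivity
    nlinarith only [this, hα0]
  · push Not at hα1
    have h1 : |MvPolynomial.eval w (part p y k)| ≤ C4 * Cp := by
      rw [← coeff_line]
      refine hcoef _ (line_top hd _ _).1 _ (fun t ht => ?_) k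
      rw [eval_line]
      exact bp1 _ (hywR t ht)
    refine h1.trans ?_
    have h2 : C4 * Cp = C4 * Cp / σ1 * σ1 := by field_simp
    have h3 : 0 ≤ C4 * Cp / σ1 := by positivity
    have h4 : C4 * Cp ≤ C4 * Cp / σ1 * α := by
      have := mul_le_mul_of_nonneg_left hα1.le h3
      linarith only [this, h2]
    have : 0 ≤ C4 * C3 * α := by positivity
    nlinarith only [this, h4, hα0]

end Vale.Agent.P256.H326
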